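import Vale.Agent.P030.H866.Bridge
import Vale.Agent.P030.H905.NormOf
import Vale.Agent.P030.H787.PGVec

/-!
# P030, route N: `StAR` from the wall data and the local data of the group totals
-/

open MeasureTheory Finset Matrix Filter Topology Set

namespace Vale.Agent.P030.H866

open Vale.Agent.P030.T
open Vale.Agent.P030.H905 (Wt E0 sharpN nodes_bound sharpN_le continuous_Wt)
open Vale.Agent.P030.H265 (WallData reg_mono inv_eq_adj)
open Vale.Agent.P030.H152 (cellN cellN_le Unitri)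
open Vale.Agent.P030.H3 (SCirc)

theorem Phi_eq_tupC (g : Gp) (j : Fin 8) (t : ℂ) :
    Phi ((Gc / 2 : ℝ) : ℂ) g j t = AR.tupC g t j := by
  rw [Phi_eq]
  rfl

section local_data

variable {κ ι : Type} [DecidableEq ι] [Fintype ι] [Fintype κ]

/-- in every sharp cell of `z` the vector `v` has coordinates bounded by `B`, and the coordinates
which are not zero sit on levels of weight at most `ω` -/
def Loc (G : WallData κ ι 8) (W : Fin 8 → ℂ → ℝ) (B ω : ℝ) (z : ℂ) (v : Fin 8 → ℂ) : Prop :=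
  ∀ i, z ∈ G.T.reg G.g 0 i → ∃ y : Fin 8 → ℂ, v = y ᵥ* G.S i z ∧
    ∀ b, ‖y b‖ ≤ B ∧ (y b = 0 ∨ W b z ≤ ω)

theorem uni_of_sharp (G : WallData κ ι 8) {i : ι} {z : ℂ} (hz : z ∈ G.T.reg G.g 0 i) :
    Unitri (G.S i z) :=
  G.uni i z (G.reg_U i (reg_mono G.ε0_pos.le G.T i hz))

theorem sharpN_of_loc (G : WallData κ ι 8) (W : Fin 8 → ℂ → ℝ) {B ω : ℝ} (hB : 0 ≤ B) {z : ℂ}
    {v : Fin 8 → ℂ} (h : Loc G W B ω z v) {s : ℝ} (hs : 0 ≤ s) :
    sharpN G W s z v ≤ B * Real.exp (s * ω) := by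
  refine sharpN_le G (by positivity) fun i hi => cellN_le _ _ _ (by positivity) fun b => ?_
  obtain ⟨y, hy, hb⟩ := h i hi
  have hS := uni_of_sharp G hi
  have e1 : (v ᵥ* (G.S i z)⁻¹) b = y b := by
    rw [hy, Matrix.vecMul_vecMul, Matrix.mul_nonsing_inv _ hS.isUnit, Matrix.vecMul_one]
  rw [e1]
  rcases (hb b).2 with h0 | h0
  · rw [h0, norm_zero, zero_mul]
    positivity
  · exact mul_le_mul (hb b).1 (Real.exp_le_exp.2 (mul_le_mul_of_nonneg_left h0 hs))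
      (Real.exp_pos _).le hB

theorem continuousOn_Sc (c : Fin 4) {r : ℝ} (hr : 0 < r) (hr1 : r < 1) :
    ContinuousOn (Sc c) (Metric.sphere (0 : ℂ) r) := by
  have h1 : ∀ t ∈ Metric.sphere (0 : ℂ) r, (1 : ℂ) - t ≠ 0 := by
    intro t ht h
    have h2 : t = 1 := by linear_combination -h
    rw [mem_sphere_zero_iff_norm, h2, norm_one] at ht
    linarith
  have h2 : ∀ t ∈ Metric.sphere (0 : ℂ) r, (2 : ℂ) * t ≠ 0 := by
    intro t ht h
    have h2 : t = 0 := by simpa using h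
    rw [mem_sphere_zero_iff_norm, h2, norm_zero] at ht
    linarith
  have hc : ContinuousOn (fun t : ℂ => 1 - t) (Metric.sphere (0 : ℂ) r) :=
    (continuous_const.sub continuous_id).continuousOn
  have hd : ContinuousOn (fun t : ℂ => 2 * t) (Metric.sphere (0 : ℂ) r) :=
    (continuous_const.mul continuous_id).continuousOn
  fin_cases c
  · exact hc.inv₀ h1
  · exact hc.div_const _
  · exact (continuous_neg.continuousOn).mul (hc.inv₀ h1)
  · exact hc.neg.div hd h2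

theorem continuousOn_coord (G : WallData κ ι 8) (i : ι) {A : Set ℂ} {z : ℂ → ℂ}
    {v : ℂ → Fin 8 → ℂ} (hz : ContinuousOn z A) (hv : ContinuousOn v A)
    (hA : ∀ t ∈ A, z t ∈ G.U i) (b : Fin 8) :
    ContinuousOn (fun t => (v t ᵥ* (G.S i (z t))⁻¹) b) A := by
  have hS : ∀ p q, ContinuousOn (fun t => G.S i (z t) p q) A := fun p q =>
    ((G.hol i p q).continuousOn).comp hz fun t ht => hA t ht
  have h2 : Continuous fun t : A => G.S i (z t.1) :=
    continuous_matrix fun p q => continuousOn_iff_continuous_domRestrict.1 (hS p q)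
  have h1 : Continuous fun t : A => v t.1 := continuousOn_iff_continuous_domRestrict.1 hv
  have h3 : Continuous fun t : A => v t.1 ᵥ* (G.S i (z t.1)).adjugate :=
    Continuous.matrix_vecMul h1 h2.matrix_adjugate
  rw [continuousOn_iff_continuous_domRestrict]
  have h4 : (Set.domRestrict A fun t => (v t ᵥ* (G.S i (z t))⁻¹) b) =
      fun t : A => (v t.1 ᵥ* (G.S i (z t.1)).adjugate) b := by
    funext t
    simp only [Set.domRestrict_apply]
    rw [inv_eq_adj (G.uni i (z t.1) (hA t.1 t.2))]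
  rw [h4]
  exact (continuous_apply b).comp h3

/-- crude bound on a circle -/
theorem exists_crude (G : WallData κ ι 8) {W : Fin 8 → ℂ → ℝ} (hW : ∀ b, Continuous (W b))
    {K : Set ℂ} (hK : IsCompact K) {z : ℂ → ℂ} {v : ℂ → Fin 8 → ℂ} (hz : ContinuousOn z K)
    (hv : ContinuousOn v K) :
    ∃ ω' : ℝ, ∀ s : ℝ, 1 ≤ s → ∀ t ∈ K, sharpN G W s (z t) (v t) ≤ Real.exp (s * ω') := by
  classical
  have hcl : ∀ i, IsClosed (G.T.reg G.g 0 i) :=
    G.T.isClosed_reg (fun j => (G.smooth j).continuous) 0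
  have hcomp : ∀ i, IsCompact (K ∩ z ⁻¹' (G.T.reg G.g 0 i)) := fun i =>
    hK.of_isClosed_subset (hz.preimage_isClosed_of_isClosed hK.isClosed (hcl i)) inter_subset_left
  have h1 : ∀ p : ι × Fin 8, ∃ C : ℝ, ∀ t ∈ K ∩ z ⁻¹' (G.T.reg G.g 0 p.1),
      ‖(v t ᵥ* (G.S p.1 (z t))⁻¹) p.2‖ ≤ C := fun p =>
    (hcomp p.1).exists_bound_of_continuousOn
      (continuousOn_coord G p.1 (hz.mono inter_subset_left) (hv.mono inter_subset_left)
        (fun t ht => G.reg_U p.1 (reg_mono G.ε0_pos.le G.T p.1 ht.2)) p.2)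
  have h2 : ∀ b : Fin 8, ∃ C : ℝ, ∀ t ∈ K, ‖W b (z t)‖ ≤ C := fun b =>
    hK.exists_bound_of_continuousOn ((hW b).comp_continuousOn hz)
  choose C hC using h1
  choose M hM using h2
  set C' : ℝ := ∑ p, |C p| with hC'
  set M' : ℝ := ∑ b, |M b| with hM'
  have hC0 : 0 ≤ C' := Finset.sum_nonneg fun p _ => abs_nonneg _
  have hM0 : 0 ≤ M' := Finset.sum_nonneg fun p _ => abs_nonneg _
  refine ⟨M' + C', fun s hs t ht => ?_⟩
  refine sharpN_le G (Real.exp_pos _).le fun i hi => cellN_le _ _ _ (Real.exp_pos _).le fun b => ?_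
  have h3 : ‖(v t ᵥ* (G.S i (z t))⁻¹) b‖ ≤ C' := by
    refine (hC (i, b) t ⟨ht, hi⟩).trans ((le_abs_self _).trans ?_)
    exact Finset.single_le_sum (f := fun p => |C p|) (fun p _ => abs_nonneg _)
      (Finset.mem_univ (i, b))
  have h4 : W b (z t) ≤ M' := by
    refine (le_abs_self _).trans ((hM b t ht).trans ((le_abs_self _).trans ?_))
    exact Finset.single_le_sum (f := fun p => |M p|) (fun p _ => abs_nonneg _) (Finset.mem_univ b)
  have h5 : C' ≤ Real.exp (s * C') := by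
    have h6 := Real.add_one_le_exp (s * C')
    nlinarith
  calc ‖(v t ᵥ* (G.S i (z t))⁻¹) b‖ * Real.exp (s * W b (z t))
      ≤ Real.exp (s * C') * Real.exp (s * M') :=
        mul_le_mul (h3.trans h5) (Real.exp_le_exp.2 (mul_le_mul_of_nonneg_left h4 (by linarith)))
          (Real.exp_pos _).le (Real.exp_pos _).le
    _ = _ := by rw [← Real.exp_add]; congr 1; ring

/-- the local data give the bounds of the totals for large `s` -/
theorem loc_bound (G : WallData κ ι 8) (W : Fin 8 → ℂ → ℝ) {r : Gp → ℝ} (hr : ∀ g, 0 < r g)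
    (v : Gp → ℂ → Fin 8 → ℂ) {ω : Gp → ℝ}
    (hloc : ∀ g, ∃ B : ℝ, ∀ t : ℂ, ‖t‖ = r g → Loc G W B (ω g) (Sc g.cusp t) (v g t))
    {η : ℝ} (hη : 0 < η) : ∃ s0 : ℕ, ∀ s, s0 ≤ s → ∀ g θ,
      sharpN G W s (Sc g.cusp (circleMap 0 (r g) θ)) (v g (circleMap 0 (r g) θ)) ≤
        Real.exp (s * (ω g + η)) := by
  choose B hB using hloc
  obtain ⟨BB, hBB⟩ := Finite.exists_le B
  obtain ⟨s1, hs1⟩ := exists_nat_ge (|BB| / η)
  refine ⟨s1, fun s hs g θ => ?_⟩
  have h1 := hB g (circleMap 0 (r g) θ) (by rw [norm_circleMap_zero, abs_of_pos (hr g)])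
  have h2 : Loc G W |BB| (ω g) (Sc g.cusp (circleMap 0 (r g) θ))
      (v g (circleMap 0 (r g) θ)) := by
    intro i hi
    obtain ⟨y, hy, hb⟩ := h1 i hi
    exact ⟨y, hy, fun b => ⟨(hb b).1.trans ((hBB g).trans (le_abs_self _)), (hb b).2⟩⟩
  have h3 := sharpN_of_loc G W (abs_nonneg BB) h2 (s := s) (Nat.cast_nonneg s)
  refine h3.trans ?_
  have hsη : |BB| ≤ s * η := by
    rw [div_le_iff₀ hη] at hs1
    have : (s1 : ℝ) ≤ s := by exact_mod_cast hs
    nlinarith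
  have h4 : |BB| ≤ Real.exp (s * η) := by
    have := Real.add_one_le_exp ((s : ℝ) * η)
    linarith
  calc |BB| * Real.exp (s * ω g) ≤ Real.exp (s * η) * Real.exp (s * ω g) :=
        mul_le_mul_of_nonneg_right h4 (Real.exp_pos _).le
    _ = Real.exp (s * (ω g + η)) := by rw [← Real.exp_add]; congr 1; ring

end local_data

/-! ### the determinant bound in the original coordinates -/

theorem normBound_of_det {A : Set ℂ} {D : ℕ} {N : ℂ → (Fin 8 → ℂ) → ℝ} (hN : ∀ z v, 0 ≤ N z v)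
    {B0 : ℝ}
    (h : ∀ (a : Fin D × Fin 8 → ℂ) (v : Fin D × Fin 8 → Fin 8 → ℂ), (∀ i, a i ∈ A) →
      H352.adet (H352.ptM (fun _ : Fin 8 => D) a v) ≤ B0 * ∏ i, N (a i) (v i))
    {R : Matrix (Fin 8) (Fin 8) ℂ} (hR : R.det ≠ 0) {B : ℝ} (hB : B0 ≤ B * ‖R.det‖ ^ D) :
    NormBoundOn A D (fun z v => N z (R *ᵥ v)) B := by
  intro a v ha
  have h1 := h a (fun c => R *ᵥ v c) ha
  rw [adet_ptM, norm_det_coord] at h1
  have hR0 : 0 < ‖R.det‖ ^ D := pow_pos (norm_pos_iff.2 hR) _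
  have h2 : 0 ≤ ∏ i, N (a i) (R *ᵥ v i) := Finset.prod_nonneg fun i _ => hN _ _
  have h3 := h1.trans (mul_le_mul_of_nonneg_right hB h2)
  rw [mul_assoc, mul_left_comm] at h3
  exact le_of_mul_le_mul_left h3 hR0

theorem arith_det {D0 s : ℕ} {E η Rn : ℝ} (hRp : 0 < Rn)
    (h3 : |Real.log Rn| * D0 ≤ η / 10 * s) :
    Real.exp (-(E - η / 2) * (s : ℝ) ^ 2) ≤
      Real.exp (-(E - η) * (s : ℝ) ^ 2) * Rn ^ (D0 * s) := by
  have e2 : Rn ^ (D0 * s) = Real.exp ((D0 * s : ℕ) * Real.log Rn) := by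
    rw [← Real.rpow_natCast, Real.rpow_def_of_pos hRp, mul_comm]
  rw [e2, ← Real.exp_add]
  refine Real.exp_le_exp.2 ?_
  push_cast
  have hs0 : (0 : ℝ) ≤ s := Nat.cast_nonneg s
  have h4 : -(|Real.log Rn| * D0 * s) ≤ D0 * s * Real.log Rn := by
    have h := neg_abs_le (Real.log Rn)
    have h5 : (0 : ℝ) ≤ D0 * s := by positivity
    nlinarith
  have h6 : |Real.log Rn| * D0 * s ≤ η / 10 * s * s :=
    mul_le_mul_of_nonneg_right h3 hs0
  have h7 : 0 ≤ |Real.log Rn| * D0 * s := by positivity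
  nlinarith

/-- the determinant bound of route N for the weights `s W b`, at bounded points -/
def DetB {κ ι : Type} [DecidableEq ι] [Fintype ι] [Fintype κ] (G : WallData κ ι 8)
    (W : Fin 8 → ℂ → ℝ) (D0 : ℕ) (E : ℝ) : Prop :=
  ∀ R1 ε : ℝ, 0 < ε → ∀ᶠ s : ℕ in atTop, ∀ (a : Fin (D0 * s) × Fin 8 → ℂ)
    (v : Fin (D0 * s) × Fin 8 → Fin 8 → ℂ), (∀ i, ‖a i‖ ≤ R1) →
    H352.adet (H352.ptM (fun _ : Fin 8 => D0 * s) a v) ≤
      Real.exp (-(E - ε) * (s : ℝ) ^ 2) * ∏ i, sharpN G W s (a i) (v i)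

theorem exists_R1 {r : Gp → ℝ} (hr : ∀ g, 0 < r g) (hr1 : ∀ g, r g < 1) :
    ∃ R1 : ℝ, ∀ g θ, ‖Sc g.cusp (circleMap 0 (r g) θ)‖ ≤ R1 := by
  have h : ∀ g : Gp, ∃ C : ℝ, ∀ t ∈ Metric.sphere (0 : ℂ) (r g), ‖Sc g.cusp t‖ ≤ C := fun g =>
    (isCompact_sphere _ _).exists_bound_of_continuousOn (continuousOn_Sc _ (hr g) (hr1 g))
  choose C hC using h
  obtain ⟨R1, hR1⟩ := Finite.exists_le C
  refine ⟨R1, fun g θ => (hC g _ ?_).trans (hR1 g)⟩
  rw [mem_sphere_zero_iff_norm, norm_circleMap_zero, abs_of_pos (hr g)]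

/-- **`StAR` from the wall data**: a determinant bound for the weights `W` and the local data of the
17 group totals on their circles -/
theorem stAR_of_det {κ ι : Type} [DecidableEq ι] [Fintype ι] [Fintype κ]
    (P : Par) (c0 : ℕ) (hcard : ∑ g : Gp, P.ht g = 8 * P.D0) (hD0 : 0 < P.D0)
    (r : Gp → ℝ) (hr : ∀ g, 0 < r g) (hr1 : ∀ g, r g < 1) (T : Tot P r)
    (R : Matrix (Fin 8) (Fin 8) ℂ) (hR : R.det ≠ 0) (G : WallData κ ι 8)
    {W : Fin 8 → ℂ → ℝ} (hW : ∀ b, Continuous (W b)) {E : ℝ} (hdet : DetB G W P.D0 E)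
    (ω : Gp → ℝ)
    (hloc : ∀ g, ∃ B : ℝ, ∀ t : ℂ, ‖t‖ = r g →
      Loc G W B (ω g) (Sc g.cusp t) (R *ᵥ ∑ g', ((T.al g g' : ℝ) : ℂ) • AR.tupC g' t)) :
    StAR P c0 (E - Qm P r ω) := by
  -- crude bounds
  have hcr : ∀ g, ∃ ω' : ℝ, ∀ s : ℝ, 1 ≤ s → ∀ t ∈ Metric.sphere (0 : ℂ) (r g),
      sharpN G W s (Sc g.cusp t) (R *ᵥ AR.tupC g t) ≤ Real.exp (s * ω') := by
    intro g
    refine exists_crude G hW (isCompact_sphere _ _) (continuousOn_Sc _ (hr g) (hr1 g)) ?_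
    have h1 : ContinuousOn (fun t => AR.tupC g t) (Metric.sphere (0 : ℂ) (r g)) := by
      refine continuousOn_pi.2 fun j => ((H787.diff_tupC g j).continuousOn).mono ?_
      intro t ht
      rw [mem_ball_zero_iff, mem_sphere_zero_iff_norm.1 ht]
      exact hr1 g
    exact (Continuous.matrix_mulVec continuous_const continuous_id).comp_continuousOn h1
  choose ω' hω' using hcr
  obtain ⟨R1, hR1⟩ := exists_R1 hr hr1
  refine stAR_of_nodes_on P c0 hcard hD0 r hr hr1 (fun g j => Sm_tup0 (hr g).le (hr1 g) g j)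
    (fun g j => Sm_tup1 (hr g).le (hr1 g) g j) T (fun s z v => sharpN G W s z (R *ᵥ v))
    (fun s z v => apply_nonneg _ _) E {z | ‖z‖ ≤ R1} (fun g θ => hR1 g θ) ?_ ω ω' ?_ ?_
  · intro η hη
    have hη2 : 0 < η / 2 := by positivity
    obtain ⟨s1, h1⟩ := eventually_atTop.1 (hdet R1 (η / 2) hη2)
    obtain ⟨s2, h2⟩ := exists_small_R P.D0 (Real.log ‖R.det‖) hη
    refine ⟨max s1 s2, fun s hs => ?_⟩
    have h3 := h1 s (le_trans (le_max_left _ _) hs)
    exact normBound_of_det (N := fun z v => sharpN G W s z v) (fun z v => apply_nonneg _ _)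
      (fun a v ha => h3 a v ha) hR
      (arith_det (norm_pos_iff.2 hR) (h2 s (le_trans (le_max_right _ _) hs)))
  · intro η hη
    obtain ⟨s1, h1⟩ := loc_bound G W hr
      (fun g t => R *ᵥ ∑ g', ((T.al g g' : ℝ) : ℂ) • AR.tupC g' t) hloc hη
    refine ⟨s1, fun s hs g θ => ?_⟩
    have h2 := h1 s hs g θ
    have e1 : (fun j => ∑ g', ((T.al g g' : ℝ) : ℂ) *
        Phi ((Gc / 2 : ℝ) : ℂ) g' j (circleMap 0 (r g) θ)) =
        ∑ g', ((T.al g g' : ℝ) : ℂ) • AR.tupC g' (circleMap 0 (r g) θ) := by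
      funext j
      rw [Finset.sum_apply]
      refine Finset.sum_congr rfl fun g' _ => ?_
      rw [Phi_eq_tupC, Pi.smul_apply, smul_eq_mul]
    rw [e1]
    exact h2
  · refine ⟨1, fun s hs g θ => ?_⟩
    have h1 := hω' g s (by exact_mod_cast hs) (circleMap 0 (r g) θ) (by
      rw [mem_sphere_zero_iff_norm, norm_circleMap_zero, abs_of_pos (hr g)])
    have e1 : (fun j => Phi ((Gc / 2 : ℝ) : ℂ) g j (circleMap 0 (r g) θ)) =
        AR.tupC g (circleMap 0 (r g) θ) := by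
      funext j
      rw [Phi_eq_tupC]
    rw [e1]
    exact h1

/-- the determinant bound for circle potentials, from condition (C) on the walls -/
theorem detB_of_walls {κ ι : Type} [DecidableEq ι] [Fintype ι] [Fintype κ] (G : WallData κ ι 8)
    (D0 : ℕ) {κc : Fin 8 → Type} [∀ b, Fintype (κc b)] (μ : ∀ b, SCirc (κc b)) (γ : Fin 8 → ℝ)
    (hC : G.Cond (Wt (fun _ => D0) μ γ)) :
    DetB G (Wt (fun _ => D0) μ γ) D0 (E0 (fun _ => D0) μ γ) := by
  intro R1 ε hε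
  filter_upwards [nodes_bound G (fun _ => D0) (fun _ _ _ => le_rfl) μ γ hC hε] with s hs a v _
  exact hs (Fin (D0 * s) × Fin 8) (Fintype.card_congr (sigEquiv (D0 * s))) a v

/-- **`StAR` from the wall data**: condition (C) on the walls for the potentials `D₀ U + γ`, and the
local data of the 17 group totals on their circles -/
theorem stAR_of_walls {κ ι : Type} [DecidableEq ι] [Fintype ι] [Fintype κ]
    (P : Par) (c0 : ℕ) (hcard : ∑ g : Gp, P.ht g = 8 * P.D0) (hD0 : 0 < P.D0)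
    (r : Gp → ℝ) (hr : ∀ g, 0 < r g) (hr1 : ∀ g, r g < 1) (T : Tot P r)
    (R : Matrix (Fin 8) (Fin 8) ℂ) (hR : R.det ≠ 0) (G : WallData κ ι 8)
    {κc : Fin 8 → Type} [∀ b, Fintype (κc b)] (μ : ∀ b, SCirc (κc b)) (γ : Fin 8 → ℝ)
    (hC : G.Cond (Wt (fun _ => P.D0) μ γ)) (ω : Gp → ℝ)
    (hloc : ∀ g, ∃ B : ℝ, ∀ t : ℂ, ‖t‖ = r g →
      Loc G (Wt (fun _ => P.D0) μ γ) B (ω g) (Sc g.cusp t)
        (R *ᵥ ∑ g', ((T.al g g' : ℝ) : ℂ) • AR.tupC g' t)) :
    StAR P c0 (E0 (fun _ => P.D0) μ γ - Qm P r ω) :=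
  stAR_of_det P c0 hcard hD0 r hr hr1 T R hR G (continuous_Wt _ μ γ)
    (detB_of_walls G P.D0 μ γ hC) ω hloc

end Vale.Agent.P030.H866
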