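import Mathlib

/-!
# Determinants whose columns are integrals; Taylor coefficients as integrals over a circle
-/

open MeasureTheory Matrix

namespace Vale.Agent.P030.H866

section DetInt

variable {n : Type*} [Fintype n] [DecidableEq n] {Ω : Type*} [MeasurableSpace Ω]

/-- the determinant of a matrix with integrated columns -/
theorem det_integral (μ : n → Measure Ω) [∀ c, SigmaFinite (μ c)] (v : n → Ω → n → ℂ)
    (hint : ∀ c i, Integrable (fun x => v c x i) (μ c)) :
    (Matrix.of fun i c => ∫ x, v c x i ∂(μ c)).det =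
      ∫ x : n → Ω, (Matrix.of fun i c => v c (x c) i).det ∂(Measure.pi μ) := by
  have h1 : ∀ σ : Equiv.Perm n, Integrable (fun x : n → Ω =>
      ((Equiv.Perm.sign σ : ℤ) : ℂ) * ∏ c, v c (x c) (σ c)) (Measure.pi μ) := fun σ =>
    (Integrable.fintype_prod (μ := μ) (f := fun c x => v c x (σ c))
      (fun c => hint c _)).const_mul _
  simp only [Matrix.det_apply', Matrix.of_apply]
  rw [integral_finsetSum _ fun σ _ => h1 σ]
  refine Finset.sum_congr rfl fun σ _ => ?_
  rw [integral_const_mul]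
  congr 1
  exact (integral_fintype_prod_eq_prod (μ := μ) (f := fun c x => v c x (σ c))).symm

/-- the bound for a determinant with integrated columns -/
theorem norm_det_integral_le (μ : n → Measure Ω) [∀ c, SigmaFinite (μ c)] (v : n → Ω → n → ℂ)
    (hint : ∀ c i, Integrable (fun x => v c x i) (μ c)) (ψ : n → Ω → ℝ)
    (hψ : ∀ c, Integrable (ψ c) (μ c)) {B : ℝ}
    (hB : ∀ᵐ x ∂(Measure.pi μ), ‖(Matrix.of fun i c => v c (x c) i).det‖ ≤ B * ∏ c, ψ c (x c)) :
    ‖(Matrix.of fun i c => ∫ x, v c x i ∂(μ c)).det‖ ≤ B * ∏ c, ∫ x, ψ c x ∂(μ c) := by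
  rw [det_integral μ v hint]
  have h2 : Integrable (fun x : n → Ω => B * ∏ c, ψ c (x c)) (Measure.pi μ) :=
    (Integrable.fintype_prod (μ := μ) (f := fun c x => ψ c x) hψ).const_mul _
  refine (norm_integral_le_of_norm_le h2 hB).trans_eq ?_
  rw [integral_const_mul]
  congr 1
  exact integral_fintype_prod_eq_prod (μ := μ) (f := fun c x => ψ c x)

omit [DecidableEq n] in
theorem ae_pi_of_forall (μ : n → Measure Ω) [∀ c, SigmaFinite (μ c)] {p : n → Ω → Prop}
    (hp : ∀ c, ∀ᵐ x ∂(μ c), p c x) : ∀ᵐ x ∂(Measure.pi μ), ∀ c, p c (x c) := by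
  rw [ae_all_iff]
  intro c
  exact (Measure.tendsto_eval_ae_ae (μ := μ) (i := c)).eventually (hp c)

end DetInt

section Circle

/-- the integral of `t^m` over the circle -/
theorem integral_circle_zpow {r : ℝ} (_hr : 0 < r) (m : ℤ) :
    ∫ θ in (0 : ℝ)..2 * Real.pi, (circleMap 0 r θ) ^ m = if m = 0 then 2 * (Real.pi : ℂ) else 0 := by
  have hc : ∀ θ : ℝ, (circleMap 0 r θ) ^ m = (r : ℂ) ^ m * Complex.exp ((m * Complex.I) * θ) := by
    intro θ
    rw [circleMap_zero, mul_zpow, ← Complex.exp_int_mul]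
    congr 2
    ring
  simp only [hc]
  rw [intervalIntegral.integral_const_mul]
  split_ifs with h
  · subst h
    simp
  · have h1 : (m : ℂ) * Complex.I ≠ 0 :=
      mul_ne_zero (by exact_mod_cast h) Complex.I_ne_zero
    rw [integral_exp_mul_complex h1]
    have h2 : Complex.exp ((m * Complex.I) * ((2 * Real.pi : ℝ) : ℂ)) = 1 := by
      rw [Complex.exp_eq_one_iff]
      refine ⟨m, ?_⟩
      push_cast
      ring
    rw [h2]
    simp

theorem norm_circleMap {r : ℝ} (hr : 0 < r) (θ : ℝ) : ‖circleMap 0 r θ‖ = r := by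
  simp [abs_of_pos hr]

theorem circleMap_ne {r : ℝ} (hr : 0 < r) (θ : ℝ) : circleMap 0 r θ ≠ 0 := by
  intro h
  have := norm_circleMap hr θ
  rw [h, norm_zero] at this
  exact hr.ne this

/-- Taylor coefficients as integrals over a circle -/
theorem coeff_eq_integral {a : ℕ → ℂ} {r : ℝ} (hr : 0 < r)
    (ha : Summable fun n => ‖a n‖ * r ^ n) (k : ℕ) :
    a k = (2 * (Real.pi : ℂ))⁻¹ * ∫ θ in (0 : ℝ)..2 * Real.pi,
      (∑' n, a n * (circleMap 0 r θ) ^ n) * (circleMap 0 r θ) ^ (-(k : ℤ)) := by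
  have hpi : (2 * (Real.pi : ℂ)) ≠ 0 := by
    have : (Real.pi : ℂ) ≠ 0 := by exact_mod_cast Real.pi_ne_zero
    exact mul_ne_zero two_ne_zero this
  set F : ℕ → ℝ → ℂ := fun n θ => a n * (circleMap 0 r θ) ^ ((n : ℤ) - k) with hF
  have hterm : ∀ θ : ℝ, (∑' n, a n * (circleMap 0 r θ) ^ n) * (circleMap 0 r θ) ^ (-(k : ℤ)) =
      ∑' n, F n θ := by
    intro θ
    rw [← tsum_mul_right]
    refine tsum_congr fun n => ?_
    rw [hF]
    dsimp only
    rw [sub_eq_add_neg, zpow_add₀ (circleMap_ne hr θ), zpow_natCast]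
    ring
  have hcont : ∀ n, Continuous (F n) := by
    intro n
    refine continuous_const.mul ?_
    exact (continuous_circleMap 0 r).zpow₀ _ fun θ => Or.inl (circleMap_ne hr θ)
  have hnorm : ∀ n θ, ‖F n θ‖ = ‖a n‖ * r ^ n * r ^ (-(k : ℤ)) := by
    intro n θ
    rw [hF]
    dsimp only
    rw [norm_mul, norm_zpow, norm_circleMap hr, sub_eq_add_neg, zpow_add₀ hr.ne', zpow_natCast]
    ring
  have hsum : HasSum (fun n => ∫ θ in (0 : ℝ)..2 * Real.pi, F n θ)
      (∫ θ in (0 : ℝ)..2 * Real.pi, ∑' n, F n θ) := by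
    refine intervalIntegral.hasSum_intervalIntegral_of_summable_norm (f := fun n => ⟨F n, hcont n⟩) ?_
    refine Summable.of_nonneg_of_le (fun n => norm_nonneg _) (fun n => ?_)
      (ha.mul_right (r ^ (-(k : ℤ))))
    refine (ContinuousMap.norm_le _ (by positivity)).2 fun x => ?_
    exact (hnorm n _).le
  have hval : ∀ n, ∫ θ in (0 : ℝ)..2 * Real.pi, F n θ =
      if n = k then 2 * (Real.pi : ℂ) * a k else 0 := by
    intro n
    rw [hF]
    dsimp only
    rw [intervalIntegral.integral_const_mul, integral_circle_zpow hr]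
    by_cases h : n = k
    · subst h; simp; ring
    · have : ¬ ((n : ℤ) - k = 0) := by omega
      rw [if_neg this, if_neg h, mul_zero]
  simp only [hterm]
  have h3 := hsum.tsum_eq
  simp only [hval] at h3
  rw [tsum_ite_eq] at h3
  rw [← h3, ← mul_assoc, inv_mul_cancel₀ hpi, one_mul]

end Circle

end Vale.Agent.P030.H866
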