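import Mathlib

/-!
# The rows `(S-1)^i S^(D-1-i)` against the rows `S^i`, and expansion of a determinant over types
-/

open Matrix Polynomial MeasureTheory

namespace Vale.Agent.P030.H866

/-- the row monomial `(S-1)^i S^(D-1-i)` -/
def qq (D i : ℕ) (S : ℂ) : ℂ := (S - 1) ^ i * S ^ (D - 1 - i)

/-- the same as a polynomial -/
noncomputable def qP (D i : ℕ) : ℂ[X] := (X - 1) ^ i * X ^ (D - 1 - i)

theorem qP_eval (D i : ℕ) (S : ℂ) : (qP D i).eval S = qq D i S := by
  simp [qP, qq]

theorem qP_natDegree {D i : ℕ} (hi : i < D) : (qP D i).natDegree < D := by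
  have h1 : (qP D i).natDegree ≤ i * 1 + (D - 1 - i) * 1 := by
    refine (natDegree_mul_le).trans (add_le_add ?_ ?_)
    · refine (natDegree_pow_le).trans (Nat.mul_le_mul_left _ ?_)
      have : (X - 1 : ℂ[X]) = X - C 1 := by simp
      rw [this]
      exact (natDegree_X_sub_C (1 : ℂ)).le
    · exact (natDegree_pow_le).trans (Nat.mul_le_mul_left _ natDegree_X_le)
  omega

theorem qP_coeff_lt {D i j : ℕ} (hj : j < D - 1 - i) : (qP D i).coeff j = 0 := by
  rw [qP, coeff_mul_X_pow', if_neg (by omega)]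

theorem qP_coeff_eq (D i : ℕ) : (qP D i).coeff (D - 1 - i) = (-1) ^ i := by
  rw [qP, coeff_mul_X_pow', if_pos le_rfl, Nat.sub_self, coeff_zero_eq_eval_zero]
  simp

/-- the transition matrix -/
noncomputable def Tm (D : ℕ) : Matrix (Fin D) (Fin D) ℂ :=
  Matrix.of fun i a => (qP D i).coeff a

theorem norm_det_Tm (D : ℕ) : ‖(Tm D).det‖ = 1 := by
  have h1 : ((Tm D).submatrix Fin.revPerm id).det =
      ((Equiv.Perm.sign (Fin.revPerm (n := D)) : ℤ) : ℂ) * (Tm D).det := by
    rw [Matrix.det_permute]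
  have h2 : ‖((Equiv.Perm.sign (Fin.revPerm (n := D)) : ℤ) : ℂ)‖ = 1 := by
    rcases Int.units_eq_one_or (Equiv.Perm.sign (Fin.revPerm (n := D))) with h | h <;> simp [h]
  have h3 : ‖((Tm D).submatrix Fin.revPerm id).det‖ = 1 := by
    rw [Matrix.det_of_isUpperTriangular]
    · rw [norm_prod]
      refine Finset.prod_eq_one fun i _ => ?_
      have hi := i.2
      have h4 : ((Tm D).submatrix Fin.revPerm id) i i = (-1) ^ (D - 1 - (i : ℕ)) := by
        simp only [Matrix.submatrix_apply, Tm, Matrix.of_apply, id, Fin.revPerm_apply, Fin.val_rev]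
        have e1 : D - ((i : ℕ) + 1) = D - 1 - i := by omega
        have e2 := qP_coeff_eq D (D - 1 - i)
        rw [e1]
        have e3 : D - 1 - (D - 1 - (i : ℕ)) = i := by omega
        rw [e3] at e2
        exact e2
      rw [h4]
      simp
    · intro i j hij
      have hij' : (j : ℕ) < i := hij
      have hi := i.2
      simp only [Matrix.submatrix_apply, Tm, Matrix.of_apply, id, Fin.revPerm_apply, Fin.val_rev]
      exact qP_coeff_lt (by omega)
  rw [h1, norm_mul, h2, one_mul] at h3
  exact h3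

theorem qq_eq_sum {D : ℕ} (i : Fin D) (S : ℂ) : qq D i S = ∑ a : Fin D, Tm D i a * S ^ (a : ℕ) := by
  rw [← qP_eval, eval_eq_sum_range' (qP_natDegree i.2), Finset.sum_range]
  rfl

/-- the row bases `(S-1)^i S^(D-1-i)` and `S^i` give the same determinants up to a unit -/
theorem norm_det_qq {D m : ℕ} (a : Fin D × Fin m → ℂ) (G : Fin D × Fin m → Fin m → ℂ) :
    ‖(Matrix.of fun (r c : Fin D × Fin m) => qq D r.1 (a c) * G c r.2).det‖ =
      ‖(Matrix.of fun (r c : Fin D × Fin m) => (a c) ^ (r.1 : ℕ) * G c r.2).det‖ := by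
  have h1 : (Matrix.of fun (r c : Fin D × Fin m) => qq D r.1 (a c) * G c r.2) =
      (Matrix.kroneckerMap (· * ·) (Tm D) (1 : Matrix (Fin m) (Fin m) ℂ)) *
        (Matrix.of fun (r c : Fin D × Fin m) => (a c) ^ (r.1 : ℕ) * G c r.2) := by
    ext ⟨i, j⟩ c
    rw [Matrix.mul_apply]
    simp only [Matrix.of_apply, Matrix.kroneckerMap_apply]
    rw [Fintype.sum_prod_type, qq_eq_sum, Finset.sum_mul]
    refine Finset.sum_congr rfl fun x _ => ?_
    simp only [Matrix.one_apply, mul_ite, mul_one, mul_zero, ite_mul, zero_mul,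
      Finset.sum_ite_eq, Finset.mem_univ, if_true]
    ring
  rw [h1, Matrix.det_mul, norm_mul, Matrix.det_kronecker]
  simp [norm_det_Tm]

/-- expansion of a determinant whose columns are sums over types -/
theorem det_sum_cols {n Ty : Type*} [Fintype n] [DecidableEq n] [Fintype Ty]
    (a : n → Ty → n → ℂ) :
    (Matrix.of fun i c => ∑ b, a c b i).det =
      ∑ β : n → Ty, (Matrix.of fun i c => a c (β c) i).det := by
  classical
  have h1 : ∀ M : Matrix n n ℂ, M.det = Matrix.detRowAlternating (fun c => fun i => M i c) := by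
    intro M
    rw [← Matrix.det_transpose]
    rfl
  rw [h1]
  have h2 : (fun c i => (Matrix.of fun i c => ∑ b, a c b i) i c) = fun c => ∑ b, a c b := by
    funext c i
    simp
  rw [h2]
  have h3 := (Matrix.detRowAlternating (n := n) (R := ℂ)).toMultilinearMap.map_sum
    (fun c b => a c b)
  rw [AlternatingMap.coe_multilinearMap] at h3
  rw [h3]
  refine Finset.sum_congr rfl fun β _ => ?_
  rw [h1]
  rfl

end Vale.Agent.P030.H866
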