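import Vale.Agent.P030.T.Defs
import Vale.Agent.P030.H866.ColInt
import Vale.Agent.P030.H866.Trans

/-!
# Evaluation of the series of the frame T; entries of the matrix as integrals over circles
-/

open PowerSeries MeasureTheory Finset

namespace Vale.Agent.P030.H866

open Vale.Agent.P030.T

/-- absolute summability at radius `r` -/
def Sm (r : ℝ) (f : ℚ⟦X⟧) : Prop := Summable fun n => ‖((coeff n f : ℚ) : ℂ)‖ * r ^ n

/-- the sum of the series -/
noncomputable def evl (f : ℚ⟦X⟧) (t : ℂ) : ℂ := ∑' n, ((coeff n f : ℚ) : ℂ) * t ^ n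

theorem Sm.norm {r : ℝ} {f : ℚ⟦X⟧} (hf : Sm r f) {t : ℂ} (ht : ‖t‖ ≤ r) :
    Summable fun n => ‖((coeff n f : ℚ) : ℂ) * t ^ n‖ := by
  refine Summable.of_nonneg_of_le (fun n => norm_nonneg _) (fun n => ?_) hf
  rw [norm_mul, norm_pow]
  gcongr

theorem Sm.mul {r : ℝ} (hr : 0 ≤ r) {f g : ℚ⟦X⟧} (hf : Sm r f) (hg : Sm r g) : Sm r (f * g) := by
  have h := summable_norm_sum_mul_antidiagonal_of_summable_norm
    (f := fun n => ‖((coeff n f : ℚ) : ℂ)‖ * r ^ n) (g := fun n => ‖((coeff n g : ℚ) : ℂ)‖ * r ^ n)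
    (hf.congr fun n => by rw [Real.norm_of_nonneg (by positivity)])
    (hg.congr fun n => by rw [Real.norm_of_nonneg (by positivity)])
  refine Summable.of_nonneg_of_le (fun n => by positivity) (fun n => ?_) h
  refine le_trans ?_ (le_abs_self _)
  rw [coeff_mul]
  push_cast
  refine le_trans (mul_le_mul_of_nonneg_right (norm_sum_le _ _) (by positivity)) ?_
  rw [Finset.sum_mul]
  refine Finset.sum_le_sum fun p hp => ?_
  rw [norm_mul, ← Finset.HasAntidiagonal.mem_antidiagonal.1 hp, pow_add]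
  apply le_of_eq
  ring

theorem evl_mul {r : ℝ} {f g : ℚ⟦X⟧} (hf : Sm r f) (hg : Sm r g) {t : ℂ} (ht : ‖t‖ ≤ r) :
    evl (f * g) t = evl f t * evl g t := by
  unfold evl
  rw [tsum_mul_tsum_eq_tsum_sum_antidiagonal_of_summable_norm (hf.norm ht) (hg.norm ht)]
  refine tsum_congr fun n => ?_
  rw [coeff_mul]
  push_cast
  rw [Finset.sum_mul]
  refine Finset.sum_congr rfl fun p hp => ?_
  rw [← Finset.HasAntidiagonal.mem_antidiagonal.1 hp, pow_add]
  ring

theorem Sm.add {r : ℝ} (hr : 0 ≤ r) {f g : ℚ⟦X⟧} (hf : Sm r f) (hg : Sm r g) : Sm r (f + g) := by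
  refine Summable.of_nonneg_of_le (fun n => by positivity) (fun n => ?_) (Summable.add hf hg)
  rw [map_add]
  push_cast
  rw [← add_mul]
  exact mul_le_mul_of_nonneg_right (norm_add_le _ _) (by positivity)

theorem evl_add {r : ℝ} {f g : ℚ⟦X⟧} (hf : Sm r f) (hg : Sm r g) {t : ℂ} (ht : ‖t‖ ≤ r) :
    evl (f + g) t = evl f t + evl g t := by
  unfold evl
  rw [← (hf.norm ht).of_norm.tsum_add (hg.norm ht).of_norm]
  refine tsum_congr fun n => ?_
  rw [map_add]
  push_cast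
  ring

theorem Sm_of_finite {r : ℝ} {f : ℚ⟦X⟧} {N : ℕ} (h : ∀ n, N ≤ n → coeff n f = 0) : Sm r f := by
  refine summable_of_ne_finset_zero (s := Finset.range N) fun n hn => ?_
  rw [h n (by simpa using hn)]
  simp

theorem evl_of_finite {f : ℚ⟦X⟧} {N : ℕ} (h : ∀ n, N ≤ n → coeff n f = 0) (t : ℂ) :
    evl f t = ∑ n ∈ Finset.range N, ((coeff n f : ℚ) : ℂ) * t ^ n := by
  unfold evl
  refine tsum_eq_sum fun n hn => ?_
  rw [h n (by simpa using hn)]
  simp

theorem Sm_C (r : ℝ) (q : ℚ) : Sm r (C q) :=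
  Sm_of_finite (N := 1) fun n hn => by rw [coeff_C, if_neg (by omega)]

theorem evl_C (q : ℚ) (t : ℂ) : evl (C q) t = q := by
  rw [evl_of_finite (N := 1) fun n hn => by rw [coeff_C, if_neg (by omega)]]
  simp

theorem Sm_one (r : ℝ) : Sm r 1 := by
  have := Sm_C r 1
  simpa using this

theorem evl_one (t : ℂ) : evl 1 t = 1 := by
  have := evl_C 1 t
  simpa using this

theorem Sm_X (r : ℝ) : Sm r X :=
  Sm_of_finite (N := 2) fun n hn => by rw [coeff_X, if_neg (by omega)]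

theorem evl_X (t : ℂ) : evl X t = t := by
  rw [evl_of_finite (N := 2) fun n hn => by rw [coeff_X, if_neg (by omega)]]
  simp [Finset.sum_range_succ, coeff_X]

theorem Sm_neg {r : ℝ} {f : ℚ⟦X⟧} (hf : Sm r f) : Sm r (-f) := by
  refine hf.congr fun n => ?_
  rw [map_neg]
  push_cast
  rw [norm_neg]

theorem evl_neg (f : ℚ⟦X⟧) (t : ℂ) : evl (-f) t = -evl f t := by
  unfold evl
  rw [← tsum_neg]
  refine tsum_congr fun n => ?_
  rw [map_neg]
  push_cast
  ring

theorem Sm.pow {r : ℝ} (hr : 0 ≤ r) {f : ℚ⟦X⟧} (hf : Sm r f) (n : ℕ) : Sm r (f ^ n) := by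
  induction n with
  | zero => rw [pow_zero]; exact Sm_one r
  | succ n ih => rw [pow_succ]; exact ih.mul hr hf

theorem evl_pow {r : ℝ} (hr : 0 ≤ r) {f : ℚ⟦X⟧} (hf : Sm r f) {t : ℂ} (ht : ‖t‖ ≤ r) (n : ℕ) :
    evl (f ^ n) t = evl f t ^ n := by
  induction n with
  | zero => rw [pow_zero, pow_zero, evl_one]
  | succ n ih => rw [pow_succ, pow_succ, evl_mul (hf.pow hr n) hf ht, ih]

theorem Sm_geo {r : ℝ} (hr : 0 ≤ r) (hr1 : r < 1) : Sm r geo := by
  refine (summable_geometric_of_lt_one hr hr1).congr fun n => ?_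
  simp [geo, coeff_mk]

theorem evl_geo {t : ℂ} (ht : ‖t‖ < 1) : evl geo t = (1 - t)⁻¹ := by
  unfold evl
  rw [← tsum_geometric_of_norm_lt_one ht]
  refine tsum_congr fun n => ?_
  simp [geo, coeff_mk]

/-- the point of the `S`-line with local parameter `t` at the cusp `c` -/
noncomputable def Sc (c : Fin 4) (t : ℂ) : ℂ :=
  match c with
  | 0 => (1 - t)⁻¹
  | 1 => (1 - t) / 2
  | 2 => -t * (1 - t)⁻¹
  | 3 => -(1 - t) / (2 * t)

/-- the factor which clears the pole at `c3` -/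
noncomputable def fac (D : ℕ) (c : Fin 4) (t : ℂ) : ℂ := if c = 3 then t ^ (D - 1) else 1

theorem Sm_one_add_X (r : ℝ) : Sm r (1 + X) :=
  Sm_of_finite (N := 2) fun n hn => by
    rw [map_add, coeff_one, coeff_X, if_neg (by omega), if_neg (by omega), add_zero]

theorem Sm_one_sub_X (r : ℝ) : Sm r (1 - X) :=
  Sm_of_finite (N := 2) fun n hn => by
    rw [map_sub, coeff_one, coeff_X, if_neg (by omega), if_neg (by omega), sub_zero]

theorem evl_one_add_X (t : ℂ) : evl (1 + X) t = 1 + t := by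
  rw [evl_add (r := ‖t‖) (Sm_one _) (Sm_X _) le_rfl, evl_one, evl_X]

theorem evl_one_sub_X (t : ℂ) : evl (1 - X) t = 1 - t := by
  rw [sub_eq_add_neg, evl_add (r := ‖t‖) (Sm_one _) (Sm_neg (Sm_X _)) le_rfl, evl_one, evl_neg,
    evl_X, sub_eq_add_neg]

theorem Sm_mon {r : ℝ} (hr : 0 ≤ r) (hr1 : r < 1) (D : ℕ) (c : Fin 4) (i : ℕ) :
    Sm r (mon D c i) := by
  fin_cases c
  · exact ((Sm_X r).pow hr _).mul hr ((Sm_geo hr hr1).pow hr _)
  · exact (Sm_C r _).mul hr (((Sm_one_add_X r).pow hr _).mul hr ((Sm_one_sub_X r).pow hr _))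
  · exact (Sm_C r _).mul hr (((Sm_X r).pow hr _).mul hr ((Sm_geo hr hr1).pow hr _))
  · exact (Sm_C r _).mul hr (((Sm_one_add_X r).pow hr _).mul hr ((Sm_one_sub_X r).pow hr _))

theorem evl_mon {r : ℝ} (hr : 0 ≤ r) (hr1 : r < 1) {D : ℕ} (c : Fin 4) {i : ℕ} (hi : i < D)
    {t : ℂ} (ht : ‖t‖ ≤ r) (ht0 : t ≠ 0) :
    evl (mon D c i) t = fac D c t * qq D i (Sc c t) := by
  have ht1 : ‖t‖ < 1 := lt_of_le_of_lt ht hr1
  have h1t : (1 : ℂ) - t ≠ 0 := by
    intro h
    have : t = 1 := (sub_eq_zero.1 h).symm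
    rw [this, norm_one] at ht1
    exact lt_irrefl _ ht1
  obtain ⟨k, hk⟩ : ∃ k, D - 1 = i + k := ⟨D - 1 - i, by omega⟩
  have hk' : D - 1 - i = k := by omega
  fin_cases c
  · change evl (X ^ i * geo ^ (D - 1)) t = _
    rw [evl_mul ((Sm_X r).pow hr _) ((Sm_geo hr hr1).pow hr _) ht,
      evl_pow hr (Sm_X r) ht, evl_pow hr (Sm_geo hr hr1) ht, evl_X, evl_geo ht1]
    simp only [fac, qq, Sc, hk, Nat.add_sub_cancel_left]
    have h2 : (1 - t)⁻¹ - 1 = t * (1 - t)⁻¹ := by field_simp; ring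
    simp only [Fin.zero_eta, Fin.reduceEq, if_false, one_mul, h2]
    rw [mul_pow, pow_add]
    ring
  · change evl (sc ((-1) ^ i / 2 ^ (D - 1)) ((1 + X) ^ i * (1 - X) ^ (D - 1 - i))) t = _
    rw [sc, evl_mul (Sm_C r _)
      (((Sm_one_add_X r).pow hr _).mul hr ((Sm_one_sub_X r).pow hr _)) ht,
      evl_mul ((Sm_one_add_X r).pow hr _) ((Sm_one_sub_X r).pow hr _) ht,
      evl_pow hr (Sm_one_add_X r) ht, evl_pow hr (Sm_one_sub_X r) ht, evl_C, evl_one_add_X,
      evl_one_sub_X]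
    simp only [fac, qq, Sc, hk, Nat.add_sub_cancel_left]
    have h2 : (1 - t) / 2 - 1 = -1 * (1 + t) / 2 := by ring
    simp only [Fin.mk_one, Fin.reduceEq, if_false, one_mul]
    rw [h2, div_pow, div_pow, mul_pow, pow_add]
    push_cast
    field_simp
  · change evl (sc ((-1) ^ (D - 1)) (X ^ (D - 1 - i) * geo ^ (D - 1))) t = _
    rw [sc, evl_mul (Sm_C r _)
      (((Sm_X r).pow hr _).mul hr ((Sm_geo hr hr1).pow hr _)) ht,
      evl_mul ((Sm_X r).pow hr _) ((Sm_geo hr hr1).pow hr _) ht,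
      evl_pow hr (Sm_X r) ht, evl_pow hr (Sm_geo hr hr1) ht, evl_C, evl_X, evl_geo ht1]
    simp only [fac, qq, Sc, hk, Nat.add_sub_cancel_left]
    have h2 : -t * (1 - t)⁻¹ - 1 = -1 * (1 - t)⁻¹ := by field_simp; ring
    have h3 : -t * (1 - t)⁻¹ = -1 * t * (1 - t)⁻¹ := by ring
    simp only [Fin.reduceFinMk, Fin.reduceEq, if_false, one_mul]
    rw [h2, h3, mul_pow, mul_pow, mul_pow, pow_add, pow_add]
    push_cast
    ring
  · change evl (sc (1 / (-2) ^ (D - 1)) ((1 + X) ^ i * (1 - X) ^ (D - 1 - i))) t = _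
    rw [sc, evl_mul (Sm_C r _)
      (((Sm_one_add_X r).pow hr _).mul hr ((Sm_one_sub_X r).pow hr _)) ht,
      evl_mul ((Sm_one_add_X r).pow hr _) ((Sm_one_sub_X r).pow hr _) ht,
      evl_pow hr (Sm_one_add_X r) ht, evl_pow hr (Sm_one_sub_X r) ht, evl_C, evl_one_add_X,
      evl_one_sub_X]
    simp only [fac, qq, Sc, hk, Nat.add_sub_cancel_left]
    have h2 : -(1 - t) / (2 * t) - 1 = (1 + t) / (-2 * t) := by field_simp; ring
    have h3 : -(1 - t) / (2 * t) = (1 - t) / (-2 * t) := by field_simp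
    simp only [Fin.reduceFinMk, if_true]
    rw [h2, h3, div_pow, div_pow, mul_pow, mul_pow, pow_add, pow_add]
    push_cast
    field_simp

/-- the holomorphic function of a group and a row -/
noncomputable def Phi (x : ℂ) (g : Gp) (j : Fin 8) (t : ℂ) : ℂ :=
  evl (tup0 g j) t + x * evl (tup1 g j) t

/-- the entries as integrals -/
theorem En_eq_integral {r : ℝ} (hr : 0 < r) (hr1 : r < 1) {g : Gp} {j : Fin 8}
    (h0 : Sm r (tup0 g j)) (h1 : Sm r (tup1 g j)) (x : ℝ) {D i : ℕ} (hi : i < D) (k : ℕ) :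
    (((ent0 D g k i j : ℚ) : ℂ) + x * ((ent1 D g k i j : ℚ) : ℂ)) =
      (2 * (Real.pi : ℂ))⁻¹ * ∫ θ in (0 : ℝ)..2 * Real.pi,
        (fac D g.cusp (circleMap 0 r θ) * (circleMap 0 r θ) ^ (-(k : ℤ))) *
          (qq D i (Sc g.cusp (circleMap 0 r θ)) * Phi x g j (circleMap 0 r θ)) := by
  have hm := Sm_mon hr.le hr1 D g.cusp i
  have e0 := coeff_eq_integral (a := fun n => ((coeff n (mon D g.cusp i * tup0 g j) : ℚ) : ℂ))
    hr (hm.mul hr.le h0) k
  have e1 := coeff_eq_integral (a := fun n => ((coeff n (mon D g.cusp i * tup1 g j) : ℚ) : ℂ))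
    hr (hm.mul hr.le h1) k
  have hc : ∀ f : ℚ⟦X⟧, Sm r f → Continuous fun θ : ℝ =>
      (∑' n, ((coeff n f : ℚ) : ℂ) * (circleMap 0 r θ) ^ n) * (circleMap 0 r θ) ^ (-(k : ℤ)) := by
    intro f hf
    refine Continuous.mul ?_ ((continuous_circleMap 0 r).zpow₀ _ fun θ =>
      Or.inl (circleMap_ne hr θ))
    refine continuous_tsum (fun n => continuous_const.mul ((continuous_circleMap 0 r).pow n)) hf
      fun n θ => ?_
    rw [norm_mul, norm_pow, norm_circleMap hr]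
  unfold ent0 ent1
  rw [e0, e1, mul_left_comm, ← mul_add, ← intervalIntegral.integral_const_mul,
    ← intervalIntegral.integral_add]
  · congr 1
    refine intervalIntegral.integral_congr fun θ _ => ?_
    have ht : ‖circleMap 0 r θ‖ ≤ r := (norm_circleMap hr θ).le
    have e2 : (∑' n, ((coeff n (mon D g.cusp i * tup0 g j) : ℚ) : ℂ) * (circleMap 0 r θ) ^ n) =
        evl (mon D g.cusp i * tup0 g j) (circleMap 0 r θ) := rfl
    have e3 : (∑' n, ((coeff n (mon D g.cusp i * tup1 g j) : ℚ) : ℂ) * (circleMap 0 r θ) ^ n) =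
        evl (mon D g.cusp i * tup1 g j) (circleMap 0 r θ) := rfl
    rw [e2, e3, evl_mul hm h0 ht, evl_mul hm h1 ht,
      evl_mon hr.le hr1 _ hi ht (circleMap_ne hr θ), Phi]
    ring
  · exact (hc _ (hm.mul hr.le h0)).intervalIntegrable _ _
  · exact (continuous_const.mul (hc _ (hm.mul hr.le h1))).intervalIntegrable _ _

end Vale.Agent.P030.H866
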