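import Vale.Agent.P030.H866.LocR
import Vale.Agent.P030.H352.Pk
import Vale.Agent.P030.AR.NGen
import Vale.Agent.P030.H284.Value

/-!
# P030, route N: the totals in the form `TotR` of AR/NGen
-/

open Matrix

namespace Vale.Agent.P030.H866

open Vale.Agent.P030.T Vale.Agent.P030.AR
open Vale.Agent.P030.H352 (Sd BR Ar Qr tz Dz discPk)

noncomputable section

/-- the totals over any disc package with the frames of `R` -/
def DRows.totR (R : DRows) (d : DiscPk)
    (hd : ∀ c t, ‖t‖ < 1 → t ≠ 0 → d.S c (Sc c t) = Sd R.A R.Q (R.B c) c t)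
    {P : Par} {r : Gp → ℝ} (hr : ∀ g, 0 < r g) (hr1 : ∀ g, r g < 1) (T : Tot P r)
    (hT : T.al = alT) : TotR R.Qᵀ d T where
  Lv := fun g b => b ∈ R.lev g
  ex := fun g => by
    obtain ⟨B, hB⟩ := R.yR_bound g (hr1 g)
    refine ⟨B, fun t ht => ⟨yR (R.M g) (R.kd g t), ?_, fun b => ⟨hB t ht b, ?_⟩⟩⟩
    · have ht1 : ‖t‖ < 1 := by rw [ht]; exact hr1 g
      have ht0 : t ≠ 0 := by
        rintro rfl
        rw [norm_zero] at ht
        exact (hr g).ne ht
      rw [hT, hd g.cusp t ht1 ht0]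
      exact R.tot g ht1 ht0
    · by_cases hb : b ∈ R.lev g
      · exact Or.inr hb
      · exact Or.inl (R.yR_zero _ hb)

theorem Qr_transpose : Qrᵀ = Rc := by
  ext i j
  fin_cases i <;> fin_cases j <;> simp [Qr, Rc]

theorem discPk_Sc (c : Fin 4) (t : ℂ) (ht : ‖t‖ < 1) (ht0 : t ≠ 0) :
    discPk.S c (Sc c t) = Sd rowsR.A rowsR.Q (rowsR.B c) c t := by
  change H352.Sr c (tz c (Sc c t)) = _
  rw [tz_Sc c ht ht0]
  rfl

/-- **the 17 totals in the rows of H352/DiscR** -/
def totRc {P : Par} {r : Gp → ℝ} (hr : ∀ g, 0 < r g) (hr1 : ∀ g, r g < 1) (T : Tot P r)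
    (hT : T.al = alT) : TotR Rc discPk T where
  Lv := fun g b => b ∈ levR g
  ex := fun g => by
    obtain ⟨B, hB⟩ := (rowsR.totR discPk discPk_Sc hr hr1 T hT).ex g
    refine ⟨B, fun t ht => ?_⟩
    obtain ⟨y, h1, h2⟩ := hB t ht
    have e : rowsR.Qᵀ = Rc := Qr_transpose
    rw [e] at h1
    exact ⟨y, h1, h2⟩

/-- the totals of design A for one radius per cusp -/
def totRad (R : H284.Rad) : Tot H579.parA R.r :=
  totA rfl rfl rfl rfl rfl rfl (by norm_num [H579.parA]) (by norm_num [H579.parA])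
    (by norm_num [H579.parA]) (by norm_num [H579.parA]) (by norm_num [H579.parA])
    (by norm_num [H579.parA])

/-- the package of the totals of design A -/
def totRadR (R : H284.Rad) (h : R.ok = true) : TotR Rc discPk (totRad R) :=
  totRc (H284.Rad.r_pos h) (H284.Rad.r_lt h) (totRad R) rfl

theorem totRadR_Lv (R : H284.Rad) (h : R.ok = true) (g : Gp) (b : Fin 8) :
    (totRadR R h).Lv g b ↔ b ∈ levR g := Iff.rfl

end

end Vale.Agent.P030.H866
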