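import Vale.Agent.P030.H866.StAR
import Vale.Agent.P030.H462.EvSer
import Vale.Agent.P030.H352.ThmN

/-!
# AR from the flag data of Theorem N
-/

open MeasureTheory Finset Matrix

namespace Vale.Agent.P030.H866

open Vale.Agent.P030.T

/-! ### the series of the 17 groups -/

theorem Sm_of_PQ {f : PowerSeries ℚ} (hf : H462.PQ f) {r : ℝ} (h0 : 0 ≤ r) (h1 : r < 1) :
    Sm r f := by
  have h := hf.summable_abs h0 h1
  refine h.congr fun n => ?_
  rw [eq_ratCast]

theorem evl_eq_evQ (f : PowerSeries ℚ) (z : ℂ) : evl f z = H462.evQ f z := by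
  unfold evl H462.evQ H462.ev
  refine tsum_congr fun n => ?_
  rw [eq_ratCast]

theorem pq_tup0 (g : Gp) (j : Fin 8) : H462.PQ (tup0 g j) := by
  have hX : H462.PQ (PowerSeries.X : PowerSeries ℚ) := H462.PG.varX
  have h1 : H462.PQ (1 : PowerSeries ℚ) := H462.PG.one
  have h0 : H462.PQ (0 : PowerSeries ℚ) := H462.PG.zero
  have h1X : H462.PQ (1 - PowerSeries.X : PowerSeries ℚ) := h1.sub hX
  have hlgm := H462.pq_lgm
  have hlgp := H462.pq_lgp
  have hli := H462.pq_li2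
  have hK := H462.pq_serK
  have hB := H462.pq_serB
  have hB2 := H462.pq_serB2
  have hM := H462.pq_serM
  cases g
  case z1 =>
    fin_cases j
    · exact h1
    · exact h0
    · exact hlgm
    · exact hli
    · exact H462.pq_integ (H462.pq_geoa.mul hlgm)
    · exact H462.pq_sc (hlgm.pow 2) _
    · exact h1X.mul hB
    · exact h1X.mul (H462.pq_th hB)
  case zl =>
    fin_cases j
    · exact h0
    · exact h1
    · exact h0
    · exact h0
    · exact (H462.pq_sc hlgm _).add hlgp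
    · exact H462.pq_sc hlgm _
    · exact h0
    · exact h0
  case z8 =>
    fin_cases j
    · exact h0
    · exact h0
    · exact h0
    · exact h0
    · exact h0
    · exact h0
    · exact h1X.mul hK
    · exact h1X.mul (H462.pq_th hK)
  case zab =>
    fin_cases j
    · exact h0
    · exact h0
    · exact h0
    · exact h1
    · exact h0
    · exact h0
    · exact h0
    · exact h0
  case w1 =>
    fin_cases j
    · exact h1
    · exact h0
    · exact hlgm.neg
    · exact (H462.pq_sc (H462.pq_integ (H462.pq_geo2.mul hlgm)) _).neg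
    · exact hli.neg.sub (H462.pq_sc (hlgm.pow 2) _)
    · exact H462.pq_sc (hlgm.pow 2) _
    · exact hB2
    · exact H462.pq_tw hB2
  case wl =>
    fin_cases j
    · exact h0
    · exact h1
    · exact h1.neg
    · exact (hlgp.add hlgm).neg
    · exact (H462.pq_sc hlgm _).neg
    · exact H462.pq_sc hlgm _
    · exact h0
    · exact h0
  case wy =>
    fin_cases j
    · exact h0
    · exact h0
    · exact h0
    · exact (H462.PG.const _).neg
    · exact (H462.PG.const _).neg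
    · exact h0
    · exact hK.neg
    · exact (H462.pq_tw hK).neg
  case w8 =>
    fin_cases j
    · exact h0
    · exact h0
    · exact h0
    · exact h0
    · exact h0
    · exact h0
    · exact hK
    · exact H462.pq_tw hK
  case wab =>
    fin_cases j
    · exact h0
    · exact h0
    · exact h0
    · exact h1
    · exact h0
    · exact h0
    · exact h0
    · exact h0
  case wf7 =>
    fin_cases j
    · exact h0
    · exact h0
    · exact h0
    · exact h0
    · exact h0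
    · exact h1
    · exact h0
    · exact h0
  case v2 =>
    fin_cases j
    · exact h0
    · exact h0
    · exact h0
    · exact h1.neg
    · exact h1.neg
    · exact h1
    · exact h0
    · exact h0
  case vl =>
    fin_cases j
    · exact h0
    · exact h0
    · exact h0
    · exact h0
    · exact h1.neg
    · exact h1
    · exact h0
    · exact h0
  case v8 =>
    fin_cases j
    · exact h0
    · exact h0
    · exact h0
    · exact h0
    · exact h0
    · exact h0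
    · exact (h1X.mul hK).neg
    · exact h1X.mul (H462.pq_dd (hX.mul hK))
  case vb =>
    fin_cases j
    · exact h0
    · exact h0
    · exact h1
    · exact h0
    · exact hlgp
    · exact hlgm
    · exact h0
    · exact h0
  case x2 =>
    fin_cases j
    · exact h0
    · exact h0
    · exact h0
    · exact h0
    · exact h0
    · exact H462.PG.const _
    · exact H462.pq_sc (hX.mul hK) _
    · exact H462.pq_sc (hX.mul (H462.pq_tw hK)) _
  case xl =>
    fin_cases j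
    · exact h0
    · exact h0
    · exact h0
    · exact h0
    · exact h1.neg
    · exact h1
    · exact (hX.mul hK).neg
    · exact (hX.mul (H462.pq_tw hK)).neg
  case x1 =>
    fin_cases j
    · exact h0
    · exact h0
    · exact h1.neg
    · exact (hlgp.add hlgm).neg
    · exact hlgm.neg
    · exact hlgm
    · exact H462.pq_sc (hX.mul hM) _
    · exact H462.pq_sc ((hX.mul (H462.pq_tw hM)).add
        (H462.pq_sc ((h1.sub (hX.pow 2)).mul hK) _)) _

theorem pq_tup1 (g : Gp) (j : Fin 8) : H462.PQ (tup1 g j) := by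
  have hX : H462.PQ (PowerSeries.X : PowerSeries ℚ) := H462.PG.varX
  have h1 : H462.PQ (1 : PowerSeries ℚ) := H462.PG.one
  have h0 : H462.PQ (0 : PowerSeries ℚ) := H462.PG.zero
  have h1X : H462.PQ (1 - PowerSeries.X : PowerSeries ℚ) := h1.sub hX
  cases g
  case z1 =>
    fin_cases j
    · exact h0
    · exact h0
    · exact h0
    · exact h0
    · exact h0
    · exact h0
    · exact (h1X.mul H462.pq_serK).neg
    · exact (h1X.mul (H462.pq_th H462.pq_serK)).neg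
  all_goals exact h0

theorem Sm_tup0 {r : ℝ} (h0 : 0 ≤ r) (h1 : r < 1) (g : Gp) (j : Fin 8) : Sm r (tup0 g j) :=
  Sm_of_PQ (pq_tup0 g j) h0 h1

theorem Sm_tup1 {r : ℝ} (h0 : 0 ≤ r) (h1 : r < 1) (g : Gp) (j : Fin 8) : Sm r (tup1 g j) :=
  Sm_of_PQ (pq_tup1 g j) h0 h1

theorem Phi_eq (x : ℂ) (g : Gp) (j : Fin 8) (t : ℂ) :
    Phi x g j t = H462.evQ (tup0 g j) t + x * H462.evQ (tup1 g j) t := by
  rw [Phi, evl_eq_evQ, evl_eq_evQ]

/-! ### the bridge to Theorem N -/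

/-- `Σ b, Fin D` and `Fin D × Fin 8` -/
def sigEquiv (D : ℕ) : (Fin D × Fin 8) ≃ (Σ _ : Fin 8, Fin D) where
  toFun p := ⟨p.2, p.1⟩
  invFun q := (q.2, q.1)
  left_inv _ := rfl
  right_inv _ := rfl

theorem adet_ptM (D : ℕ) (a : Fin D × Fin 8 → ℂ) (v : Fin D × Fin 8 → Fin 8 → ℂ) :
    H352.adet (H352.ptM (fun _ : Fin 8 => D) a v) =
      ‖(Matrix.of fun (r c : Fin D × Fin 8) => a c ^ (r.1 : ℕ) * v c r.2).det‖ := by
  rw [H352.adet_eq _ (sigEquiv D) (Equiv.refl _)]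
  congr 2
  ext r c
  simp [H352.ptM, sigEquiv, mul_comm]

/-- a constant change of the eight coordinates -/
theorem norm_det_coord (D : ℕ) (R : Matrix (Fin 8) (Fin 8) ℂ) (a : Fin D × Fin 8 → ℂ)
    (v : Fin D × Fin 8 → Fin 8 → ℂ) :
    ‖(Matrix.of fun (r c : Fin D × Fin 8) => a c ^ (r.1 : ℕ) * (R *ᵥ v c) r.2).det‖ =
      ‖R.det‖ ^ D *
      ‖(Matrix.of fun (r c : Fin D × Fin 8) => a c ^ (r.1 : ℕ) * v c r.2).det‖ := by
  have h1 : (Matrix.of fun (r c : Fin D × Fin 8) => a c ^ (r.1 : ℕ) * (R *ᵥ v c) r.2) =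
      (Matrix.kroneckerMap (· * ·) (1 : Matrix (Fin D) (Fin D) ℂ) R) *
        (Matrix.of fun (r c : Fin D × Fin 8) => a c ^ (r.1 : ℕ) * v c r.2) := by
    ext ⟨i, j⟩ c
    rw [Matrix.mul_apply]
    simp only [Matrix.of_apply, Matrix.kroneckerMap_apply]
    rw [Fintype.sum_prod_type, Finset.sum_eq_single i]
    · simp only [Matrix.one_apply_eq, one_mul, Matrix.mulVec, dotProduct, Finset.mul_sum]
      refine Finset.sum_congr rfl fun x _ => ?_
      ring
    · intro i' _ hne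
      simp [Matrix.one_apply_ne hne.symm]
    · intro h; exact absurd (Finset.mem_univ _) h
  rw [h1, Matrix.det_mul, norm_mul, Matrix.det_kronecker]
  simp

theorem NormBound.abs {D : ℕ} {N : ℂ → (Fin 8 → ℂ) → ℝ} {B : ℝ} (h : NormBound D N B)
    (h0 : ∀ z v, 0 ≤ N z v) : NormBound D (fun z v => |N z v|) B := by
  have : (fun z v => |N z v|) = N := by
    funext z v
    exact abs_of_nonneg (h0 z v)
  rw [this]
  exact h

theorem normBound_of_flag {D K : ℕ} {C M δ E : ℝ} (hδ : 0 < δ) (hC : 1 ≤ C) (hM : 1 ≤ M)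
    (hK : D * 8 ≤ K) {N : ℂ → (Fin 8 → ℂ) → ℝ}
    (h : H352.Flag K C M δ 8 (fun _ => D) N E) {R : Matrix (Fin 8) (Fin 8) ℂ} (hR : R.det ≠ 0)
    {B : ℝ} (hB : ((2 * C ^ 2 * M) ^ K) ^ 8 * Real.exp (-E) ≤ B * ‖R.det‖ ^ D) :
    NormBound D (fun z v => N z (R *ᵥ v)) B := by
  intro a v
  have h1 := H352.theoremN hδ hC hM h (Fin D × Fin 8)
    (Fintype.card_congr (sigEquiv D)) (by simpa using hK) a (fun c => R *ᵥ v c)
  rw [adet_ptM, norm_det_coord] at h1
  have hR0 : 0 < ‖R.det‖ ^ D := pow_pos (norm_pos_iff.2 hR) _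
  have h2 : 0 ≤ ∏ i, N (a i) (R *ᵥ v i) := Finset.prod_nonneg fun i _ => h.nonneg _ _
  have h3 := h1.trans (mul_le_mul_of_nonneg_right hB h2)
  rw [mul_assoc, mul_left_comm] at h3
  exact le_of_mul_le_mul_left h3 hR0

theorem arith_flag {K D0 s : ℕ} {C M Es E η Rn : ℝ} (hC : 1 ≤ C) (hM : 1 ≤ M) (hRp : 0 < Rn)
    (hlog : K * Real.log (2 * C ^ 2 * M) ≤ η / 10 * (s : ℝ) ^ 2)
    (hE : (E - η / 10) * (s : ℝ) ^ 2 ≤ Es) (h3 : |Real.log Rn| * D0 ≤ η / 10 * s) :
    ((2 * C ^ 2 * M) ^ K) ^ 8 * Real.exp (-Es) ≤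
      Real.exp (-(E - η) * (s : ℝ) ^ 2) * Rn ^ (D0 * s) := by
  have hCM : (0 : ℝ) < 2 * C ^ 2 * M := by positivity
  have e1 : ((2 * C ^ 2 * M) ^ K) ^ 8 = Real.exp (8 * (K * Real.log (2 * C ^ 2 * M))) := by
    rw [← pow_mul, ← Real.rpow_natCast, Real.rpow_def_of_pos hCM]
    congr 1
    push_cast
    ring
  have e2 : Rn ^ (D0 * s) = Real.exp ((D0 * s : ℕ) * Real.log Rn) := by
    rw [← Real.rpow_natCast, Real.rpow_def_of_pos hRp, mul_comm]
  rw [e1, e2, ← Real.exp_add, ← Real.exp_add]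
  refine Real.exp_le_exp.2 ?_
  push_cast
  have hs0 : (0 : ℝ) ≤ s := Nat.cast_nonneg _
  have h4 : -(|Real.log Rn| * D0 * s) ≤ D0 * s * Real.log Rn := by
    have h := neg_abs_le (Real.log Rn)
    have h5 : (0 : ℝ) ≤ D0 * s := by positivity
    nlinarith
  have h6 : |Real.log Rn| * D0 * s ≤ η / 10 * s * s :=
    mul_le_mul_of_nonneg_right h3 hs0
  nlinarith

theorem exists_small_R (D0 : ℕ) (l : ℝ) {η : ℝ} (hη : 0 < η) :
    ∃ s2 : ℕ, ∀ s : ℕ, s2 ≤ s → |l| * D0 ≤ η / 10 * s := by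
  have hη10 : 0 < η / 10 := by positivity
  obtain ⟨s2, hs2⟩ := exists_nat_ge (|l| * D0 / (η / 10))
  refine ⟨s2, fun s hs => ?_⟩
  rw [div_le_iff₀ hη10] at hs2
  have : (s2 : ℝ) ≤ s := by exact_mod_cast hs
  nlinarith

/-- **AR from flag data for every `s`** -/
theorem stAR_of_flag (P : Par) (c0 : ℕ) (hcard : ∑ g : Gp, P.ht g = 8 * P.D0) (hD0 : 0 < P.D0)
    (r : Gp → ℝ) (hr : ∀ g, 0 < r g) (hr1 : ∀ g, r g < 1) (T : Tot P r)
    (R : Matrix (Fin 8) (Fin 8) ℂ) (hR : R.det ≠ 0) (N : ℕ → ℂ → (Fin 8 → ℂ) → ℝ) (E : ℝ)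
    (hflag : ∀ η : ℝ, 0 < η → ∃ s0 : ℕ, ∀ s, s0 ≤ s → ∃ (K : ℕ) (C M δ Es : ℝ),
      0 < δ ∧ 1 ≤ C ∧ 1 ≤ M ∧ P.D0 * s * 8 ≤ K ∧
      H352.Flag K C M δ 8 (fun _ => P.D0 * s) (N s) Es ∧
      K * Real.log (2 * C ^ 2 * M) ≤ η * (s : ℝ) ^ 2 ∧ (E - η) * (s : ℝ) ^ 2 ≤ Es)
    (ω ω' : Gp → ℝ)
    (hω : ∀ η : ℝ, 0 < η → ∃ s0 : ℕ, ∀ s, s0 ≤ s → ∀ g θ,
      N s (Sc g.cusp (circleMap 0 (r g) θ)) (R *ᵥ fun j => ∑ g', ((T.al g g' : ℝ) : ℂ) *
        Phi ((Gc / 2 : ℝ) : ℂ) g' j (circleMap 0 (r g) θ)) ≤ Real.exp (s * (ω g + η)))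
    (hω' : ∃ s0 : ℕ, ∀ s, s0 ≤ s → ∀ g θ,
      N s (Sc g.cusp (circleMap 0 (r g) θ)) (R *ᵥ fun j =>
        Phi ((Gc / 2 : ℝ) : ℂ) g j (circleMap 0 (r g) θ)) ≤ Real.exp (s * ω' g)) :
    StAR P c0 (E - Qm P r ω) := by
  obtain ⟨s9, h9⟩ := hflag 1 one_pos
  -- nonnegativity of the norms for large `s`; replace them by their absolute values
  refine stAR_of_nodes P c0 hcard hD0 r hr hr1 (fun g j => Sm_tup0 (hr g).le (hr1 g) g j)
    (fun g j => Sm_tup1 (hr g).le (hr1 g) g j) T (fun s z v => |N s z (R *ᵥ v)|)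
    (fun s z v => abs_nonneg _) E ?_ ω ω' ?_ ?_
  · intro η hη
    have hη10 : 0 < η / 10 := by positivity
    obtain ⟨s1, h1⟩ := hflag (η / 10) hη10
    obtain ⟨s2, h2⟩ := exists_small_R P.D0 (Real.log ‖R.det‖) hη
    refine ⟨max s1 s2, fun s hs => ?_⟩
    obtain ⟨K, C, M, δ, Es, hδ, hC, hM, hK, hF, hlog, hE⟩ := h1 s (le_trans (le_max_left _ _) hs)
    have h3 := h2 s (le_trans (le_max_right _ _) hs)
    have hRp : 0 < ‖R.det‖ := norm_pos_iff.2 hR
    have hnb := normBound_of_flag hδ hC hM hK hF hR (B := Real.exp (-(E - η) * (s : ℝ) ^ 2))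
      (arith_flag hC hM hRp hlog hE h3)
    exact hnb.abs fun z v => hF.nonneg _ _
  · intro η hη
    obtain ⟨s1, h1⟩ := hω η hη
    refine ⟨max s1 s9, fun s hs g θ => ?_⟩
    obtain ⟨K, C, M, δ, Es, -, -, -, -, hF, -, -⟩ := h9 s (le_trans (le_max_right _ _) hs)
    rw [abs_of_nonneg (hF.nonneg _ _)]
    exact h1 s (le_trans (le_max_left _ _) hs) g θ
  · obtain ⟨s1, h1⟩ := hω'
    refine ⟨max s1 s9, fun s hs g θ => ?_⟩
    obtain ⟨K, C, M, δ, Es, -, -, -, -, hF, -, -⟩ := h9 s (le_trans (le_max_right _ _) hs)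
    rw [abs_of_nonneg (hF.nonneg _ _)]
    exact h1 s (le_trans (le_max_left _ _) hs) g θ

end Vale.Agent.P030.H866
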