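import Vale.Agent.P030.H866.NodeDet

/-!
# A determinant whose columns are circle integrals of nodes: the form with a family of norms
-/

open MeasureTheory Finset Matrix

namespace Vale.Agent.P030.H866

theorem integral_const_nu (C : ℝ) : ∫ _θ, C ∂nu = 2 * Real.pi * C := by
  have h : nu.real Set.univ = 2 * Real.pi := by
    unfold nu
    rw [Measure.real, Measure.restrict_apply_univ, Real.volume_Ioc, sub_zero,
      ENNReal.toReal_ofReal (by positivity)]
  rw [integral_const, h, smul_eq_mul]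

/-- the bound for determinants of nodes in terms of a family of norms, for one `D` -/
def NormBound (D : ℕ) (Nm : ℂ → (Fin 8 → ℂ) → ℝ) (B : ℝ) : Prop :=
  ∀ (a : Fin D × Fin 8 → ℂ) (v : Fin D × Fin 8 → Fin 8 → ℂ),
    ‖(Matrix.of fun (r c : Fin D × Fin 8) => a c ^ (r.1 : ℕ) * v c r.2).det‖ ≤
      B * ∏ c, Nm (a c) (v c)

/-- the same for points of a set `A` only -/
def NormBoundOn (A : Set ℂ) (D : ℕ) (Nm : ℂ → (Fin 8 → ℂ) → ℝ) (B : ℝ) : Prop :=
  ∀ (a : Fin D × Fin 8 → ℂ) (v : Fin D × Fin 8 → Fin 8 → ℂ), (∀ c, a c ∈ A) →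
    ‖(Matrix.of fun (r c : Fin D × Fin 8) => a c ^ (r.1 : ℕ) * v c r.2).det‖ ≤
      B * ∏ c, Nm (a c) (v c)

/-- **the bound for a determinant of integrated nodes** -/
theorem det_colE_le_norm_on {D : ℕ} {B : ℝ} (hB0 : 0 ≤ B) {Nm : ℂ → (Fin 8 → ℂ) → ℝ}
    (hN0 : ∀ z v, 0 ≤ Nm z v) {A : Set ℂ} (hT : NormBoundOn A D Nm B)
    (c : Fin D × Fin 8 → Fin 4) (r : Fin D × Fin 8 → ℝ) (hr : ∀ a, 0 < r a) (hr1 : ∀ a, r a < 1)
    (hA : ∀ a θ, Sc (c a) (circleMap 0 (r a) θ) ∈ A)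
    (k : Fin D × Fin 8 → ℕ) (M : Fin D × Fin 8 → ℝ)
    (Ψ : Fin D × Fin 8 → Fin 8 → ℝ → ℂ) (hΨ : ∀ a j, Integrable (Ψ a j) nu)
    (hM : ∀ a, ∀ᵐ θ ∂nu, Nm (Sc (c a) (circleMap 0 (r a) θ)) (fun j => Ψ a j θ) ≤ M a) :
    ‖(Matrix.of fun i a => colE D (c a) (r a) (k a) (Ψ a) i).det‖ ≤
      B * ∏ a, (M a * wab D (c a) (k a) (r a)) := by
  classical
  have hpi := Real.pi_pos
  set S : Fin D × Fin 8 → ℝ → ℂ := fun a θ => Sc (c a) (circleMap 0 (r a) θ) with hS
  set w : Fin D × Fin 8 → ℝ → ℂ := fun a θ =>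
    (2 * (Real.pi : ℂ))⁻¹ * wgt D (c a) (k a) (circleMap 0 (r a) θ) with hw
  set N : Fin D × Fin 8 → ℝ → Fin D × Fin 8 → ℂ := fun a θ i =>
    w a θ * (qq D i.1 (S a θ) * Ψ a i.2 θ) with hN
  have hNint : ∀ a i, Integrable (fun θ => N a θ i) nu := by
    intro a i
    have hcont : Continuous fun θ : ℝ => (2 * (Real.pi : ℂ))⁻¹ *
        (wgt D (c a) (k a) (circleMap 0 (r a) θ) *
          qq D i.1 (Sc (c a) (circleMap 0 (r a) θ))) :=
      continuous_const.mul ((continuous_wgt D (c a) (k a) (hr a)).mul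
        ((continuous_qq D i.1).comp (continuous_Sc_circle (c a) (hr a) (hr1 a))))
    refine (integrable_cont_mul hcont (hΨ a i.2)).congr
      (Filter.Eventually.of_forall fun θ => ?_)
    simp only [hN, hw, hS]
    ring
  have hent : ∀ i a, colE D (c a) (r a) (k a) (Ψ a) i = ∫ θ, N a θ i ∂nu := by
    intro i a
    unfold colE
    rw [← integral_const_mul]
    refine integral_congr_ae (Filter.Eventually.of_forall fun θ => ?_)
    simp only [hN, hw, hS]
    ring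
  have hwn : ∀ a θ, ‖w a θ‖ = (2 * Real.pi)⁻¹ * wab D (c a) (k a) (r a) := by
    intro a θ
    simp only [hw]
    rw [norm_mul, norm_wgt _ _ _ (hr a), norm_inv, norm_mul, Complex.norm_ofNat,
      Complex.norm_real, Real.norm_of_nonneg Real.pi_pos.le]
  have h1 : (Matrix.of fun i a => colE D (c a) (r a) (k a) (Ψ a) i) =
      Matrix.of fun i a => ∫ θ, N a θ i ∂nu := by
    ext i a
    exact hent i a
  have hnn : (nu : Measure ℝ) ≠ 0 := by
    intro h
    have h2 := integral_const_nu 1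
    rw [h, integral_zero_measure] at h2
    linarith
  have hMa : ∀ a, 0 ≤ M a := by
    intro a
    have : (ae nu).NeBot := ae_neBot.2 hnn
    obtain ⟨θ, hθ⟩ := (hM a).exists
    exact (hN0 _ _).trans hθ
  rw [h1]
  refine (norm_det_integral_le (fun _ => nu) N hNint
    (fun a _ => (2 * Real.pi)⁻¹ * (M a * wab D (c a) (k a) (r a)))
    (fun a => integrable_const _) (B := B) ?_).trans_eq ?_
  · have h2 := ae_pi_of_forall (fun _ : Fin D × Fin 8 => nu) hM
    filter_upwards [h2] with x hx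
    have h3 : (Matrix.of fun i a => N a (x a) i) = Matrix.of fun i a =>
        w a (x a) * (Matrix.of fun (i a : Fin D × Fin 8) =>
          qq D i.1 (S a (x a)) * Ψ a i.2 (x a)) i a := by
      ext i a
      simp [hN]
    rw [h3, Matrix.det_mul_row, norm_mul, norm_prod]
    have h4 := hT (fun a => S a (x a)) (fun a j => Ψ a j (x a)) (fun a => hA a (x a))
    rw [← norm_det_qq (fun a => S a (x a)) (fun a j => Ψ a j (x a))] at h4
    have hw0 : 0 ≤ ∏ a, ‖w a (x a)‖ := Finset.prod_nonneg fun a _ => norm_nonneg _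
    refine (mul_le_mul_of_nonneg_left h4 hw0).trans ?_
    rw [mul_left_comm, ← Finset.prod_mul_distrib]
    refine mul_le_mul_of_nonneg_left ?_ hB0
    refine Finset.prod_le_prod (fun a _ => mul_nonneg (norm_nonneg _) (hN0 _ _)) fun a _ => ?_
    rw [hwn]
    have h5 := (wab_pos D (c a) (k a) (hr a)).le
    calc (2 * Real.pi)⁻¹ * wab D (c a) (k a) (r a) * Nm (S a (x a)) (fun j => Ψ a j (x a))
        ≤ (2 * Real.pi)⁻¹ * wab D (c a) (k a) (r a) * M a :=
          mul_le_mul_of_nonneg_left (hx a) (by positivity)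
      _ = _ := by ring
  · congr 1
    refine Finset.prod_congr rfl fun a _ => ?_
    rw [integral_const_nu]
    field_simp

/-- the same for a bound at all points -/
theorem det_colE_le_norm {D : ℕ} {B : ℝ} (hB0 : 0 ≤ B) {Nm : ℂ → (Fin 8 → ℂ) → ℝ}
    (hN0 : ∀ z v, 0 ≤ Nm z v) (hT : NormBound D Nm B)
    (c : Fin D × Fin 8 → Fin 4) (r : Fin D × Fin 8 → ℝ) (hr : ∀ a, 0 < r a) (hr1 : ∀ a, r a < 1)
    (k : Fin D × Fin 8 → ℕ) (M : Fin D × Fin 8 → ℝ)
    (Ψ : Fin D × Fin 8 → Fin 8 → ℝ → ℂ) (hΨ : ∀ a j, Integrable (Ψ a j) nu)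
    (hM : ∀ a, ∀ᵐ θ ∂nu, Nm (Sc (c a) (circleMap 0 (r a) θ)) (fun j => Ψ a j θ) ≤ M a) :
    ‖(Matrix.of fun i a => colE D (c a) (r a) (k a) (Ψ a) i).det‖ ≤
      B * ∏ a, (M a * wab D (c a) (k a) (r a)) :=
  det_colE_le_norm_on hB0 hN0 (A := Set.univ) (fun a v _ => hT a v) c r hr hr1
    (fun _ _ => Set.mem_univ _) k M Ψ hΨ hM

end Vale.Agent.P030.H866
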