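import Vale.Agent.P030.T.Frame
import Vale.Agent.P030.H866.NodeN

/-!
# The column operations: totals of groups

`al g g'` are the coefficients of the total functional of the group `g` (for instance
`w1 + log 2 * wl + (π²/16) wy`).  The columns whose partners are all chosen are replaced by the
totals; the other ones are at most `289 c0`.
-/

open MeasureTheory Finset Matrix

namespace Vale.Agent.P030.H866

open Vale.Agent.P030.T

/-- coefficients of the totals -/
structure Tot (P : Par) (r : Gp → ℝ) where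
  al : Gp → Gp → ℝ
  rk : Gp → ℕ
  al_self : ∀ g, al g g = 1
  al_ne : ∀ g g', g' ≠ g → al g g' ≠ 0 →
    rk g' < rk g ∧ g'.cusp = g.cusp ∧ r g' = r g ∧ P.ht g ≤ P.ht g'

section

variable {P : Par} {r : Gp → ℝ} (T : Tot P r) {s : ℕ} (σ : Fin (P.D0 * s) × Fin 8 → Cl)

/-- all partners of the column are chosen -/
def Full (b : Fin (P.D0 * s) × Fin 8) : Prop :=
  ∀ g', T.al (σ b).1 g' ≠ 0 → ∃ a, σ a = (g', (σ b).2)

open Classical in
/-- the matrix of the column operations -/
noncomputable def opM : Matrix (Fin (P.D0 * s) × Fin 8) (Fin (P.D0 * s) × Fin 8) ℂ :=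
  Matrix.of fun a b =>
    if Full T σ b then (if (σ a).2 = (σ b).2 then ((T.al (σ b).1 (σ a).1 : ℝ) : ℂ) else 0)
    else (if a = b then 1 else 0)

theorem det_opM (hσ : Function.Injective σ) : (opM T σ).det = 1 := by
  classical
  have key : ∀ a b, a ≠ b → T.rk (σ b).1 ≤ T.rk (σ a).1 → opM T σ a b = 0 := by
    intro a b hab hrk
    unfold opM
    rw [Matrix.of_apply]
    split_ifs with h1 h2
    · have hne : (σ a).1 ≠ (σ b).1 := fun h => hab (hσ (Prod.ext h h2))
      by_contra h3
      have h4 : T.al (σ b).1 (σ a).1 ≠ 0 := by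
        intro h; rw [h] at h3; simp at h3
      have := (T.al_ne _ _ hne h4).1
      omega
    · rfl
    · rfl
  have hdiag : ∀ a, opM T σ a a = 1 := by
    intro a
    unfold opM
    rw [Matrix.of_apply]
    by_cases h1 : Full T σ a
    · rw [if_pos h1, if_pos rfl, T.al_self]; simp
    · rw [if_neg h1, if_pos rfl]
  have hbt : (opM T σ).BlockTriangular fun a => T.rk (σ a).1 := by
    intro a b hab
    refine key a b ?_ (le_of_lt hab)
    rintro rfl
    exact lt_irrefl _ hab
  rw [hbt.det]
  refine Finset.prod_eq_one fun n _ => ?_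
  have : (opM T σ).toSquareBlock (fun a => T.rk (σ a).1) n = 1 := by
    ext ⟨a, ha⟩ ⟨b, hb⟩
    rw [Matrix.toSquareBlock_def, Matrix.of_apply]
    by_cases h : a = b
    · subst h
      rw [hdiag]; simp
    · rw [key a b h (by rw [ha, hb])]
      rw [Matrix.one_apply_ne]
      intro h'
      exact h (congrArg Subtype.val h')
  rw [this, Matrix.det_one]

/-- the number of columns which are not full -/
theorem card_not_full (hcard : ∑ g : Gp, P.ht g = 8 * P.D0) {c0 : ℕ} (hσ : Adm P c0 s σ)
    [DecidablePred fun b => ¬ Full T σ b] :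
    (Finset.univ.filter fun b => ¬ Full T σ b).card ≤ 289 * c0 := by
  classical
  have hpc : (pool P c0 s).card = 8 * P.D0 * s + 17 * c0 := by
    unfold pool
    rw [Finset.card_biUnion]
    · have h1 : ∀ g : Gp, ((range (P.ht g * s + c0)).image fun k => ((g, k) : Cl)).card
          = P.ht g * s + c0 := by
        intro g
        rw [Finset.card_image_of_injective _ (fun a b h => (Prod.mk.inj h).2), Finset.card_range]
      rw [Finset.sum_congr rfl fun g _ => h1 g, Finset.sum_add_distrib, ← Finset.sum_mul, hcard,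
        Finset.sum_const]
      rfl
    · intro g _ g' _ hne
      rw [Function.onFun, Finset.disjoint_left]
      intro c hc hc'
      obtain ⟨k, _, rfl⟩ := Finset.mem_image.1 hc
      obtain ⟨k', _, h⟩ := Finset.mem_image.1 hc'
      exact hne (Prod.mk.inj h).1.symm
  have hSp : Finset.univ.image σ ⊆ pool P c0 s := by
    intro c hc
    obtain ⟨a, _, rfl⟩ := Finset.mem_image.1 hc
    exact mem_pool.2 (hσ.2 a)
  have hSc : (Finset.univ.image σ).card = 8 * P.D0 * s := by
    rw [Finset.card_image_of_injective _ hσ.1, Finset.card_univ, Fintype.card_prod,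
      Fintype.card_fin, Fintype.card_fin]
    ring
  have h4 : (pool P c0 s \ Finset.univ.image σ).card = 17 * c0 := by
    rw [Finset.card_sdiff_of_subset hSp, hpc, hSc]
    omega
  -- a missing partner for every column which is not full
  have hex : ∀ b, ¬ Full T σ b → ∃ g', T.al (σ b).1 g' ≠ 0 ∧ ∀ a, σ a ≠ (g', (σ b).2) := by
    intro b hb
    unfold Full at hb
    push Not at hb
    exact hb
  have : Nonempty Gp := ⟨.z1⟩
  choose! f hf1 hf2 using hex
  have h5 : (Finset.univ.filter fun b => ¬ Full T σ b).card ≤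
      ((Finset.univ : Finset Gp) ×ˢ (pool P c0 s \ Finset.univ.image σ)).card := by
    refine Finset.card_le_card_of_injOn (fun b => ((σ b).1, (f b, (σ b).2))) ?_ ?_
    · intro b hb
      have hb' : ¬ Full T σ b := (Finset.mem_filter.1 hb).2
      rw [Finset.mem_coe, Finset.mem_product]
      refine ⟨Finset.mem_univ _, ?_⟩
      rw [Finset.mem_sdiff, mem_pool]
      constructor
      · have h6 := hσ.2 b
        dsimp only
        by_cases h7 : f b = (σ b).1
        · rw [h7]; exact h6
        · have h8 := (T.al_ne _ _ h7 (hf1 b hb')).2.2.2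
          have h9 := Nat.mul_le_mul_right s h8
          omega
      · intro h
        obtain ⟨a, _, ha⟩ := Finset.mem_image.1 h
        exact hf2 b hb' a ha
    · intro b _ b' _ h
      have h1 := (Prod.mk.inj h).1
      have h2 := (Prod.mk.inj (Prod.mk.inj h).2).2
      exact hσ.1 (Prod.ext h1 h2)
  refine h5.trans ?_
  rw [Finset.card_product, h4]
  have : (Finset.univ : Finset Gp).card = 17 := rfl
  rw [this]
  omega

/-- the sum over the partners -/
theorem sum_partners (hσ : Function.Injective σ) {b : Fin (P.D0 * s) × Fin 8} (hb : Full T σ b)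
    (F : Cl → ℂ) :
    ∑ a, F (σ a) * (if (σ a).2 = (σ b).2 then ((T.al (σ b).1 (σ a).1 : ℝ) : ℂ) else 0) =
      ∑ g', ((T.al (σ b).1 g' : ℝ) : ℂ) * F (g', (σ b).2) := by
  classical
  set Q := Finset.univ.filter fun a => (σ a).2 = (σ b).2 with hQ
  have h1 : ∑ a, F (σ a) * (if (σ a).2 = (σ b).2 then ((T.al (σ b).1 (σ a).1 : ℝ) : ℂ) else 0) =
      ∑ a ∈ Q, ((T.al (σ b).1 (σ a).1 : ℝ) : ℂ) * F ((σ a).1, (σ b).2) := by
    rw [hQ, Finset.sum_filter]
    refine Finset.sum_congr rfl fun a _ => ?_
    split_ifs with h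
    · rw [mul_comm]
      congr 2
      exact Prod.ext rfl h
    · rw [mul_zero]
  have h2 : Set.InjOn (fun a => (σ a).1) (Q : Set (Fin (P.D0 * s) × Fin 8)) := by
    intro a ha a' ha' h
    rw [Finset.mem_coe, hQ, Finset.mem_filter] at ha ha'
    exact hσ (Prod.ext h (ha.2.trans ha'.2.symm))
  rw [h1, ← Finset.sum_image (f := fun g' => ((T.al (σ b).1 g' : ℝ) : ℂ) * F (g', (σ b).2)) h2]
  refine Finset.sum_subset (Finset.subset_univ _) fun g' _ hg' => ?_
  have h3 : T.al (σ b).1 g' = 0 := by
    by_contra h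
    obtain ⟨a, ha⟩ := hb g' h
    refine hg' (Finset.mem_image.2 ⟨a, ?_, by rw [ha]⟩)
    rw [hQ, Finset.mem_filter]
    exact ⟨Finset.mem_univ _, by rw [ha]⟩
  rw [h3]
  simp

end

end Vale.Agent.P030.H866
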