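import Vale.Agent.P030.H866.Final
import Vale.Agent.P030.AR.Flat
import Vale.Agent.P030.H265.FrameAlg
import Vale.Agent.P030.H579.DesA

/-!
# P030, route N: the 17 group totals in the rows of the four cusp disc frames

`Gd c t` : log-free parts (`T = 0`) of the adapted flat basis `e, a, c, d, h, d+g, A0, A3` at the
cusp `c`;  `Bc c` : the constants of the frames `F4, F0, F8, F9` (with the `K`-line `A3` at `c3`);
`Mg g` : the coordinates of the total of the group `g`.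
-/

open Matrix

namespace Vale.Agent.P030.H866

open Vale.Agent.P030.T Vale.Agent.P030.AR
open Vale.Agent.P030.H265 (Adap Cst frm kF kT coo expand_flat)

noncomputable section

/-! ### constants -/

/-- the coefficients of the totals -/
def alT : Gp → Gp → ℝ
  | .z1, .zl => Real.log 2
  | .w1, .wl => Real.log 2
  | .w1, .wy => Real.pi ^ 2 / 16
  | .vb, .vl => Real.log 2 / 2
  | .vb, .v8 => -(Real.pi / 8)
  | .x1, .xl => Real.log 2 / 2
  | g, g' => if g' = g then 1 else 0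

/-- the rank of a group in the column operations -/
def rkT : Gp → ℕ
  | .z1 => 1
  | .w1 => 1
  | .vb => 1
  | .x1 => 1
  | _ => 0

/-- the total of the group `g` -/
def totT (g : Gp) (t : ℂ) : Fin 8 → ℂ := ∑ g', ((alT g g' : ℝ) : ℂ) • tupC g' t

/-- the coordinates `y = (x0, x1, x2, x3 - x4, x5, x4, x6, x7)` -/
def Ry : Matrix (Fin 8) (Fin 8) ℂ :=
  !![1, 0, 0, 0, 0, 0, 0, 0;
     0, 1, 0, 0, 0, 0, 0, 0;
     0, 0, 1, 0, 0, 0, 0, 0;
     0, 0, 0, 1, -1, 0, 0, 0;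
     0, 0, 0, 0, 0, 1, 0, 0;
     0, 0, 0, 0, 1, 0, 0, 0;
     0, 0, 0, 0, 0, 0, 1, 0;
     0, 0, 0, 0, 0, 0, 0, 1]

theorem Ry_mulVec (v : Fin 8 → ℂ) :
    Ry *ᵥ v = ![v 0, v 1, v 2, v 3 - v 4, v 5, v 4, v 6, v 7] := by
  funext i
  fin_cases i <;> simp [Ry, Matrix.mulVec, dotProduct, Fin.sum_univ_eight, sub_eq_add_neg]

/-- the adapted flat basis `e, a, c, d, h, d+g, A0, A3`, log-free parts at the cusp `c` -/
def Gd (c : Fin 4) (t : ℂ) : Fin 8 → Fin 8 → ℂ :=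
  ![gl c 0 t 0, gl c 0 t 1, gl c 0 t 2, dv, hv, dv + gv, gl c 0 t 6, gl c 0 t 7]

/-- its matrix in the coordinates `y` -/
def Pd (c : Fin 4) (t : ℂ) : Matrix (Fin 8) (Fin 8) ℂ := fun i => Ry *ᵥ Gd c t i

/-- coefficients (basis `e, a, c, d, h, d+g, A0, A3`) of the rows of the frames -/
def ve : Fin 8 → ℂ := ![1, 0, 0, 0, 0, 0, 0, 0]
def va : Fin 8 → ℂ := ![0, 1, 0, 0, 0, 0, 0, 0]
def vb' : Fin 8 → ℂ := ![0, 1, -1, Complex.I * pc - l2 / 2, -(l2 / 2), l2 / 2, 0, 0]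
def vab : Fin 8 → ℂ := ![0, 0, 1, l2 / 2 - Complex.I * pc, l2 / 2, -(l2 / 2), 0, 0]
def vQ : Fin 8 → ℂ :=
  ![0, 0, 1, l2 / 2, l2 / 2 - Complex.I * pc, -(l2 / 2), -(1 / 4), Complex.I / 4]
def vd : Fin 8 → ℂ := ![0, 0, 0, 1, 0, 0, 0, 0]
def vXl : Fin 8 → ℂ := ![0, 0, 0, 1, 1, -1, 0, 1 / pc]
def vX2 : Fin 8 → ℂ := ![0, 0, 0, 0, 1, 0, 0, -(1 / (4 * pc))]
def vV2 : Fin 8 → ℂ := ![0, 0, 0, 0, 1, -1, 0, 0]
def vs6 : Fin 8 → ℂ := ![0, 0, 0, 0, 0, 1, 3 * Complex.I / (2 * pc), 3 / (4 * pc)]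
def vA0 : Fin 8 → ℂ := ![0, 0, 0, 0, 0, 0, 1, 0]
def vA1 : Fin 8 → ℂ := ![0, 0, 0, 0, 0, 0, 2 * Complex.I, 1]
def vA2 : Fin 8 → ℂ := ![0, 0, 0, 0, 0, 0, 1, -Complex.I]
def vA3 : Fin 8 → ℂ := ![0, 0, 0, 0, 0, 0, 0, 1]
def vT : Fin 8 → ℂ := ![0, 0, 0, 0, 0, 0, 0, 0]

/-- the constants of the four cusp disc frames (`F4`, `F0`, `F8`, `F9` with `A3`) -/
def Bc : Fin 4 → Matrix (Fin 8) (Fin 8) ℂ
  | 0 => ![ve, va, vab, vd, vX2, vs6, vA0, vT]
  | 1 => ![ve, vb', vab, vd, vV2, vs6, vA1, vT]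
  | 2 => ![ve, vb', vQ, vd, vV2, vs6, vA2, vT]
  | 3 => ![ve, va, vQ, vXl, vX2, vs6, vA3, vT]

/-- the coordinates of the totals in the rows of the frame of their cusp (slot 6 = multiple of the
`K`-row) -/
def Mg : Gp → Fin 8 → ℂ
  | .z1 => ![1, 0, 0, 0, 0, 0, 0, 0]
  | .zl => ![0, 1, 0, 0, 0, 0, 0, 0]
  | .z8 => ![0, 0, 0, 0, 0, 0, 2 / pc, 0]
  | .zab => ![0, 0, 0, 1, 0, 0, 0, 0]
  | .w1 => ![1, 0, 0, 0, 0, 0, 0, 0]
  | .wl => ![0, 1, 0, 0, 0, 0, 0, 0]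
  | .wy => ![0, 0, 0, 0, 0, -(4 / 3), 0, 0]
  | .w8 => ![0, 0, 0, 0, 0, 0, 1 / pc, 0]
  | .wab => ![0, 0, 0, 1, 0, 0, 0, 0]
  | .wf7 => ![0, 0, 0, 0, 1, 1, -(3 / (4 * pc)), 0]
  | .v2 => ![0, 0, 0, 0, 1, 0, 0, 0]
  | .vl => ![0, 0, 0, 1, 1, 0, 0, 0]
  | .v8 => ![0, 0, 0, 0, 0, 0, 2 / pc, 0]
  | .vb => ![0, 0, 1, 0, Complex.I * pc, 0, 0, 0]
  | .x2 => ![0, 0, 0, 0, 1 / 2, 0, 0, 0]
  | .xl => ![0, 0, 0, 1, 0, 0, 0, 0]
  | .x1 => ![0, 0, -1, 0, -(Complex.I * pc), 0, 0, 0]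

/-- the coefficients of the totals in the adapted flat basis -/
def bet17 : Gp → Fin 8 → ℂ
  | .z1 => ![1, 0, 0, 0, 0, 0, 0, 0]
  | .zl => ![0, 1, 0, 0, 0, 0, 0, 0]
  | .z8 => ![0, 0, 0, 0, 0, 0, 2 / pc, 0]
  | .zab => ![0, 0, 0, 1, 0, 0, 0, 0]
  | .w1 => ![1, 0, 0, 0, 0, 0, 0, 0]
  | .wl => ![0, 1, -1, Complex.I * pc - l2 / 2, -(l2 / 2), l2 / 2, 0, 0]
  | .wy => ![0, 0, 0, 0, 0, -(4 / 3), -(2 * Complex.I / pc), -(1 / pc)]
  | .w8 => ![0, 0, 0, 0, 0, 0, 2 * Complex.I / pc, 1 / pc]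
  | .wab => ![0, 0, 0, 1, 0, 0, 0, 0]
  | .wf7 => ![0, 0, 0, 0, 1, 0, 0, 0]
  | .v2 => ![0, 0, 0, 0, 1, -1, 0, 0]
  | .vl => ![0, 0, 0, 1, 1, -1, 0, 0]
  | .v8 => ![0, 0, 0, 0, 0, 0, 2 / pc, -(2 * Complex.I / pc)]
  | .vb => ![0, 0, 1, l2 / 2, l2 / 2, -(l2 / 2) - Complex.I * pc, -(1 / 4), Complex.I / 4]
  | .x2 => ![0, 0, 0, 0, 1 / 2, 0, 0, -(1 / (8 * pc))]
  | .xl => ![0, 0, 0, 1, 1, -1, 0, 1 / pc]
  | .x1 => ![0, 0, -1, -(l2 / 2), -(l2 / 2), l2 / 2, 1 / 4, 0]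

/-! ### the coordinates in the frame -/

/-- `bet17 g = Σ_{c ≤ 6} Mg g c • (row c of Bc)` -/
theorem bet17_eq (g : Gp) (i : Fin 8) :
    bet17 g i = (∑ c : Fin 8, if c < 6 then Mg g c * Bc g.cusp c i else 0) +
      Mg g 6 * Bc g.cusp 6 i := by
  have hp := pc_ne
  have hI : Complex.I ^ 2 = -1 := Complex.I_sq
  cases g <;> fin_cases i <;>
    simp [bet17, Mg, Bc, Gp.cusp, Fin.sum_univ_eight, ve, va, vb', vab, vQ, vd, vXl, vX2, vV2, vs6,
      vA0, vA1, vA2, vA3]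
  all_goals first
    | ring1
    | (field_simp; done)
    | (field_simp; ring1)
    | (field_simp; ring_nf; simp only [hI]; ring1)

/-! ### the totals in the adapted flat basis -/

theorem l2_eq : ((Real.log 2 : ℝ) : ℂ) = l2 := rfl
theorem pc_eq : ((Real.pi : ℝ) : ℂ) = pc := rfl

theorem totT_z1 (t : ℂ) : totT .z1 t = tupC .z1 t + l2 • tupC .zl t := by
  simp only [totT, H579.sum_Gp, alT, l2_eq]
  simp [-Complex.coe_smul]

theorem totT_w1 (t : ℂ) :
    totT .w1 t = tupC .w1 t + l2 • tupC .wl t + (pc ^ 2 / 16) • tupC .wy t := by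
  simp only [totT, H579.sum_Gp, alT, l2_eq, Complex.ofReal_div, Complex.ofReal_pow, pc_eq]
  simp [-Complex.coe_smul, add_assoc]

theorem totT_vb (t : ℂ) :
    totT .vb t = tupC .vb t + (l2 / 2) • tupC .vl t - (pc / 8) • tupC .v8 t := by
  simp only [totT, H579.sum_Gp, alT, ← l2_eq, ← pc_eq]
  simp
  module

theorem totT_x1 (t : ℂ) : totT .x1 t = tupC .x1 t + (l2 / 2) • tupC .xl t := by
  simp only [totT, H579.sum_Gp, alT, ← l2_eq]
  simp
  module

theorem totT_self (g : Gp) (hg : rkT g = 0) (t : ℂ) : totT g t = tupC g t := by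
  unfold totT
  rw [Finset.sum_eq_single g]
  · cases g <;> simp [rkT] at hg <;> simp [alT]
  · intro g' _ hne
    cases g <;> simp [rkT] at hg <;> simp [alT, hne]
  · intro h; exact absurd (Finset.mem_univ g) h

theorem totT_eq (g : Gp) {t : ℂ} (ht : ‖t‖ < 1) :
    totT g t = ∑ i, bet17 g i • Gd g.cusp t i := by
  have hp := pc_ne
  have hI : Complex.I ^ 2 = -1 := Complex.I_sq
  cases g
  case z1 =>
    rw [totT_z1]
    simp [Fin.sum_univ_eight, bet17, Gd, Gp.cusp, gl, gl0]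
  case zl =>
    rw [totT_self _ rfl]
    simp [Fin.sum_univ_eight, bet17, Gd, Gp.cusp, gl, gl0]
  case z8 =>
    rw [totT_self _ rfl]
    simp [Fin.sum_univ_eight, bet17, Gd, Gp.cusp, gl, gl0]
    match_scalars
    field_simp
  case zab =>
    rw [totT_self _ rfl, tupC_zab]
    simp [Fin.sum_univ_eight, bet17, Gd, Gp.cusp, gl, gl0]
  case w1 =>
    rw [totT_w1]
    simp [Fin.sum_univ_eight, bet17, Gd, Gp.cusp, gl, gl1]
  case wl =>
    rw [totT_self _ rfl]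
    simp [Fin.sum_univ_eight, bet17, Gd, Gp.cusp, gl, gl1, wLv]
    module
  case wy =>
    rw [totT_self _ rfl, tupC_wy]
    simp [Fin.sum_univ_eight, bet17, Gd, Gp.cusp, gl, gl1, wMv]
    match_scalars <;> first | ring1 | (field_simp; done) | (field_simp; ring1) |
      (field_simp; ring_nf; simp only [hI]; ring1) | (field_simp; ring_nf; simp only [hI]; done)
  case w8 =>
    rw [totT_self _ rfl]
    simp [Fin.sum_univ_eight, bet17, Gd, Gp.cusp, gl, gl1, wMv]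
    match_scalars <;> first | ring1 | (field_simp; done) | (field_simp; ring1) |
      (field_simp; ring_nf; simp only [hI]; ring1) | (field_simp; ring_nf; simp only [hI]; done)
  case wab =>
    rw [totT_self _ rfl, tupC_wab]
    simp [Fin.sum_univ_eight, bet17, Gd, Gp.cusp, gl, gl1]
  case wf7 =>
    rw [totT_self _ rfl, tupC_wf7]
    simp [Fin.sum_univ_eight, bet17, Gd, Gp.cusp, gl, gl1]
  case v2 =>
    rw [totT_self _ rfl, tupC_v2]
    simp [Fin.sum_univ_eight, bet17, Gd, Gp.cusp, gl, gl2]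
    module
  case vl =>
    rw [totT_self _ rfl, tupC_vl]
    simp [Fin.sum_univ_eight, bet17, Gd, Gp.cusp, gl, gl2]
    module
  case v8 =>
    rw [totT_self _ rfl]
    simp [Fin.sum_univ_eight, bet17, Gd, Gp.cusp, gl, gl2, A1v, A2v, vMv]
    match_scalars <;> first | ring1 | (field_simp; done) | (field_simp; ring1) |
      (field_simp; ring_nf; simp only [hI]; ring1) | (field_simp; ring_nf; simp only [hI]; done)
  case vb =>
    rw [totT_vb, tupC_vl]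
    simp [Fin.sum_univ_eight, bet17, Gd, Gp.cusp, gl, gl2, A1v, A2v, vMv]
    match_scalars <;> first | ring1 | (field_simp; done) | (field_simp; ring1) |
      (field_simp; ring_nf; simp only [hI]; ring1) | (field_simp; ring_nf; simp only [hI]; done)
  case x2 =>
    rw [totT_self _ rfl, tupC_x2 ht]
    simp [Fin.sum_univ_eight, bet17, Gd, Gp.cusp, gl, gl3, k3v, tupC_xl ht]
    match_scalars <;> first | ring1 | (field_simp; done) | (field_simp; ring1) |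
      (field_simp; ring_nf; simp only [hI]; ring1) | (field_simp; ring_nf; simp only [hI]; done)
  case xl =>
    rw [totT_self _ rfl]
    simp [Fin.sum_univ_eight, bet17, Gd, Gp.cusp, gl, gl3, k3v]
    match_scalars <;> first | ring1 | (field_simp; done) | (field_simp; ring1) |
      (field_simp; ring_nf; simp only [hI]; ring1) | (field_simp; ring_nf; simp only [hI]; done)
  case x1 =>
    rw [totT_x1]
    simp [Fin.sum_univ_eight, bet17, Gd, Gp.cusp, gl, gl3, k3v, xMv, x1v]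
    match_scalars <;> first | ring1 | (field_simp; done) | (field_simp; ring1) |
      (field_simp; ring_nf; simp only [hI]; ring1) | (field_simp; ring_nf; simp only [hI]; done)

/-! ### the adapted matrix -/

theorem Gd_e (c : Fin 4) (t : ℂ) : Gd c t 0 0 = 1 := by
  fin_cases c
  · simp [Gd, gl, gl0, tupC, tup0, tup1, evq_zero, evq_one]
  · simp [Gd, gl, gl1, tupC, tup0, tup1, evq_zero, evq_one]
  · simp [Gd, gl, gl2, tupC, tup0, tup1, evt, vO0, vE0, vM0, vEv, vMv, A1v, dv, gv, hv, evq_zero,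
      evq_one]
  · simp [Gd, gl, gl3, tupC, tup0, tup1, evt, xO0, xE0, xM0, xEv, x1v, xMv, k3v, dv, gv, hv,
      evq_zero, evq_one]

theorem Gd_a (c : Fin 4) (t : ℂ) : Gd c t 1 0 = 0 ∧ Gd c t 1 1 = 1 := by
  fin_cases c
  · constructor <;> simp [Gd, gl, gl0, tupC, tup0, tup1, evq_zero, evq_one]
  · constructor <;> simp [Gd, gl, gl1, tupC, tup0, tup1, evt, wL0, wLv, dv, gv, hv, evq_zero,
      evq_one]
  · constructor <;> simp [Gd, gl, gl2, evt, vE0, vEv, gv, hv, evq_zero, evq_one]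
  · constructor <;> simp [Gd, gl, gl3, evt, xE0, xEv, gv, hv, evq_zero, evq_one]

theorem Gd_c (c : Fin 4) (t : ℂ) : Gd c t 2 0 = 0 ∧ Gd c t 2 1 = 0 ∧ Gd c t 2 2 = 1 := by
  fin_cases c
  · refine ⟨?_, ?_, ?_⟩ <;> simp [Gd, gl, gl0, evt, zL0, evq_zero, evq_one]
  · refine ⟨?_, ?_, ?_⟩ <;>
      simp [Gd, gl, gl1, evt, wL0, wLv, dv, gv, hv, evq_zero, evq_one]
  · refine ⟨?_, ?_, ?_⟩ <;>
      simp [Gd, gl, gl2, tupC, tup0, tup1, dv, gv, evq_zero, evq_one]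
  · refine ⟨?_, ?_, ?_⟩ <;>
      simp [Gd, gl, gl3, tupC, tup0, tup1, evt, x1v, xM0, xMv, k3v, gv, hv, evq_zero, evq_one,
        evq_neg_one]

theorem Gd_K (c : Fin 4) (t : ℂ) (j : Fin 8) (hj : j < 6) : Gd c t 6 j = 0 ∧ Gd c t 7 j = 0 := by
  fin_cases c
  · fin_cases j <;> first | exact absurd hj (by decide) |
      (constructor <;> simp [Gd, gl, gl0, tupC, tup0, tup1, evt, zM0, evq_zero])
  · fin_cases j <;> first | exact absurd hj (by decide) |
      (constructor <;> simp [Gd, gl, gl1, tupC, tup0, tup1, evt, wM0, wMv, evq_zero])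
  · fin_cases j <;> first | exact absurd hj (by decide) |
      (constructor <;> simp [Gd, gl, gl2, tupC, tup0, tup1, evt, vM0, vMv, A1v, A2v, evq_zero])
  · fin_cases j <;> first | exact absurd hj (by decide) |
      (constructor <;> simp [Gd, gl, gl3, tupC, tup0, tup1, evt, xM0, xMv, k3v, gv, hv, evq_zero,
        evq_one, evq_neg_one])

theorem Pd_apply (c : Fin 4) (t : ℂ) (i : Fin 8) :
    Pd c t i = ![Gd c t i 0, Gd c t i 1, Gd c t i 2, Gd c t i 3 - Gd c t i 4,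
      Gd c t i 5, Gd c t i 4, Gd c t i 6, Gd c t i 7] := Ry_mulVec _

theorem Pd_d (c : Fin 4) (t : ℂ) : Pd c t 3 = ![0, 0, 0, 1, 0, 0, 0, 0] := by
  rw [Pd_apply]
  simp [Gd, dv]

theorem Pd_h (c : Fin 4) (t : ℂ) : Pd c t 4 = ![0, 0, 0, 0, 1, 0, 0, 0] := by
  rw [Pd_apply]
  simp [Gd, hv]

theorem Pd_dg (c : Fin 4) (t : ℂ) : Pd c t 5 = ![0, 0, 0, 0, 0, 1, 0, 0] := by
  rw [Pd_apply]
  simp [Gd, dv, gv]

theorem adap_Pd (c : Fin 4) (t : ℂ) : Adap (Pd c t) := by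
  have he := Gd_e c t
  obtain ⟨ha0, ha1⟩ := Gd_a c t
  obtain ⟨hc0, hc1, hc2⟩ := Gd_c c t
  have hK := Gd_K c t
  have k0 := hK 0 (by decide)
  have k1 := hK 1 (by decide)
  have k2 := hK 2 (by decide)
  have k3 := hK 3 (by decide)
  have k4 := hK 4 (by decide)
  have k5 := hK 5 (by decide)
  refine ⟨?_, ?_, ?_, ?_⟩
  · intro i j hi hj
    fin_cases i
    · exact absurd hj (Nat.not_lt_zero _)
    · rw [Fin.mk_one, Pd_apply]
      fin_cases j <;> first | exact absurd hj (by decide) | simp [ha0]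
    · show Pd c t 2 j = 0
      rw [Pd_apply]
      fin_cases j <;> first | exact absurd hj (by decide) | simp [hc0, hc1]
    · show Pd c t 3 j = 0
      rw [Pd_d]
      fin_cases j <;> first | exact absurd hj (by decide) | simp
    · show Pd c t 4 j = 0
      rw [Pd_h]
      fin_cases j <;> first | exact absurd hj (by decide) | simp
    · show Pd c t 5 j = 0
      rw [Pd_dg]
      fin_cases j <;> first | exact absurd hj (by decide) | simp
    · exact absurd hi (by decide)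
    · exact absurd hi (by decide)
  · intro i hi
    fin_cases i
    · show Pd c t 0 0 = 1
      rw [Pd_apply]; simp [he]
    · show Pd c t 1 1 = 1
      rw [Pd_apply]; simp [ha1]
    · show Pd c t 2 2 = 1
      rw [Pd_apply]; simp [hc2]
    · show Pd c t 3 3 = 1
      rw [Pd_d]; simp
    · show Pd c t 4 4 = 1
      rw [Pd_h]; simp
    · show Pd c t 5 5 = 1
      rw [Pd_dg]; simp
    · exact absurd hi (by decide)
    · exact absurd hi (by decide)
  · intro j hj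
    rw [Pd_apply]
    fin_cases j <;> first | exact absurd hj (by decide) | simp [k0.1, k1.1, k2.1, k3.1, k4.1, k5.1]
  · intro j hj
    rw [Pd_apply]
    fin_cases j <;> first | exact absurd hj (by decide) | simp [k0.2, k1.2, k2.2, k3.2, k4.2, k5.2]

/-! ### the totals in the frame -/

/-- the coordinates of the total of `g` in the disc frame of its cusp -/
def yv (g : Gp) (t : ℂ) : Fin 8 → ℂ := fun c =>
  if c = 7 then 0
  else if c = 6 then Mg g 6 * kF (Pd g.cusp t) (Bc g.cusp 6 6) (Bc g.cusp 6 7)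
  else Mg g c

/-- **the 17 totals in the rows of the cusp disc frames** -/
theorem tot_frame (g : Gp) {t : ℂ} (ht : ‖t‖ < 1)
    (hK : kF (Pd g.cusp t) (Bc g.cusp 6 6) (Bc g.cusp 6 7) ≠ 0) :
    Ry *ᵥ totT g t = yv g t ᵥ* frm (Pd g.cusp t) (Bc g.cusp) := by
  have hA := adap_Pd g.cusp t
  have h1 := expand_flat (P := Pd g.cusp t) (B' := Bc g.cusp) hA (β := bet17 g) (M := Mg g)
    (ρ6 := Mg g 6 * Bc g.cusp 6 6) (ρ7 := Mg g 6 * Bc g.cusp 6 7)
    (fun i hi => by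
      rw [bet17_eq]
      have : Bc g.cusp 6 i = 0 := by
        cases g <;> fin_cases i <;> first | rfl | exact absurd hi (by decide)
      rw [this, mul_zero, add_zero])
    (bet17_eq g 6) (bet17_eq g 7)
  have h2 : Ry *ᵥ totT g t = fun j => ∑ i, bet17 g i * Pd g.cusp t i j := by
    rw [totT_eq g ht]
    funext j
    rw [Matrix.mulVec_sum]
    rw [Finset.sum_apply]
    refine Finset.sum_congr rfl fun i _ => ?_
    rw [Matrix.mulVec_smul]
    rfl
  rw [h2, h1]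
  congr 1
  funext c
  have e6 : kF (Pd g.cusp t) (Mg g 6 * Bc g.cusp 6 6) (Mg g 6 * Bc g.cusp 6 7) =
      Mg g 6 * kF (Pd g.cusp t) (Bc g.cusp 6 6) (Bc g.cusp 6 7) := by
    unfold kF; ring
  have e7 : kT (Pd g.cusp t) (Mg g 6 * Bc g.cusp 6 6) (Mg g 6 * Bc g.cusp 6 7) =
      Mg g 6 * kT (Pd g.cusp t) (Bc g.cusp 6 6) (Bc g.cusp 6 7) := by
    unfold kT; ring
  unfold coo yv
  split_ifs with h7 h6
  · rw [e6, e7]
    field_simp
    ring
  · rw [e6]
  · rfl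

end

end Vale.Agent.P030.H866
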