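import Vale.Agent.P030.H866.Loc17
import Vale.Agent.P030.H181.KNz

/-!
# P030, route N: `StAR` for design A from wall data whose cusp cells carry the log-free frames

`stAR_A_of_det` : the cells which meet the four cusp circles are one disc cell per cusp, with the
frame `frm (Pd c t) (Bc c)`; the level sets `lev g`; the weights `ω g` bound `W b` on the circle for
`b ∈ lev g`.
-/

open Matrix

namespace Vale.Agent.P030.H866

open Vale.Agent.P030.T Vale.Agent.P030.AR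
open Vale.Agent.P030.H265 (Adap Cst frm kF kT WallData)
open Vale.Agent.P030.H905 (Wt E0)
open Vale.Agent.P030.H3 (SCirc)

/-! ### the `K`-line entry -/

theorem evq_serK_ne {t : ℂ} (ht : ‖t‖ < 1) : evq serK t ≠ 0 := by
  rw [← H181.kC_eq ht]
  exact H181.kC_ne (H181.ball_sub_cutK (by simpa using ht))

theorem evq_one_sub_X_serK {t : ℂ} (ht : ‖t‖ < 1) :
    evq ((1 - PowerSeries.X) * serK) t = (1 - t) * evq serK t := by
  have h1 : H462.PQ (1 - PowerSeries.X : PowerSeries ℚ) := H462.PG.one.sub H462.PG.varX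
  have h2 : evq (1 - PowerSeries.X) t = 1 - t := by
    rw [evq_eq, H462.evQ]
    have h3 : (1 - PowerSeries.X : PowerSeries ℚ) = 1 + (-PowerSeries.X) := by ring
    rw [h3, H462.ev_add H462.PG.one H462.PG.varX.neg ht, H462.ev_one, H462.ev_neg, H462.ev_X]
    ring
  rw [evq_eq, H462.evQ, H462.ev_mul h1 H462.pq_serK ht]
  have h4 : H462.ev (algebraMap ℚ ℂ) (1 - PowerSeries.X) t = 1 - t := h2
  rw [h4]
  rfl

/-- the `F` entry of the `K`-line of the disc frame -/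
noncomputable def kd (c : Fin 4) (t : ℂ) : ℂ := kF (Pd c t) (Bc c 6 6) (Bc c 6 7)

theorem kd_zero {t : ℂ} (ht : ‖t‖ < 1) : kd 0 t = pc / 2 * ((1 - t) * evq serK t) := by
  rw [kd, kF, Pd_apply, Pd_apply]
  simp [Bc, vA0, Gd, gl, gl0, tupC, tup0, tup1, evq_zero, evq_one_sub_X_serK ht]

theorem kd_one (t : ℂ) : kd 1 t = pc * evq serK t := by
  rw [kd, kF, Pd_apply, Pd_apply]
  simp [Bc, vA1, Gd, gl, gl1, wMv, tupC, tup0, tup1, evq_zero]

theorem kd_two {t : ℂ} (ht : ‖t‖ < 1) : kd 2 t = -(pc / 2 * ((1 - t) * evq serK t)) := by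
  rw [kd, kF, Pd_apply, Pd_apply]
  simp [Bc, vA2, Gd, gl, gl2, A1v, A2v, vMv, tupC, tup0, tup1, evq_zero, evq_neg,
    evq_one_sub_X_serK ht]

theorem kd_three {t : ℂ} (ht : ‖t‖ < 1) : kd 3 t = -(pc * (t * evq serK t)) := by
  rw [kd, kF, Pd_apply, Pd_apply]
  simp [Bc, vA3, Gd, gl, gl3, k3v, tupC, tup0, tup1, evq_zero, evq_neg, gv, hv,
    evq_X_mul H462.pq_serK ht]

theorem kd_ne (c : Fin 4) {t : ℂ} (ht : ‖t‖ < 1) (ht0 : t ≠ 0) : kd c t ≠ 0 := by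
  have hp := pc_ne
  have hK := evq_serK_ne ht
  have h1 : (1 : ℂ) - t ≠ 0 := by
    intro h
    have : t = 1 := by linear_combination -h
    rw [this, norm_one] at ht
    exact lt_irrefl _ ht
  fin_cases c
  · rw [Fin.zero_eta, kd_zero ht]
    exact mul_ne_zero (div_ne_zero hp two_ne_zero) (mul_ne_zero h1 hK)
  · rw [Fin.mk_one, kd_one]
    exact mul_ne_zero hp hK
  · show kd 2 t ≠ 0
    rw [kd_two ht]
    exact neg_ne_zero.2 (mul_ne_zero (div_ne_zero hp two_ne_zero) (mul_ne_zero h1 hK))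
  · show kd 3 t ≠ 0
    rw [kd_three ht]
    exact neg_ne_zero.2 (mul_ne_zero hp (mul_ne_zero ht0 hK))

theorem kd_bound (c : Fin 4) {r : ℝ} (hr1 : r < 1) :
    ∃ C : ℝ, ∀ t : ℂ, ‖t‖ = r → ‖kd c t‖ ≤ C := by
  have hc : ContinuousOn (fun t : ℂ => evq serK t) (Metric.sphere (0 : ℂ) r) := by
    refine (H787.diff_evq H787.pg_serK).continuousOn.mono fun t ht => ?_
    rw [mem_ball_zero_iff, mem_sphere_zero_iff_norm.1 ht]
    exact hr1
  obtain ⟨C, hC⟩ := (isCompact_sphere (0 : ℂ) r).exists_bound_of_continuousOn hc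
  refine ⟨‖pc‖ * (2 * |C|), fun t ht => ?_⟩
  have h1 : ‖evq serK t‖ ≤ |C| := (hC t (by simpa using ht)).trans (le_abs_self _)
  have ht1 : ‖t‖ < 1 := by rw [ht]; exact hr1
  have h2 : ‖1 - t‖ ≤ 2 := by
    refine (norm_sub_le _ _).trans ?_
    rw [norm_one]; linarith
  have hp : 0 ≤ ‖pc‖ := norm_nonneg _
  have hC0 : 0 ≤ |C| := abs_nonneg _
  have h3 : ‖(1 - t) * evq serK t‖ ≤ 2 * |C| := by
    rw [norm_mul]
    exact mul_le_mul h2 h1 (norm_nonneg _) (by norm_num)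
  have h4 : ‖t * evq serK t‖ ≤ 2 * |C| := by
    rw [norm_mul]
    exact mul_le_mul (by linarith) h1 (norm_nonneg _) (by norm_num)
  have h5 : ‖pc / 2‖ ≤ ‖pc‖ := by
    rw [norm_div, Complex.norm_ofNat]
    linarith
  fin_cases c
  · rw [Fin.zero_eta, kd_zero ht1, norm_mul]
    exact mul_le_mul h5 h3 (norm_nonneg _) hp
  · rw [Fin.mk_one, kd_one, norm_mul]
    exact mul_le_mul_of_nonneg_left (h1.trans (by linarith)) hp
  · show ‖kd 2 t‖ ≤ _
    rw [kd_two ht1, norm_neg, norm_mul]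
    exact mul_le_mul h5 h3 (norm_nonneg _) hp
  · show ‖kd 3 t‖ ≤ _
    rw [kd_three ht1, norm_neg, norm_mul]
    exact mul_le_mul_of_nonneg_left h4 hp

/-! ### levels of the groups -/

/-- the levels of the total of the group `g` -/
def lev : Gp → Finset (Fin 8)
  | .z1 => {0}
  | .zl => {1}
  | .z8 => {6}
  | .zab => {3}
  | .w1 => {0}
  | .wl => {1}
  | .wy => {5}
  | .w8 => {6}
  | .wab => {3}
  | .wf7 => {4, 5, 6}
  | .v2 => {4}
  | .vl => {3, 4}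
  | .v8 => {6}
  | .vb => {2, 4}
  | .x2 => {4}
  | .xl => {3}
  | .x1 => {2, 4}

theorem Mg_eq_zero {g : Gp} {b : Fin 8} (h : b ∉ lev g) : Mg g b = 0 := by
  cases g <;> fin_cases b <;> first | rfl | exact absurd (by decide) h

theorem yv_eq_zero {g : Gp} {b : Fin 8} (t : ℂ) (h : b ∉ lev g) : yv g t b = 0 := by
  unfold yv
  split_ifs with h7 h6
  · rfl
  · rw [← h6, Mg_eq_zero h, zero_mul]
  · exact Mg_eq_zero h

theorem yv_bound (g : Gp) {r : ℝ} (hr1 : r < 1) :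
    ∃ B : ℝ, ∀ t : ℂ, ‖t‖ = r → ∀ b, ‖yv g t b‖ ≤ B := by
  obtain ⟨C, hC⟩ := kd_bound g.cusp hr1
  refine ⟨‖Mg g 6‖ * C + ∑ c, ‖Mg g c‖, fun t ht b => ?_⟩
  have hC0 : 0 ≤ C := (norm_nonneg _).trans (hC t ht)
  have hs : 0 ≤ ∑ c, ‖Mg g c‖ := Finset.sum_nonneg fun _ _ => norm_nonneg _
  have h6 : 0 ≤ ‖Mg g 6‖ * C := mul_nonneg (norm_nonneg _) hC0
  unfold yv
  split_ifs with h7 h6'
  · rw [norm_zero]; linarith
  · rw [norm_mul]
    have := mul_le_mul_of_nonneg_left (hC t ht) (norm_nonneg (Mg g 6))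
    unfold kd at this
    linarith
  · have := Finset.single_le_sum (f := fun c => ‖Mg g c‖) (fun _ _ => norm_nonneg _)
      (Finset.mem_univ b)
    linarith

/-! ### the totals of design A -/

/-- the totals -/
noncomputable def totA {P : Par} {r : Gp → ℝ} (h1 : r .zl = r .z1) (h2 : r .wl = r .w1) (h3 : r .wy = r .w1)
    (h4 : r .vl = r .vb) (h5 : r .v8 = r .vb) (h6 : r .xl = r .x1)
    (k1 : P.ht .z1 ≤ P.ht .zl) (k2 : P.ht .w1 ≤ P.ht .wl) (k3 : P.ht .w1 ≤ P.ht .wy)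
    (k4 : P.ht .vb ≤ P.ht .vl) (k5 : P.ht .vb ≤ P.ht .v8) (k6 : P.ht .x1 ≤ P.ht .xl) : Tot P r where
  al := alT
  rk := rkT
  al_self := fun g => by cases g <;> simp [alT]
  al_ne := by
    intro g g' hne h
    cases g <;> cases g' <;>
      first
        | exact absurd rfl hne
        | exact ⟨by decide, rfl, h1, k1⟩
        | exact ⟨by decide, rfl, h2, k2⟩
        | exact ⟨by decide, rfl, h3, k3⟩
        | exact ⟨by decide, rfl, h4, k4⟩
        | exact ⟨by decide, rfl, h5, k5⟩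
        | exact ⟨by decide, rfl, h6, k6⟩
        | (exfalso; apply h; simp [alT])

/-- the inverse of `Ry` -/
def Ryi : Matrix (Fin 8) (Fin 8) ℂ :=
  !![1, 0, 0, 0, 0, 0, 0, 0;
     0, 1, 0, 0, 0, 0, 0, 0;
     0, 0, 1, 0, 0, 0, 0, 0;
     0, 0, 0, 1, 0, 1, 0, 0;
     0, 0, 0, 0, 0, 1, 0, 0;
     0, 0, 0, 0, 1, 0, 0, 0;
     0, 0, 0, 0, 0, 0, 1, 0;
     0, 0, 0, 0, 0, 0, 0, 1]

theorem Ry_mul_Ryi : Ry * Ryi = 1 := by
  ext i j
  fin_cases i <;> fin_cases j <;> simp [Ry, Ryi, Matrix.mul_apply, Fin.sum_univ_eight]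

theorem Ry_det_ne : Ry.det ≠ 0 := Matrix.det_ne_zero_of_right_inverse Ry_mul_Ryi

/-- **`StAR` for design A** from wall data whose cusp cells carry the log-free frames: `W` any
continuous weights with the determinant bound `E`, `ω g` bounds of the weights of the levels of the
group `g` on its circle -/
theorem stAR_A_of_det {κ ι : Type} [DecidableEq ι] [Fintype ι] [Fintype κ] (c0 : ℕ)
    (r : Gp → ℝ) (hr : ∀ g, 0 < r g) (hr1 : ∀ g, r g < 1)
    (h1 : r .zl = r .z1) (h2 : r .wl = r .w1) (h3 : r .wy = r .w1)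
    (h4 : r .vl = r .vb) (h5 : r .v8 = r .vb) (h6 : r .xl = r .x1)
    (G : WallData κ ι 8) (disc : Fin 4 → ι)
    (hcell : ∀ g : Gp, ∀ t : ℂ, ‖t‖ = r g → ∀ i, Sc g.cusp t ∈ G.T.reg G.g 0 i → i = disc g.cusp)
    (hS : ∀ g : Gp, ∀ t : ℂ, ‖t‖ = r g →
      G.S (disc g.cusp) (Sc g.cusp t) = frm (Pd g.cusp t) (Bc g.cusp))
    {W : Fin 8 → ℂ → ℝ} (hW : ∀ b, Continuous (W b)) {E : ℝ}
    (hdet : DetB G W H579.parA.D0 E) (ω : Gp → ℝ)
    (hω : ∀ g : Gp, ∀ t : ℂ, ‖t‖ = r g → ∀ b ∈ lev g, W b (Sc g.cusp t) ≤ ω g) :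
    StAR H579.parA c0 (E - Qm H579.parA r ω) := by
  refine stAR_of_det H579.parA c0 H579.parA_card (by norm_num [H579.parA]) r hr hr1
    (totA h1 h2 h3 h4 h5 h6 (by norm_num [H579.parA]) (by norm_num [H579.parA])
      (by norm_num [H579.parA]) (by norm_num [H579.parA]) (by norm_num [H579.parA])
      (by norm_num [H579.parA])) Ry Ry_det_ne G hW hdet ω ?_
  intro g
  obtain ⟨B, hB⟩ := yv_bound g (hr1 g)
  refine ⟨B, fun t ht i hi => ?_⟩
  have hi' := hcell g t ht i hi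
  subst hi'
  have ht1 : ‖t‖ < 1 := by rw [ht]; exact hr1 g
  have ht0 : t ≠ 0 := by
    rintro rfl
    rw [norm_zero] at ht
    exact (hr g).ne ht
  refine ⟨yv g t, ?_, fun b => ⟨hB t ht b, ?_⟩⟩
  · rw [hS g t ht]
    exact tot_frame g ht1 (kd_ne g.cusp ht1 ht0)
  · by_cases hb : b ∈ lev g
    · exact Or.inr (hω g t ht b hb)
    · exact Or.inl (yv_eq_zero t hb)

/-- the same for circle potentials -/
theorem stAR_A_of_walls {κ ι : Type} [DecidableEq ι] [Fintype ι] [Fintype κ] (c0 : ℕ)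
    (r : Gp → ℝ) (hr : ∀ g, 0 < r g) (hr1 : ∀ g, r g < 1)
    (h1 : r .zl = r .z1) (h2 : r .wl = r .w1) (h3 : r .wy = r .w1)
    (h4 : r .vl = r .vb) (h5 : r .v8 = r .vb) (h6 : r .xl = r .x1)
    (G : WallData κ ι 8) (disc : Fin 4 → ι)
    (hcell : ∀ g : Gp, ∀ t : ℂ, ‖t‖ = r g → ∀ i, Sc g.cusp t ∈ G.T.reg G.g 0 i → i = disc g.cusp)
    (hS : ∀ g : Gp, ∀ t : ℂ, ‖t‖ = r g →
      G.S (disc g.cusp) (Sc g.cusp t) = frm (Pd g.cusp t) (Bc g.cusp))
    {κc : Fin 8 → Type} [∀ b, Fintype (κc b)] (μ : ∀ b, SCirc (κc b)) (γ : Fin 8 → ℝ)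
    (hC : G.Cond (Wt (fun _ => H579.parA.D0) μ γ)) (ω : Gp → ℝ)
    (hω : ∀ g : Gp, ∀ t : ℂ, ‖t‖ = r g → ∀ b ∈ lev g,
      Wt (fun _ => H579.parA.D0) μ γ b (Sc g.cusp t) ≤ ω g) :
    StAR H579.parA c0 (E0 (fun _ => H579.parA.D0) μ γ - Qm H579.parA r ω) :=
  stAR_A_of_det c0 r hr hr1 h1 h2 h3 h4 h5 h6 G disc hcell hS (H905.continuous_Wt _ μ γ)
    (detB_of_walls G H579.parA.D0 μ γ hC) ω hω

end Vale.Agent.P030.H866
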