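import Vale.Agent.P030.H866.LocA
import Vale.Agent.P030.H352.DiscR
import Vale.Agent.P030.H905.PotOf

/-!
# P030, route N: the 17 group totals in arbitrary rows of the four cusp discs, and `StAR`

`DRows` : rows `A`, coordinates `Q`, constants `B c` of the disc frames `Sd A Q (B c) c t`, and the
coordinates `M g` of the 17 totals in them with their levels `lev g`.  `rowsR` : the real rows of
H352/DiscR.  `stAR_rows` : `StAR` for design A.
-/

open Matrix

namespace Vale.Agent.P030.H866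

open Vale.Agent.P030.T Vale.Agent.P030.AR
open Vale.Agent.P030.H265 (Adap Cst frm kF kT coo expand_flat WallData)
open Vale.Agent.P030.H580 (glc tY)
open Vale.Agent.P030.H352 (Bch Fit Sd adm BR Ar Qr bch_r fit_BR tz Dz kD)
open Vale.Agent.P030.H905 (Pot WtP E0P nodes_boundP continuous_WtP)

noncomputable section

/-- coefficients of the totals in the flat vectors `e a c d g h A0 A3` (log-free parts) -/
def bg (g : Gp) : Fin 8 → ℂ :=
  ![bet17 g 0, bet17 g 1, bet17 g 2, bet17 g 3 + bet17 g 5, bet17 g 5, bet17 g 4, bet17 g 6,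
    bet17 g 7]

theorem glc_three (c : Fin 4) (t : ℂ) : glc c 0 t 3 = dv := by fin_cases c <;> rfl
theorem glc_four (c : Fin 4) (t : ℂ) : glc c 0 t 4 = gv := by fin_cases c <;> rfl
theorem glc_five (c : Fin 4) (t : ℂ) : glc c 0 t 5 = hv := by fin_cases c <;> rfl
theorem glc_gl (c : Fin 4) (t : ℂ) : glc c 0 t = gl c 0 t := by fin_cases c <;> rfl

theorem totT_glc (g : Gp) {t : ℂ} (ht : ‖t‖ < 1) :
    totT g t = bg g ᵥ* (glc g.cusp 0 t : Matrix (Fin 8) (Fin 8) ℂ) := by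
  rw [totT_eq g ht]
  funext j
  simp only [Matrix.vecMul, dotProduct, Fin.sum_univ_eight, Finset.sum_apply, Pi.smul_apply,
    smul_eq_mul]
  have h3 := glc_three g.cusp t
  have h4 := glc_four g.cusp t
  have h5 := glc_five g.cusp t
  have h0 := glc_gl g.cusp t
  have e0 : Gd g.cusp t 0 = glc g.cusp 0 t 0 := by rw [h0]; rfl
  have e1 : Gd g.cusp t 1 = glc g.cusp 0 t 1 := by rw [h0]; rfl
  have e2 : Gd g.cusp t 2 = glc g.cusp 0 t 2 := by rw [h0]; rfl
  have e3 : Gd g.cusp t 3 = dv := rfl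
  have e4 : Gd g.cusp t 4 = hv := rfl
  have e5 : Gd g.cusp t 5 = dv + gv := rfl
  have e6 : Gd g.cusp t 6 = glc g.cusp 0 t 6 := by rw [h0]; rfl
  have e7 : Gd g.cusp t 7 = glc g.cusp 0 t 7 := by rw [h0]; rfl
  rw [e0, e1, e2, e3, e4, e5, e6, e7, h3, h4, h5]
  simp only [bg, Pi.add_apply, Matrix.cons_val]
  ring

/-- coordinates `M` with the last but one slot a multiple of the `K`-line entry -/
def yR (M : Fin 8 → ℂ) (k : ℂ) : Fin 8 → ℂ := fun b =>
  if b = 7 then 0 else if b = 6 then M 6 * k else M b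

/-- a flat vector in the disc frame -/
theorem tot_disc {A Q B : Matrix (Fin 8) (Fin 8) ℂ} (h : Bch A Q) (hB : Cst B) {c : Fin 4}
    {M β : Fin 8 → ℂ} (h7 : M 7 = 0) (hM : M ᵥ* (B * A) = β) {t : ℂ}
    (hk : kF (adm A Q (glc c 0 t)) (B 6 6) (B 6 7) ≠ 0) :
    (β ᵥ* (glc c 0 t : Matrix (Fin 8) (Fin 8) ℂ)) ᵥ* Q =
      yR M (kF (adm A Q (glc c 0 t)) (B 6 6) (B 6 7)) ᵥ* Sd A Q B c t := by
  have hA : Adap (adm A Q (glc c 0 t)) := H352.adap_adm h (H352.bup_glc c 0 t)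
  have e : ∀ i, (M ᵥ* B) i = (∑ c : Fin 8, if c < 6 then M c * B c i else 0) + M 6 * B 6 i := by
    intro i
    simp only [Matrix.vecMul, dotProduct, Fin.sum_univ_eight, h7, zero_mul, add_zero]
    rw [if_pos (by decide), if_pos (by decide), if_pos (by decide), if_pos (by decide),
      if_pos (by decide), if_pos (by decide), if_neg (by decide), if_neg (by decide)]
    ring
  have h1 := expand_flat (P := adm A Q (glc c 0 t)) (B' := B) hA (β := M ᵥ* B) (M := M)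
    (ρ6 := M 6 * B 6 6) (ρ7 := M 6 * B 6 7)
    (fun i hi => by rw [e, hB.2.2 i hi, mul_zero, add_zero]) (e 6) (e 7)
  have h2 : (β ᵥ* (glc c 0 t : Matrix (Fin 8) (Fin 8) ℂ)) ᵥ* Q =
      fun j => ∑ i, (M ᵥ* B) i * adm A Q (glc c 0 t) i j := by
    have h3 : (β ᵥ* (glc c 0 t : Matrix (Fin 8) (Fin 8) ℂ)) ᵥ* Q =
        (M ᵥ* B) ᵥ* adm A Q (glc c 0 t) := by
      have key : ∀ V : Matrix (Fin 8) (Fin 8) ℂ,
          ((M ᵥ* (B * A)) ᵥ* V) ᵥ* Q = (M ᵥ* B) ᵥ* (A * V * Q) := by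
        intro V
        simp only [Matrix.vecMul_vecMul, Matrix.mul_assoc]
      rw [← hM]
      exact key _
    rw [h3]
    rfl
  rw [h2, h1]
  unfold Sd
  congr 1
  funext b
  have e6 : kF (adm A Q (glc c 0 t)) (M 6 * B 6 6) (M 6 * B 6 7) =
      M 6 * kF (adm A Q (glc c 0 t)) (B 6 6) (B 6 7) := by
    unfold kF; ring
  have e7 : kT (adm A Q (glc c 0 t)) (M 6 * B 6 6) (M 6 * B 6 7) =
      M 6 * kT (adm A Q (glc c 0 t)) (B 6 6) (B 6 7) := by
    unfold kT; ring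
  unfold coo yR
  split_ifs with h7' h6'
  · rw [e6, e7]
    field_simp
    ring
  · rw [e6]
  · rfl

/-- rows, coordinates and constants of the disc frames with the totals in them -/
structure DRows where
  /-- rows -/
  A : Matrix (Fin 8) (Fin 8) ℂ
  /-- coordinates -/
  Q : Matrix (Fin 8) (Fin 8) ℂ
  bch : Bch A Q
  /-- inverse of `Q` -/
  Qi : Matrix (Fin 8) (Fin 8) ℂ
  hQ : Q * Qi = 1
  /-- constants of the four disc frames -/
  B : Fin 4 → Matrix (Fin 8) (Fin 8) ℂ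
  fit : ∀ c, Fit c A (B c)
  /-- coordinates of the totals -/
  M : Gp → Fin 8 → ℂ
  M7 : ∀ g, M g 7 = 0
  hM : ∀ g, M g ᵥ* (B g.cusp * A) = bg g
  /-- levels of the totals -/
  lev : Gp → Finset (Fin 8)
  hlev : ∀ g b, b ∉ lev g → M g b = 0

namespace DRows

variable (R : DRows)

/-- the `K`-line entry -/
def kd (g : Gp) (t : ℂ) : ℂ :=
  kF (adm R.A R.Q (glc g.cusp 0 t)) (R.B g.cusp 6 6) (R.B g.cusp 6 7)

theorem kd_bound (g : Gp) {r : ℝ} (hr1 : r < 1) :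
    ∃ C : ℝ, ∀ t : ℂ, ‖t‖ = r → ‖R.kd g t‖ ≤ C := by
  obtain ⟨μ, _, h1, h2⟩ := (R.fit g.cusp).kv
  have hd : DifferentiableOn ℂ (fun t : ℂ => H352.kap g.cusp t 6) (Metric.ball 0 1) :=
    H352.diff_kap g.cusp differentiableOn_id (fun u hu => mem_ball_zero_iff.1 hu) 6
  have hc : ContinuousOn (fun t : ℂ => H352.kap g.cusp t 6) (Metric.sphere (0 : ℂ) r) := by
    refine hd.continuousOn.mono fun t ht => ?_
    rw [mem_ball_zero_iff, mem_sphere_zero_iff_norm.1 ht]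
    exact hr1
  obtain ⟨C, hC⟩ := (isCompact_sphere (0 : ℂ) r).exists_bound_of_continuousOn hc
  refine ⟨‖μ‖ * C, fun t ht => ?_⟩
  unfold kd
  rw [H352.kF_eq R.bch (R.fit g.cusp).cst h1 h2, norm_mul]
  exact mul_le_mul_of_nonneg_left (hC t (by simpa using ht)) (norm_nonneg _)

theorem yR_zero {g : Gp} {b : Fin 8} (k : ℂ) (h : b ∉ R.lev g) : yR (R.M g) k b = 0 := by
  unfold yR
  split_ifs with h7 h6
  · rfl
  · rw [← h6, R.hlev g b h, zero_mul]
  · exact R.hlev g b h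

theorem yR_bound (g : Gp) {r : ℝ} (hr1 : r < 1) :
    ∃ C : ℝ, ∀ t : ℂ, ‖t‖ = r → ∀ b, ‖yR (R.M g) (R.kd g t) b‖ ≤ C := by
  obtain ⟨C, hC⟩ := R.kd_bound g hr1
  refine ⟨‖R.M g 6‖ * |C| + ∑ c, ‖R.M g c‖, fun t ht b => ?_⟩
  have hs : 0 ≤ ∑ c, ‖R.M g c‖ := Finset.sum_nonneg fun _ _ => norm_nonneg _
  have h6 : 0 ≤ ‖R.M g 6‖ * |C| := mul_nonneg (norm_nonneg _) (abs_nonneg _)
  unfold yR
  split_ifs with h7 h6'
  · rw [norm_zero]; linarith
  · rw [norm_mul]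
    have := mul_le_mul_of_nonneg_left ((hC t ht).trans (le_abs_self C)) (norm_nonneg (R.M g 6))
    linarith
  · have := Finset.single_le_sum (f := fun c => ‖R.M g c‖) (fun _ _ => norm_nonneg _)
      (Finset.mem_univ b)
    linarith

theorem tot (g : Gp) {t : ℂ} (ht : ‖t‖ < 1) (ht0 : t ≠ 0) :
    R.Qᵀ *ᵥ totT g t = yR (R.M g) (R.kd g t) ᵥ* Sd R.A R.Q (R.B g.cusp) g.cusp t := by
  rw [Matrix.mulVec_transpose, totT_glc g ht]
  exact tot_disc R.bch (R.fit g.cusp).cst (R.M7 g) (R.hM g)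
    (H352.kF_ne R.bch (R.fit g.cusp) ht fun _ => ht0)

theorem det_ne : R.Qᵀ.det ≠ 0 := by
  rw [Matrix.det_transpose]
  exact Matrix.det_ne_zero_of_right_inverse R.hQ

end DRows

/-! ### the parameter and the point -/

theorem one_sub_ne {t : ℂ} (ht : ‖t‖ < 1) : (1 : ℂ) - t ≠ 0 := by
  intro h
  have h2 : t = 1 := by linear_combination -h
  rw [h2, norm_one] at ht
  exact lt_irrefl _ ht

/-- `tz c` inverts `Sc c` -/
theorem tz_Sc (c : Fin 4) {t : ℂ} (ht : ‖t‖ < 1) (ht0 : t ≠ 0) : tz c (Sc c t) = t := by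
  have h1 := one_sub_ne ht
  fin_cases c
  · have e : tz 0 (Sc 0 t) = (1 - 2 * (1 - t)⁻¹ + 1) / (1 - 2 * (1 - t)⁻¹ - 1) := rfl
    rw [Fin.zero_eta, e]
    field_simp
    ring
  · have e : tz 1 (Sc 1 t) = 1 - 2 * ((1 - t) / 2) := rfl
    rw [Fin.mk_one, e]
    ring
  · have e : tz 2 (Sc 2 t) =
        (1 - 2 * (-t * (1 - t)⁻¹) - 1) / (1 - 2 * (-t * (1 - t)⁻¹) + 1) := rfl
    show tz 2 (Sc 2 t) = t
    rw [e]
    have h2 : 1 - 2 * (-t * (1 - t)⁻¹) + 1 = 2 * (1 - t)⁻¹ := by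
      field_simp
      ring
    rw [h2]
    field_simp
    ring
  · have e : tz 3 (Sc 3 t) = 1 / (1 - 2 * (-(1 - t) / (2 * t))) := rfl
    show tz 3 (Sc 3 t) = t
    rw [e]
    have h2 : 1 - 2 * (-(1 - t) / (2 * t)) = 1 / t := by
      field_simp
      ring
    rw [h2, one_div_one_div]

/-! ### the real rows of H352/DiscR -/

/-- the coordinates of the totals in the rows `BR c` -/
def MR : Gp → Fin 8 → ℂ
  | .z1 => ![1, 0, 0, 0, 0, 0, 0, 0]
  | .zl => ![0, 1, 0, 0, 0, 0, 0, 0]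
  | .z8 => ![0, 0, 0, 0, 0, 0, 2, 0]
  | .zab => ![0, 0, 0, 1, 0, 0, 0, 0]
  | .w1 => ![1, 0, 0, 0, 0, 0, 0, 0]
  | .wl => ![0, 1, 0, 0, 0, 0, 0, 0]
  | .wy => ![0, 0, 0, 0, 0, -(4 / 3), 0, 0]
  | .w8 => ![0, 0, 0, 0, 0, 0, 1, 0]
  | .wab => ![0, 0, 0, 1, 0, 0, 0, 0]
  | .wf7 => ![0, 0, 0, 0, 1, 1, -(3 / 4), 0]
  | .v2 => ![0, 0, 0, 0, 1, 0, 0, 0]
  | .vl => ![0, 0, 0, 1, 1, 0, 0, 0]
  | .v8 => ![0, 0, 0, 0, 0, 0, 2, 0]
  | .vb => ![0, 0, 1, 0, 0, 0, 0, 0]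
  | .x2 => ![0, 0, 0, 0, 1 / 2, 0, 0, 0]
  | .xl => ![0, 0, 0, 1, 0, 0, 0, 0]
  | .x1 => ![0, 0, -1, 0, 0, 0, 0, 0]

/-- the levels of the totals in the rows `BR c` -/
def levR : Gp → Finset (Fin 8)
  | .z1 => {0}
  | .zl => {1}
  | .z8 => {6}
  | .zab => {3}
  | .w1 => {0}
  | .wl => {1}
  | .wy => {5}
  | .w8 => {6}
  | .wab => {3}
  | .wf7 => {4, 5, 6}
  | .v2 => {4}
  | .vl => {3, 4}
  | .v8 => {6}
  | .vb => {2}
  | .x2 => {4}
  | .xl => {3}
  | .x1 => {2}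

theorem MR_eq_zero (g : Gp) (b : Fin 8) (h : b ∉ levR g) : MR g b = 0 := by
  cases g <;> fin_cases b <;> first | rfl | exact absurd (by decide) h

theorem MR_seven (g : Gp) : MR g 7 = 0 := by cases g <;> rfl

theorem MR_bg_of {g : Gp} {c : Fin 4}
    (h : ∀ k, MR g 0 * (BR c * Ar) 0 k + MR g 1 * (BR c * Ar) 1 k + MR g 2 * (BR c * Ar) 2 k +
      MR g 3 * (BR c * Ar) 3 k + MR g 4 * (BR c * Ar) 4 k + MR g 5 * (BR c * Ar) 5 k +
      MR g 6 * (BR c * Ar) 6 k = bg g k) : MR g ᵥ* (BR c * Ar) = bg g := by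
  funext k
  simp only [Matrix.vecMul, dotProduct, Fin.sum_univ_eight, MR_seven, zero_mul, add_zero]
  exact h k

theorem MR_z1 : MR .z1 ᵥ* (BR 0 * Ar) = bg .z1 := by
  refine MR_bg_of fun k => ?_
  have hp := pc_ne
  have hI : Complex.I ^ 2 = -1 := Complex.I_sq
  fin_cases k <;> simp [MR, BR, bg, bet17, H352.mul_Ar]
  all_goals first
    | ring1
    | (field_simp; done)
    | (field_simp; ring1)
    | (field_simp; ring_nf; simp only [hI]; ring1)

theorem MR_zl : MR .zl ᵥ* (BR 0 * Ar) = bg .zl := by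
  refine MR_bg_of fun k => ?_
  have hp := pc_ne
  have hI : Complex.I ^ 2 = -1 := Complex.I_sq
  fin_cases k <;> simp [MR, BR, bg, bet17, H352.mul_Ar]
  all_goals first
    | ring1
    | (field_simp; done)
    | (field_simp; ring1)
    | (field_simp; ring_nf; simp only [hI]; ring1)

theorem MR_z8 : MR .z8 ᵥ* (BR 0 * Ar) = bg .z8 := by
  refine MR_bg_of fun k => ?_
  have hp := pc_ne
  have hI : Complex.I ^ 2 = -1 := Complex.I_sq
  fin_cases k <;> simp [MR, BR, bg, bet17, H352.mul_Ar]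
  all_goals first
    | ring1
    | (field_simp; done)
    | (field_simp; ring1)
    | (field_simp; ring_nf; simp only [hI]; ring1)

theorem MR_zab : MR .zab ᵥ* (BR 0 * Ar) = bg .zab := by
  refine MR_bg_of fun k => ?_
  have hp := pc_ne
  have hI : Complex.I ^ 2 = -1 := Complex.I_sq
  fin_cases k <;> simp [MR, BR, bg, bet17, H352.mul_Ar]
  all_goals first
    | ring1
    | (field_simp; done)
    | (field_simp; ring1)
    | (field_simp; ring_nf; simp only [hI]; ring1)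

theorem MR_w1 : MR .w1 ᵥ* (BR 1 * Ar) = bg .w1 := by
  refine MR_bg_of fun k => ?_
  have hp := pc_ne
  have hI : Complex.I ^ 2 = -1 := Complex.I_sq
  fin_cases k <;> simp [MR, BR, bg, bet17, H352.mul_Ar]
  all_goals first
    | ring1
    | (field_simp; done)
    | (field_simp; ring1)
    | (field_simp; ring_nf; simp only [hI]; ring1)

theorem MR_wl : MR .wl ᵥ* (BR 1 * Ar) = bg .wl := by
  refine MR_bg_of fun k => ?_
  have hp := pc_ne
  have hI : Complex.I ^ 2 = -1 := Complex.I_sq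
  fin_cases k <;> simp [MR, BR, bg, bet17, H352.mul_Ar]
  all_goals first
    | ring1
    | (field_simp; done)
    | (field_simp; ring1)
    | (field_simp; ring_nf; simp only [hI]; ring1)

theorem MR_wy : MR .wy ᵥ* (BR 1 * Ar) = bg .wy := by
  refine MR_bg_of fun k => ?_
  have hp := pc_ne
  have hI : Complex.I ^ 2 = -1 := Complex.I_sq
  fin_cases k <;> simp [MR, BR, bg, bet17, H352.mul_Ar]
  all_goals first
    | ring1
    | (field_simp; done)
    | (field_simp; ring1)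
    | (field_simp; ring_nf; simp only [hI]; ring1)

theorem MR_w8 : MR .w8 ᵥ* (BR 1 * Ar) = bg .w8 := by
  refine MR_bg_of fun k => ?_
  have hp := pc_ne
  have hI : Complex.I ^ 2 = -1 := Complex.I_sq
  fin_cases k <;> simp [MR, BR, bg, bet17, H352.mul_Ar]
  all_goals first
    | ring1
    | (field_simp; done)
    | (field_simp; ring1)
    | (field_simp; ring_nf; simp only [hI]; ring1)

theorem MR_wab : MR .wab ᵥ* (BR 1 * Ar) = bg .wab := by
  refine MR_bg_of fun k => ?_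
  have hp := pc_ne
  have hI : Complex.I ^ 2 = -1 := Complex.I_sq
  fin_cases k <;> simp [MR, BR, bg, bet17, H352.mul_Ar]
  all_goals first
    | ring1
    | (field_simp; done)
    | (field_simp; ring1)
    | (field_simp; ring_nf; simp only [hI]; ring1)

theorem MR_wf7 : MR .wf7 ᵥ* (BR 1 * Ar) = bg .wf7 := by
  refine MR_bg_of fun k => ?_
  have hp := pc_ne
  have hI : Complex.I ^ 2 = -1 := Complex.I_sq
  fin_cases k <;> simp [MR, BR, bg, bet17, H352.mul_Ar]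
  all_goals first
    | ring1
    | (field_simp; done)
    | (field_simp; ring1)
    | (field_simp; ring_nf; simp only [hI]; ring1)

theorem MR_v2 : MR .v2 ᵥ* (BR 2 * Ar) = bg .v2 := by
  refine MR_bg_of fun k => ?_
  have hp := pc_ne
  have hI : Complex.I ^ 2 = -1 := Complex.I_sq
  fin_cases k <;> simp [MR, BR, bg, bet17, H352.mul_Ar]
  all_goals first
    | ring1
    | (field_simp; done)
    | (field_simp; ring1)
    | (field_simp; ring_nf; simp only [hI]; ring1)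

theorem MR_vl : MR .vl ᵥ* (BR 2 * Ar) = bg .vl := by
  refine MR_bg_of fun k => ?_
  have hp := pc_ne
  have hI : Complex.I ^ 2 = -1 := Complex.I_sq
  fin_cases k <;> simp [MR, BR, bg, bet17, H352.mul_Ar]
  all_goals first
    | ring1
    | (field_simp; done)
    | (field_simp; ring1)
    | (field_simp; ring_nf; simp only [hI]; ring1)

theorem MR_v8 : MR .v8 ᵥ* (BR 2 * Ar) = bg .v8 := by
  refine MR_bg_of fun k => ?_
  have hp := pc_ne
  have hI : Complex.I ^ 2 = -1 := Complex.I_sq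
  fin_cases k <;> simp [MR, BR, bg, bet17, H352.mul_Ar]
  all_goals first
    | ring1
    | (field_simp; done)
    | (field_simp; ring1)
    | (field_simp; ring_nf; simp only [hI]; ring1)

theorem MR_vb : MR .vb ᵥ* (BR 2 * Ar) = bg .vb := by
  refine MR_bg_of fun k => ?_
  have hp := pc_ne
  have hI : Complex.I ^ 2 = -1 := Complex.I_sq
  fin_cases k <;> simp [MR, BR, bg, bet17, H352.mul_Ar]
  all_goals first
    | ring1
    | (field_simp; done)
    | (field_simp; ring1)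
    | (field_simp; ring_nf; simp only [hI]; ring1)

theorem MR_x2 : MR .x2 ᵥ* (BR 3 * Ar) = bg .x2 := by
  refine MR_bg_of fun k => ?_
  have hp := pc_ne
  have hI : Complex.I ^ 2 = -1 := Complex.I_sq
  fin_cases k <;> simp [MR, BR, bg, bet17, H352.mul_Ar]
  all_goals first
    | ring1
    | (field_simp; done)
    | (field_simp; ring1)
    | (field_simp; ring_nf; simp only [hI]; ring1)

theorem MR_xl : MR .xl ᵥ* (BR 3 * Ar) = bg .xl := by
  refine MR_bg_of fun k => ?_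
  have hp := pc_ne
  have hI : Complex.I ^ 2 = -1 := Complex.I_sq
  fin_cases k <;> simp [MR, BR, bg, bet17, H352.mul_Ar]
  all_goals first
    | ring1
    | (field_simp; done)
    | (field_simp; ring1)
    | (field_simp; ring_nf; simp only [hI]; ring1)

theorem MR_x1 : MR .x1 ᵥ* (BR 3 * Ar) = bg .x1 := by
  refine MR_bg_of fun k => ?_
  have hp := pc_ne
  have hI : Complex.I ^ 2 = -1 := Complex.I_sq
  fin_cases k <;> simp [MR, BR, bg, bet17, H352.mul_Ar]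
  all_goals first
    | ring1
    | (field_simp; done)
    | (field_simp; ring1)
    | (field_simp; ring_nf; simp only [hI]; ring1)

theorem MR_bg (g : Gp) : MR g ᵥ* (BR g.cusp * Ar) = bg g := by
  cases g
  exacts [MR_z1, MR_zl, MR_z8, MR_zab, MR_w1, MR_wl, MR_wy, MR_w8, MR_wab, MR_wf7, MR_v2, MR_vl,
    MR_v8, MR_vb, MR_x2, MR_xl, MR_x1]

/-- the inverse of `Qr` -/
def Qri : Matrix (Fin 8) (Fin 8) ℂ :=
  !![1, 0, 0, 0, 0, 0, 0, 0;
     0, 1, 0, 0, 0, 0, 0, 0;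
     0, 0, 1, 0, 0, 0, 0, 0;
     0, 0, 0, 1, 0, 0, 0, 0;
     0, 0, 0, 0, 0, 1, 0, 0;
     0, 0, 0, 1, 1, 0, 0, 0;
     0, 0, 0, 0, 0, 0, 1, 0;
     0, 0, 0, 0, 0, 0, 0, 1]

theorem Qr_mul_Qri : Qr * Qri = 1 := by
  ext i j
  fin_cases i <;> fin_cases j <;> simp [Qr, Qri, Matrix.mul_apply, Fin.sum_univ_eight]

/-- the real rows -/
def rowsR : DRows where
  A := Ar
  Q := Qr
  bch := bch_r
  Qi := Qri
  hQ := Qr_mul_Qri
  B := BR
  fit := fit_BR
  M := MR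
  M7 := MR_seven
  hM := MR_bg
  lev := levR
  hlev := MR_eq_zero

/-! ### `StAR` -/

/-- the determinant bound for general potentials -/
theorem detB_of_pots {κ ι : Type} [DecidableEq ι] [Fintype ι] [Fintype κ] (G : WallData κ ι 8)
    (D0 : ℕ) (μ : Fin 8 → Pot) (γ : Fin 8 → ℝ) (hC : G.Cond (WtP (fun _ => D0) μ γ)) :
    DetB G (WtP (fun _ => D0) μ γ) D0 (E0P (fun _ => D0) μ γ) := by
  intro R1 ε hε
  filter_upwards [nodes_boundP G (fun _ => D0) (fun _ _ _ => le_rfl) μ γ hC hε] with s hs a v _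
  exact hs (Fin (D0 * s) × Fin 8) (Fintype.card_congr (sigEquiv (D0 * s))) a v

/-- `StAR` for design A: any rows, any continuous weights with a determinant bound -/
theorem stAR_rows {κ ι : Type} [DecidableEq ι] [Fintype ι] [Fintype κ] (R : DRows) (c0 : ℕ)
    (r : Gp → ℝ) (hr : ∀ g, 0 < r g) (hr1 : ∀ g, r g < 1)
    (h1 : r .zl = r .z1) (h2 : r .wl = r .w1) (h3 : r .wy = r .w1)
    (h4 : r .vl = r .vb) (h5 : r .v8 = r .vb) (h6 : r .xl = r .x1)
    (G : WallData κ ι 8) (disc : Fin 4 → ι)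
    (hcell : ∀ g : Gp, ∀ t : ℂ, ‖t‖ = r g → ∀ i, Sc g.cusp t ∈ G.T.reg G.g 0 i → i = disc g.cusp)
    (hS : ∀ g : Gp, ∀ t : ℂ, ‖t‖ = r g →
      G.S (disc g.cusp) (Sc g.cusp t) = Sd R.A R.Q (R.B g.cusp) g.cusp t)
    {W : Fin 8 → ℂ → ℝ} (hW : ∀ b, Continuous (W b)) {E : ℝ}
    (hdet : DetB G W H579.parA.D0 E) (ω : Gp → ℝ)
    (hω : ∀ g : Gp, ∀ t : ℂ, ‖t‖ = r g → ∀ b ∈ R.lev g, W b (Sc g.cusp t) ≤ ω g) :
    StAR H579.parA c0 (E - Qm H579.parA r ω) := by
  refine stAR_of_det H579.parA c0 H579.parA_card (by norm_num [H579.parA]) r hr hr1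
    (totA h1 h2 h3 h4 h5 h6 (by norm_num [H579.parA]) (by norm_num [H579.parA])
      (by norm_num [H579.parA]) (by norm_num [H579.parA]) (by norm_num [H579.parA])
      (by norm_num [H579.parA])) R.Qᵀ R.det_ne G hW hdet ω ?_
  intro g
  obtain ⟨B, hB⟩ := R.yR_bound g (hr1 g)
  refine ⟨B, fun t ht i hi => ?_⟩
  have hi' := hcell g t ht i hi
  subst hi'
  have ht1 : ‖t‖ < 1 := by rw [ht]; exact hr1 g
  have ht0 : t ≠ 0 := by
    rintro rfl
    rw [norm_zero] at ht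
    exact (hr g).ne ht
  refine ⟨yR (R.M g) (R.kd g t), ?_, fun b => ⟨hB t ht b, ?_⟩⟩
  · rw [hS g t ht]
    exact R.tot g ht1 ht0
  · by_cases hb : b ∈ R.lev g
    · exact Or.inr (hω g t ht b hb)
    · exact Or.inl (R.yR_zero _ hb)

/-- **`StAR` for design A** from wall data whose cusp cells carry the frames `Dz c` of H352/DiscR,
general potentials -/
theorem stAR_R {κ ι : Type} [DecidableEq ι] [Fintype ι] [Fintype κ] (c0 : ℕ)
    (r : Gp → ℝ) (hr : ∀ g, 0 < r g) (hr1 : ∀ g, r g < 1)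
    (h1 : r .zl = r .z1) (h2 : r .wl = r .w1) (h3 : r .wy = r .w1)
    (h4 : r .vl = r .vb) (h5 : r .v8 = r .vb) (h6 : r .xl = r .x1)
    (G : WallData κ ι 8) (disc : Fin 4 → ι)
    (hcell : ∀ g : Gp, ∀ t : ℂ, ‖t‖ = r g → ∀ i, Sc g.cusp t ∈ G.T.reg G.g 0 i → i = disc g.cusp)
    (hS : ∀ c : Fin 4, G.S (disc c) = Dz c)
    (μ : Fin 8 → Pot) (γ : Fin 8 → ℝ) (hC : G.Cond (WtP (fun _ => H579.parA.D0) μ γ)) (ω : Gp → ℝ)
    (hω : ∀ g : Gp, ∀ t : ℂ, ‖t‖ = r g → ∀ b ∈ levR g,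
      WtP (fun _ => H579.parA.D0) μ γ b (Sc g.cusp t) ≤ ω g) :
    StAR H579.parA c0 (E0P (fun _ => H579.parA.D0) μ γ - Qm H579.parA r ω) := by
  refine stAR_rows rowsR c0 r hr hr1 h1 h2 h3 h4 h5 h6 G disc hcell ?_
    (continuous_WtP _ μ γ) (detB_of_pots G H579.parA.D0 μ γ hC) ω hω
  intro g t ht
  have ht1 : ‖t‖ < 1 := by rw [ht]; exact hr1 g
  have ht0 : t ≠ 0 := by
    rintro rfl
    rw [norm_zero] at ht
    exact (hr g).ne ht
  rw [hS]
  unfold Dz
  rw [tz_Sc g.cusp ht1 ht0]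
  rfl

end

end Vale.Agent.P030.H866
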