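import Vale.Agent.P030.H866.Eval

/-!
# A determinant whose columns are circle integrals of typed nodes
-/

open MeasureTheory Finset Matrix

namespace Vale.Agent.P030.H866

/-- Lebesgue measure on `(0, 2π]` -/
noncomputable def nu : Measure ℝ := volume.restrict (Set.Ioc 0 (2 * Real.pi))

instance : IsFiniteMeasure nu := by
  unfold nu; infer_instance

/-- the level functions: `e b S j` is the coefficient of the row function `j` in the functional of
type `b` at the point `S`; `Z b` the places allowed for nodes of type `b`, `W b` the weight and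
`h b` the (integrable) error factor -/
structure Lev (Ty : Type) where
  e : Ty → ℂ → Fin 8 → ℂ
  Z : Ty → Set ℂ
  W : Ty → ℂ → ℝ
  h : Ty → ℂ → ℝ
  h_nonneg : ∀ b S, 0 ≤ h b S

variable {Ty : Type} [Fintype Ty]

/-- `Ψ` (a vector of eight functions on the circle of radius `r` round the cusp `c`) is a
combination of level functions of weight at most `ω` -/
def Expd (L : Lev Ty) (c : Fin 4) (r ω V : ℝ) (Ψ : Fin 8 → ℝ → ℂ) : Prop :=
  ∃ v : Ty → ℝ → ℂ,
    (∀ j, ∀ᵐ θ ∂nu, Ψ j θ = ∑ b, v b θ * L.e b (Sc c (circleMap 0 r θ)) j) ∧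
    (∀ b, ∀ᵐ θ ∂nu, v b θ ≠ 0 → Sc c (circleMap 0 r θ) ∈ L.Z b ∧
      L.W b (Sc c (circleMap 0 r θ)) ≤ ω) ∧
    (∀ b j, Integrable (fun θ => v b θ * L.e b (Sc c (circleMap 0 r θ)) j) nu) ∧
    (∀ b, Integrable (fun θ => ‖v b θ‖ * L.h b (Sc c (circleMap 0 r θ))) nu) ∧
    ∑ b, ∫ θ, ‖v b θ‖ * L.h b (Sc c (circleMap 0 r θ)) ∂nu ≤ V

/-- the bound for determinants of typed nodes, for one `D` -/
def NodeBound (L : Lev Ty) (D : ℕ) (B : ℝ) : Prop :=
  ∀ (a : Fin D × Fin 8 → ℂ) (b : Fin D × Fin 8 → Ty), (∀ c, a c ∈ L.Z (b c)) →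
    ‖(Matrix.of fun (r c : Fin D × Fin 8) => a c ^ (r.1 : ℕ) * L.e (b c) (a c) r.2).det‖ ≤
      B * ∏ c, (Real.exp (D * L.W (b c) (a c)) * L.h (b c) (a c))

/-- the weight of the contour -/
noncomputable def wgt (D : ℕ) (c : Fin 4) (k : ℕ) (t : ℂ) : ℂ := fac D c t * t ^ (-(k : ℤ))

/-- its absolute value -/
noncomputable def wab (D : ℕ) (c : Fin 4) (k : ℕ) (r : ℝ) : ℝ :=
  (if c = 3 then r ^ (D - 1) else 1) * r ^ (-(k : ℤ))

theorem norm_wgt (D : ℕ) (c : Fin 4) (k : ℕ) {r : ℝ} (hr : 0 < r) (θ : ℝ) :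
    ‖wgt D c k (circleMap 0 r θ)‖ = wab D c k r := by
  unfold wgt wab fac
  rw [norm_mul, norm_zpow, norm_circleMap hr]
  congr 1
  split_ifs
  · rw [norm_pow, norm_circleMap hr]
  · simp

theorem wab_pos (D : ℕ) (c : Fin 4) (k : ℕ) {r : ℝ} (hr : 0 < r) : 0 < wab D c k r := by
  unfold wab
  split_ifs <;> positivity

/-- the entries of a column -/
noncomputable def colE (D : ℕ) (c : Fin 4) (r : ℝ) (k : ℕ) (Ψ : Fin 8 → ℝ → ℂ)
    (i : Fin D × Fin 8) : ℂ :=
  (2 * (Real.pi : ℂ))⁻¹ * ∫ θ, wgt D c k (circleMap 0 r θ) *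
    (qq D i.1 (Sc c (circleMap 0 r θ)) * Ψ i.2 θ) ∂nu

theorem continuous_Sc_circle (c : Fin 4) {r : ℝ} (hr : 0 < r) (hr1 : r < 1) :
    Continuous fun θ : ℝ => Sc c (circleMap 0 r θ) := by
  have hc := continuous_circleMap 0 r
  have h1 : ∀ θ : ℝ, (1 : ℂ) - circleMap 0 r θ ≠ 0 := by
    intro θ h
    have h2 := norm_circleMap hr θ
    rw [← sub_eq_zero.1 h, norm_one] at h2
    linarith
  fin_cases c
  · exact (continuous_const.sub hc).inv₀ h1
  · exact (continuous_const.sub hc).div_const _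
  · exact (hc.neg).mul ((continuous_const.sub hc).inv₀ h1)
  · exact ((continuous_const.sub hc).neg).div (continuous_const.mul hc) fun θ =>
      mul_ne_zero two_ne_zero (circleMap_ne hr θ)

theorem continuous_qq (D i : ℕ) : Continuous fun S : ℂ => qq D i S := by
  unfold qq
  fun_prop

theorem continuous_wgt (D : ℕ) (c : Fin 4) (k : ℕ) {r : ℝ} (hr : 0 < r) :
    Continuous fun θ : ℝ => wgt D c k (circleMap 0 r θ) := by
  unfold wgt fac
  refine Continuous.mul ?_ ((continuous_circleMap 0 r).zpow₀ _ fun θ =>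
    Or.inl (circleMap_ne hr θ))
  split_ifs
  · exact (continuous_circleMap 0 r).pow _
  · exact continuous_const

/-- bounded continuous times integrable -/
theorem integrable_cont_mul {f : ℝ → ℂ} (hf : Continuous f) {g : ℝ → ℂ} (hg : Integrable g nu) :
    Integrable (fun θ => f θ * g θ) nu := by
  have hK : IsCompact (Set.Icc 0 (2 * Real.pi)) := isCompact_Icc
  obtain ⟨C, hC⟩ := hK.exists_bound_of_continuousOn hf.continuousOn
  refine hg.bdd_mul (c := C) hf.aestronglyMeasurable ?_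
  unfold nu
  filter_upwards [ae_restrict_mem measurableSet_Ioc] with θ hθ
  exact hC θ ⟨hθ.1.le, hθ.2⟩

/-- **the bound for a determinant of integrated typed nodes** -/
theorem det_colE_le (L : Lev Ty) {D : ℕ} {B : ℝ} (hB0 : 0 ≤ B) (hT : NodeBound L D B)
    (c : Fin D × Fin 8 → Fin 4) (r : Fin D × Fin 8 → ℝ) (hr : ∀ a, 0 < r a) (hr1 : ∀ a, r a < 1)
    (k : Fin D × Fin 8 → ℕ) (ω : Fin D × Fin 8 → ℝ) {V : ℝ}
    (Ψ : Fin D × Fin 8 → Fin 8 → ℝ → ℂ) (hΨ : ∀ a, Expd L (c a) (r a) (ω a) V (Ψ a)) :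
    ‖(Matrix.of fun i a => colE D (c a) (r a) (k a) (Ψ a) i).det‖ ≤
      B * ∏ a, (V * Real.exp (D * ω a) * wab D (c a) (k a) (r a)) := by
  classical
  choose v hv1 hv2 hv3 hv4 hv5 using hΨ
  set S : Fin D × Fin 8 → ℝ → ℂ := fun a θ => Sc (c a) (circleMap 0 (r a) θ) with hS
  -- the integrands
  set w : Fin D × Fin 8 → Ty → ℝ → ℂ := fun a b θ =>
    (2 * (Real.pi : ℂ))⁻¹ * wgt D (c a) (k a) (circleMap 0 (r a) θ) * v a b θ with hw
  set N : Fin D × Fin 8 → Ty → ℝ → Fin D × Fin 8 → ℂ := fun a b θ i =>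
    w a b θ * (qq D i.1 (S a θ) * L.e b (S a θ) i.2) with hN
  have hNint : ∀ a b i, Integrable (fun θ => N a b θ i) nu := by
    intro a b i
    have hcont : Continuous fun θ : ℝ => (2 * (Real.pi : ℂ))⁻¹ *
        (wgt D (c a) (k a) (circleMap 0 (r a) θ) *
          qq D i.1 (Sc (c a) (circleMap 0 (r a) θ))) :=
      continuous_const.mul ((continuous_wgt D (c a) (k a) (hr a)).mul
        ((continuous_qq D i.1).comp (continuous_Sc_circle (c a) (hr a) (hr1 a))))
    refine (integrable_cont_mul hcont (hv3 a b i.2)).congr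
      (Filter.Eventually.of_forall fun θ => ?_)
    simp only [hN, hw, hS]
    ring
  -- the entries
  have hent : ∀ i a, colE D (c a) (r a) (k a) (Ψ a) i = ∑ b, ∫ θ, N a b θ i ∂nu := by
    intro i a
    rw [← integral_finsetSum _ fun b _ => hNint a b i]
    unfold colE
    rw [← integral_const_mul]
    refine integral_congr_ae ?_
    filter_upwards [hv1 a i.2] with θ hθ
    rw [hθ, Finset.mul_sum, Finset.mul_sum, Finset.mul_sum]
    refine Finset.sum_congr rfl fun b _ => ?_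
    simp only [hN, hw, hS]
    ring
  -- the majorants
  set ψ : Fin D × Fin 8 → Ty → ℝ → ℝ := fun a b θ =>
    ((2 * Real.pi)⁻¹ * wab D (c a) (k a) (r a) * Real.exp (D * ω a)) *
      (‖v a b θ‖ * L.h b (S a θ)) with hψ
  have hψint : ∀ a b, Integrable (ψ a b) nu := fun a b => (hv4 a b).const_mul _
  have hψ0 : ∀ a b θ, 0 ≤ ψ a b θ := by
    intro a b θ
    have := (wab_pos D (c a) (k a) (hr a)).le
    have := L.h_nonneg b (S a θ)
    have := Real.pi_pos
    positivity
  have hwn : ∀ a b θ, ‖w a b θ‖ = (2 * Real.pi)⁻¹ * wab D (c a) (k a) (r a) * ‖v a b θ‖ := by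
    intro a b θ
    simp only [hw]
    rw [norm_mul, norm_mul, norm_wgt _ _ _ (hr a), norm_inv, norm_mul, Complex.norm_ofNat,
      Complex.norm_real, Real.norm_of_nonneg Real.pi_pos.le]
  -- one choice of types
  have hβ : ∀ β : Fin D × Fin 8 → Ty,
      ‖(Matrix.of fun i a => ∫ θ, N a (β a) θ i ∂nu).det‖ ≤ B * ∏ a, ∫ θ, ψ a (β a) θ ∂nu := by
    intro β
    refine norm_det_integral_le (fun _ => nu) (fun a => N a (β a)) (fun a i => hNint a (β a) i)
      (fun a => ψ a (β a)) (fun a => hψint a (β a)) ?_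
    have h1 := ae_pi_of_forall (fun _ : Fin D × Fin 8 => nu) (fun a => hv2 a (β a))
    filter_upwards [h1] with x hx
    have h2 : (Matrix.of fun i a => N a (β a) (x a) i) = Matrix.of fun i a =>
        w a (β a) (x a) * (Matrix.of fun (i a : Fin D × Fin 8) =>
          qq D i.1 (S a (x a)) * L.e (β a) (S a (x a)) i.2) i a := by
      ext i a
      simp [hN]
    rw [h2, Matrix.det_mul_row, norm_mul, norm_prod]
    by_cases h0 : ∀ a, v a (β a) (x a) ≠ 0
    · have h3 := hT (fun a => S a (x a)) β fun a => (hx a (h0 a)).1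
      have h4 := norm_det_qq (fun a => S a (x a)) (fun a => L.e (β a) (S a (x a)))
      rw [h4]
      have hw0 : 0 ≤ ∏ a, ‖w a (β a) (x a)‖ := Finset.prod_nonneg fun a _ => norm_nonneg _
      refine (mul_le_mul_of_nonneg_left h3 hw0).trans ?_
      rw [mul_left_comm, ← Finset.prod_mul_distrib]
      refine mul_le_mul_of_nonneg_left ?_ hB0
      refine Finset.prod_le_prod (fun a _ => ?_) fun a _ => ?_
      · have := L.h_nonneg (β a) (S a (x a))
        positivity
      · rw [hwn]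
        simp only [hψ]
        have h5 := (hx a (h0 a)).2
        have h6 : Real.exp (D * L.W (β a) (S a (x a))) ≤ Real.exp (D * ω a) :=
          Real.exp_le_exp.2 (mul_le_mul_of_nonneg_left h5 (Nat.cast_nonneg _))
        have h7 := (wab_pos D (c a) (k a) (hr a)).le
        have h8 := L.h_nonneg (β a) (S a (x a))
        have h9 := Real.pi_pos
        have h10 : 0 ≤ (2 * Real.pi)⁻¹ * wab D (c a) (k a) (r a) * ‖v a (β a) (x a)‖ *
            L.h (β a) (S a (x a)) := by positivity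
        calc (2 * Real.pi)⁻¹ * wab D (c a) (k a) (r a) * ‖v a (β a) (x a)‖ *
              (Real.exp (D * L.W (β a) (S a (x a))) * L.h (β a) (S a (x a)))
            = ((2 * Real.pi)⁻¹ * wab D (c a) (k a) (r a) * ‖v a (β a) (x a)‖ *
              L.h (β a) (S a (x a))) * Real.exp (D * L.W (β a) (S a (x a))) := by ring
          _ ≤ ((2 * Real.pi)⁻¹ * wab D (c a) (k a) (r a) * ‖v a (β a) (x a)‖ *
              L.h (β a) (S a (x a))) * Real.exp (D * ω a) :=
              mul_le_mul_of_nonneg_left h6 h10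
          _ = _ := by ring
    · push Not at h0
      obtain ⟨a, ha⟩ := h0
      have h3 : ∏ a, ‖w a (β a) (x a)‖ = 0 := by
        refine Finset.prod_eq_zero (Finset.mem_univ a) ?_
        rw [hwn, ha, norm_zero, mul_zero]
      rw [h3, zero_mul]
      exact mul_nonneg hB0 (Finset.prod_nonneg fun a _ => hψ0 a _ _)
  -- summation over the types
  have h1 : (Matrix.of fun i a => colE D (c a) (r a) (k a) (Ψ a) i) =
      Matrix.of fun i a => ∑ b, ∫ θ, N a b θ i ∂nu := by
    ext i a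
    exact hent i a
  rw [h1, det_sum_cols (fun a b i => ∫ θ, N a b θ i ∂nu)]
  refine (norm_sum_le _ _).trans ((Finset.sum_le_sum fun β _ => hβ β).trans ?_)
  rw [← Finset.mul_sum]
  refine mul_le_mul_of_nonneg_left ?_ hB0
  have h2 : ∑ β : Fin D × Fin 8 → Ty, ∏ a, ∫ θ, ψ a (β a) θ ∂nu =
      ∏ a, ∑ b, ∫ θ, ψ a b θ ∂nu := by
    rw [Finset.prod_univ_sum, Fintype.piFinset_univ]
  rw [h2]
  refine Finset.prod_le_prod (fun a _ => Finset.sum_nonneg fun b _ =>
    integral_nonneg fun θ => hψ0 a b θ) fun a _ => ?_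
  have h3 : ∑ b, ∫ θ, ψ a b θ ∂nu =
      ((2 * Real.pi)⁻¹ * wab D (c a) (k a) (r a) * Real.exp (D * ω a)) *
        ∑ b, ∫ θ, ‖v a b θ‖ * L.h b (S a θ) ∂nu := by
    rw [Finset.mul_sum]
    refine Finset.sum_congr rfl fun b _ => ?_
    simp only [hψ]
    rw [integral_const_mul]
  rw [h3]
  have h4 := hv5 a
  have h5 := (wab_pos D (c a) (k a) (hr a)).le
  have h6 : (2 * Real.pi)⁻¹ ≤ 1 := by
    have := Real.pi_gt_three
    refine inv_le_one_of_one_le₀ (by linarith)
  have h7 : 0 ≤ ∑ b, ∫ θ, ‖v a b θ‖ * L.h b (S a θ) ∂nu :=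
    Finset.sum_nonneg fun b _ => integral_nonneg fun θ =>
      mul_nonneg (norm_nonneg _) (L.h_nonneg _ _)
  have h8 : 0 ≤ wab D (c a) (k a) (r a) * Real.exp (D * ω a) := by positivity
  calc ((2 * Real.pi)⁻¹ * wab D (c a) (k a) (r a) * Real.exp (D * ω a)) *
        ∑ b, ∫ θ, ‖v a b θ‖ * L.h b (S a θ) ∂nu
      = (wab D (c a) (k a) (r a) * Real.exp (D * ω a)) *
        ((2 * Real.pi)⁻¹ * ∑ b, ∫ θ, ‖v a b θ‖ * L.h b (S a θ) ∂nu) := by ring
    _ ≤ (wab D (c a) (k a) (r a) * Real.exp (D * ω a)) * V := by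
        refine mul_le_mul_of_nonneg_left ?_ h8
        refine le_trans (mul_le_of_le_one_left h7 h6) h4
    _ = _ := by ring

end Vale.Agent.P030.H866
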