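import Vale.Agent.P030.T.ArRed
import Vale.Agent.P030.H866.ColOp

/-!
# AR from a norm bound for determinants of nodes
-/

open MeasureTheory Finset Matrix

namespace Vale.Agent.P030.H866

open Vale.Agent.P030.T

theorem continuous_evl_circle {r : ℝ} (hr : 0 < r) {f : PowerSeries ℚ} (hf : Sm r f) :
    Continuous fun θ : ℝ => evl f (circleMap 0 r θ) := by
  unfold evl
  refine continuous_tsum (fun n => continuous_const.mul ((continuous_circleMap 0 r).pow n)) hf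
    fun n θ => ?_
  rw [norm_mul, norm_pow, norm_circleMap hr]

theorem continuous_Phi {r : ℝ} (hr : 0 < r) {g : Gp} {j : Fin 8} (h0 : Sm r (tup0 g j))
    (h1 : Sm r (tup1 g j)) (x : ℂ) : Continuous fun θ : ℝ => Phi x g j (circleMap 0 r θ) :=
  (continuous_evl_circle hr h0).add (continuous_const.mul (continuous_evl_circle hr h1))

theorem integrable_of_cont {f : ℝ → ℂ} (hf : Continuous f) : Integrable f nu := by
  unfold nu
  exact (hf.continuousOn.integrableOn_Icc (a := 0) (b := 2 * Real.pi)).mono_set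
    Set.Ioc_subset_Icc_self

/-- the entries of the matrix are entries `colE` -/
theorem En_eq_colE {r : ℝ} (hr : 0 < r) (hr1 : r < 1) {D : ℕ} (x : ℝ) (i : Fin D × Fin 8) (c : Cl)
    (h0 : Sm r (tup0 c.1 i.2)) (h1 : Sm r (tup1 c.1 i.2)) :
    ((En D x i c : ℝ) : ℂ) =
      colE D c.1.cusp r c.2 (fun j θ => Phi x c.1 j (circleMap 0 r θ)) i := by
  have h := En_eq_integral hr hr1 h0 h1 x i.1.2 c.2
  unfold En colE nu wgt
  rw [← intervalIntegral.integral_of_le (by positivity), ← h]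
  push_cast
  rfl

theorem colE_sum {r : ℝ} (hr : 0 < r) (hr1 : r < 1) {D : ℕ} (c : Fin 4) (k : ℕ)
    (i : Fin D × Fin 8) (al : Gp → ℂ) (Ψ : Gp → Fin 8 → ℝ → ℂ)
    (hΨ : ∀ g, Continuous (Ψ g i.2)) :
    colE D c r k (fun j θ => ∑ g, al g * Ψ g j θ) i = ∑ g, al g * colE D c r k (Ψ g) i := by
  unfold colE
  have hcont : Continuous fun θ : ℝ => wgt D c k (circleMap 0 r θ) *
      qq D i.1 (Sc c (circleMap 0 r θ)) :=
    (continuous_wgt D c k hr).mul ((continuous_qq D i.1).comp (continuous_Sc_circle c hr hr1))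
  have h1 : ∀ g, Integrable (fun θ => al g * (wgt D c k (circleMap 0 r θ) *
      (qq D i.1 (Sc c (circleMap 0 r θ)) * Ψ g i.2 θ))) nu := by
    intro g
    refine integrable_of_cont (continuous_const.mul ?_)
    refine (hcont.mul (hΨ g)).congr fun θ => ?_
    simp only [Pi.mul_apply]
    ring
  have h2 : ∀ θ : ℝ, wgt D c k (circleMap 0 r θ) *
      (qq D i.1 (Sc c (circleMap 0 r θ)) * ∑ g, al g * Ψ g i.2 θ) =
      ∑ g, al g * (wgt D c k (circleMap 0 r θ) *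
      (qq D i.1 (Sc c (circleMap 0 r θ)) * Ψ g i.2 θ)) := by
    intro θ
    rw [Finset.mul_sum, Finset.mul_sum]
    refine Finset.sum_congr rfl fun g _ => ?_
    ring
  simp only [h2]
  rw [integral_finsetSum _ fun g _ => h1 g, Finset.mul_sum]
  refine Finset.sum_congr rfl fun g _ => ?_
  rw [integral_const_mul]
  ring

/-- `wab` as an exponential -/
theorem wab_eq_exp {D : ℕ} (hD : 1 ≤ D) (c : Fin 4) (k : ℕ) {r : ℝ} (hr : 0 < r) :
    wab D c k r = Real.exp (-(k * Real.log r) + if c = 3 then ((D : ℝ) - 1) * Real.log r else 0) := by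
  unfold wab
  rw [add_comm, Real.exp_add]
  congr 1
  · split_ifs
    · rw [← Real.rpow_natCast, Real.rpow_def_of_pos hr, Nat.cast_sub hD, Nat.cast_one, mul_comm]
    · simp
  · rw [← Real.rpow_intCast, Real.rpow_def_of_pos hr]
    push_cast
    ring_nf

/-- the exponent of the column `(g, k)` -/
noncomputable def bet (D0 s : ℕ) (r : Gp → ℝ) (ω : Gp → ℝ) (c : Cl) : ℝ :=
  s * ω c.1 - c.2 * Real.log (r c.1) +
    if c.1.cusp = 3 then ((D0 : ℝ) * s - 1) * Real.log (r c.1) else 0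

/-- the main term -/
noncomputable def Qm (P : Par) (r : Gp → ℝ) (ω : Gp → ℝ) : ℝ :=
  ∑ g, ((P.ht g : ℝ) * ω g - (P.ht g : ℝ) ^ 2 / 2 * Real.log (r g) +
    if g.cusp = 3 then (P.ht g : ℝ) * P.D0 * Real.log (r g) else 0)

theorem sum_bet_le (P : Par) (r : Gp → ℝ) (ω : Gp → ℝ) :
    ∃ C : ℝ, 0 ≤ C ∧ ∀ s : ℕ, ∑ g : Gp, ∑ k ∈ range (P.ht g * s), bet P.D0 s r ω (g, k) ≤
      Qm P r ω * (s : ℝ) ^ 2 + C * s := by
  refine ⟨∑ g : Gp, (P.ht g : ℝ) * 2 * |Real.log (r g)|,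
    Finset.sum_nonneg fun g _ => by positivity, fun s => ?_⟩
  unfold Qm
  rw [Finset.sum_mul, Finset.sum_mul, ← Finset.sum_add_distrib]
  refine Finset.sum_le_sum fun g _ => ?_
  have h1 : ∑ k ∈ range (P.ht g * s), (k : ℝ) = ((P.ht g * s : ℕ) : ℝ) * (((P.ht g * s : ℕ) : ℝ) - 1) / 2 := by
    have := Finset.sum_range_id_mul_two (P.ht g * s)
    have h2 : ((∑ k ∈ range (P.ht g * s), k : ℕ) : ℝ) * 2 =
        ((P.ht g * s * (P.ht g * s - 1) : ℕ) : ℝ) := by exact_mod_cast this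
    rw [Nat.cast_sum] at h2
    rcases Nat.eq_zero_or_pos (P.ht g * s) with h0 | h0
    · rw [h0]; simp
    · rw [Nat.cast_mul, Nat.cast_sub h0, Nat.cast_one] at h2
      linarith
  have h2 : ∑ k ∈ range (P.ht g * s), bet P.D0 s r ω (g, k) =
      (P.ht g * s : ℝ) * (s * ω g) - ((P.ht g * s : ℝ) * ((P.ht g * s : ℝ) - 1) / 2) * Real.log (r g) +
      (P.ht g * s : ℝ) * (if g.cusp = 3 then ((P.D0 : ℝ) * s - 1) * Real.log (r g) else 0) := by
    unfold bet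
    dsimp only
    have e0 : ∑ k ∈ range (P.ht g * s), (k : ℝ) * Real.log (r g) =
        (∑ k ∈ range (P.ht g * s), (k : ℝ)) * Real.log (r g) := by rw [Finset.sum_mul]
    rw [Finset.sum_add_distrib, Finset.sum_sub_distrib, e0, h1]
    have e1 : ∀ C : ℝ, ∑ _k ∈ range (P.ht g * s), C = (P.ht g * s : ℝ) * C := by
      intro C
      rw [Finset.sum_const, Finset.card_range, nsmul_eq_mul]
      push_cast
      ring
    have e2 : ∑ k ∈ range (P.ht g * s),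
        (if g.cusp = 3 then ((P.D0 : ℝ) * s - 1) * Real.log (r g) else 0) =
        (P.ht g * s : ℝ) * (if g.cusp = 3 then ((P.D0 : ℝ) * s - 1) * Real.log (r g) else 0) :=
      e1 _
    refine Eq.trans (congrArg₂ (· + ·) (congrArg₂ (· - ·) (e1 _) rfl) e2) ?_
    push_cast
    ring
  rw [h2]
  have hs : (0 : ℝ) ≤ s := Nat.cast_nonneg _
  have hh : (0 : ℝ) ≤ P.ht g := Nat.cast_nonneg _
  have hl := le_abs_self (Real.log (r g))
  have hl' := neg_abs_le (Real.log (r g))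
  have hhs : 0 ≤ (P.ht g : ℝ) * s := mul_nonneg hh hs
  have e1 : (P.ht g : ℝ) * s * Real.log (r g) ≤ (P.ht g : ℝ) * s * |Real.log (r g)| :=
    mul_le_mul_of_nonneg_left hl hhs
  have e2 : -((P.ht g : ℝ) * s * |Real.log (r g)|) ≤ (P.ht g : ℝ) * s * Real.log (r g) := by
    rw [← mul_neg]; exact mul_le_mul_of_nonneg_left hl' hhs
  split_ifs with hc
  · nlinarith
  · nlinarith

theorem abs_bet_le (P : Par) (r : Gp → ℝ) (ω : Gp → ℝ) (c0 : ℕ) :
    ∃ C : ℝ, 0 ≤ C ∧ ∀ s : ℕ, 1 ≤ s → ∀ c : Cl, c.2 < P.ht c.1 * s + c0 →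
      |bet P.D0 s r ω c| ≤ C * s := by
  refine ⟨∑ g : Gp, (|ω g| + (P.ht g + c0 + (P.D0 + 1)) * |Real.log (r g)|),
    Finset.sum_nonneg fun g _ => by positivity, fun s hs c hc => ?_⟩
  have hs1 : (1 : ℝ) ≤ s := by exact_mod_cast hs
  have h1 : |ω c.1| + (P.ht c.1 + c0 + (P.D0 + 1)) * |Real.log (r c.1)| ≤
      ∑ g : Gp, (|ω g| + (P.ht g + c0 + (P.D0 + 1)) * |Real.log (r g)|) :=
    Finset.single_le_sum (f := fun g : Gp =>
      (|ω g| + ((P.ht g : ℝ) + c0 + (P.D0 + 1)) * |Real.log (r g)|))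
      (fun g _ => by positivity) (Finset.mem_univ c.1)
  refine le_trans ?_ (mul_le_mul_of_nonneg_right h1 (by linarith))
  have hk : (c.2 : ℝ) ≤ (P.ht c.1 + c0) * s := by
    have h2 : (c.2 : ℝ) ≤ ((P.ht c.1 * s + c0 : ℕ) : ℝ) := by exact_mod_cast hc.le
    push_cast at h2
    nlinarith [(Nat.cast_nonneg c0 : (0 : ℝ) ≤ c0)]
  have hL := abs_nonneg (Real.log (r c.1))
  have hD := (Nat.cast_nonneg P.D0 : (0 : ℝ) ≤ P.D0)
  unfold bet
  have e1 : |(s : ℝ) * ω c.1| = s * |ω c.1| := by rw [abs_mul, Nat.abs_cast]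
  have e2 : |(c.2 : ℝ) * Real.log (r c.1)| = c.2 * |Real.log (r c.1)| := by
    rw [abs_mul, Nat.abs_cast]
  have e3 : |if c.1.cusp = 3 then ((P.D0 : ℝ) * s - 1) * Real.log (r c.1) else 0| ≤
      (P.D0 + 1) * s * |Real.log (r c.1)| := by
    split_ifs
    · rw [abs_mul]
      refine mul_le_mul_of_nonneg_right ?_ hL
      rw [abs_le]
      constructor <;> nlinarith
    · rw [abs_zero]; positivity
  have e4 : (c.2 : ℝ) * |Real.log (r c.1)| ≤ (P.ht c.1 + c0) * s * |Real.log (r c.1)| :=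
    mul_le_mul_of_nonneg_right hk hL
  refine (abs_add_le _ _).trans ?_
  refine (add_le_add (abs_sub _ _) e3).trans ?_
  rw [e1, e2]
  nlinarith


section

variable {P : Par} {r : Gp → ℝ} (T : Tot P r) {s : ℕ} (σ : Fin (P.D0 * s) × Fin 8 → Cl)

open Classical in
/-- the functions of the new columns -/
noncomputable def PsiB (x : ℂ) (b : Fin (P.D0 * s) × Fin 8) (j : Fin 8) (θ : ℝ) : ℂ :=
  if Full T σ b then ∑ g', ((T.al (σ b).1 g' : ℝ) : ℂ) *
      Phi x g' j (circleMap 0 (r (σ b).1) θ)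
    else Phi x (σ b).1 j (circleMap 0 (r (σ b).1) θ)

theorem continuous_Phi' (hr : ∀ g, 0 < r g) (h0 : ∀ g j, Sm (r g) (tup0 g j))
    (h1 : ∀ g j, Sm (r g) (tup1 g j)) (x : ℂ) (g g' : Gp) (j : Fin 8) (hg : T.al g g' ≠ 0) :
    Continuous fun θ : ℝ => Phi x g' j (circleMap 0 (r g) θ) := by
  by_cases h : g' = g
  · rw [h]; exact continuous_Phi (hr g) (h0 g j) (h1 g j) _
  · have h2 := (T.al_ne g g' h hg).2.2.1
    rw [← h2]
    exact continuous_Phi (hr g') (h0 g' j) (h1 g' j) _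

theorem continuous_al_Phi (hr : ∀ g, 0 < r g) (h0 : ∀ g j, Sm (r g) (tup0 g j))
    (h1 : ∀ g j, Sm (r g) (tup1 g j)) (x : ℂ) (g g' : Gp) (j : Fin 8) :
    Continuous fun θ : ℝ => ((T.al g g' : ℝ) : ℂ) * Phi x g' j (circleMap 0 (r g) θ) := by
  by_cases h : T.al g g' = 0
  · simp only [h, Complex.ofReal_zero, zero_mul]; exact continuous_const
  · exact continuous_const.mul (continuous_Phi' T hr h0 h1 x g g' j h)

theorem integrable_PsiB (hr : ∀ g, 0 < r g) (h0 : ∀ g j, Sm (r g) (tup0 g j))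
    (h1 : ∀ g j, Sm (r g) (tup1 g j)) (x : ℂ) (b : Fin (P.D0 * s) × Fin 8) (j : Fin 8) :
    Integrable (PsiB T σ x b j) nu := by
  classical
  refine integrable_of_cont ?_
  by_cases hf : Full T σ b
  · have : PsiB T σ x b j = fun θ => ∑ g', ((T.al (σ b).1 g' : ℝ) : ℂ) *
        Phi x g' j (circleMap 0 (r (σ b).1) θ) := by
      funext θ
      rw [PsiB, if_pos hf]
    rw [this]
    exact continuous_finsetSum _ fun g' _ => continuous_al_Phi T hr h0 h1 x _ g' j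
  · have : PsiB T σ x b j = fun θ => Phi x (σ b).1 j (circleMap 0 (r (σ b).1) θ) := by
      funext θ
      rw [PsiB, if_neg hf]
    rw [this]
    exact continuous_Phi (hr _) (h0 _ j) (h1 _ j) _

/-- a total column -/
theorem colE_total (hr : ∀ g, 0 < r g) (hr1 : ∀ g, r g < 1) (h0 : ∀ g j, Sm (r g) (tup0 g j))
    (h1 : ∀ g j, Sm (r g) (tup1 g j)) (x : ℝ) (g : Gp) (k : ℕ) {D : ℕ} (i : Fin D × Fin 8) :
    ∑ g', ((T.al g g' : ℝ) : ℂ) * ((En D x i (g', k) : ℝ) : ℂ) =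
      colE D g.cusp (r g) k (fun j θ => ∑ g', ((T.al g g' : ℝ) : ℂ) *
        Phi x g' j (circleMap 0 (r g) θ)) i := by
  classical
  set Ψ' : Gp → Fin 8 → ℝ → ℂ := fun g' j θ => if T.al g g' = 0 then 0 else
    Phi (x : ℂ) g' j (circleMap 0 (r g) θ) with hΨ'
  have e3 : (fun (j : Fin 8) (θ : ℝ) => ∑ g', ((T.al g g' : ℝ) : ℂ) *
      Phi (x : ℂ) g' j (circleMap 0 (r g) θ)) =
      fun j θ => ∑ g', ((T.al g g' : ℝ) : ℂ) * Ψ' g' j θ := by
    funext j θ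
    refine Finset.sum_congr rfl fun g' _ => ?_
    simp only [hΨ']
    split_ifs with h
    · rw [h]; simp
    · rfl
  have e4 : ∀ g', Continuous (Ψ' g' i.2) := by
    intro g'
    simp only [hΨ']
    by_cases h : T.al g g' = 0
    · simp only [if_pos h]; exact continuous_const
    · simp only [if_neg h]; exact continuous_Phi' T hr h0 h1 x _ g' _ h
  rw [e3, colE_sum (hr _) (hr1 _) _ _ i (fun g' => ((T.al g g' : ℝ) : ℂ)) Ψ' e4]
  refine Finset.sum_congr rfl fun g' _ => ?_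
  by_cases h : T.al g g' = 0
  · rw [h]; simp
  · congr 1
    have e5 : Ψ' g' = fun j θ => Phi (x : ℂ) g' j (circleMap 0 (r g) θ) := by
      funext j θ
      simp only [hΨ', if_neg h]
    rw [e5]
    by_cases h' : g' = g
    · rw [h']
      exact En_eq_colE (hr _) (hr1 _) x i (g, k) (h0 _ _) (h1 _ _)
    · have h2 := (T.al_ne _ g' h' h).2
      rw [← h2.1, ← h2.2.1]
      exact En_eq_colE (hr _) (hr1 _) x i (g', k) (h0 _ _) (h1 _ _)

/-- the matrix after the column operations -/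
theorem mul_opM (hσ : Function.Injective σ) (hr : ∀ g, 0 < r g) (hr1 : ∀ g, r g < 1)
    (h0 : ∀ g j, Sm (r g) (tup0 g j)) (h1 : ∀ g j, Sm (r g) (tup1 g j)) (x : ℝ) :
    (Mx (P.D0 * s) x σ).map (algebraMap ℝ ℂ) * opM T σ = Matrix.of fun i b =>
      colE (P.D0 * s) (σ b).1.cusp (r (σ b).1) (σ b).2 (PsiB T σ x b) i := by
  classical
  ext i b
  rw [Matrix.mul_apply, Matrix.of_apply]
  by_cases hf : Full T σ b
  · have e1 : ∑ a, (Mx (P.D0 * s) x σ).map (algebraMap ℝ ℂ) i a * opM T σ a b =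
        ∑ a, ((En (P.D0 * s) x i (σ a) : ℝ) : ℂ) *
        (if (σ a).2 = (σ b).2 then ((T.al (σ b).1 (σ a).1 : ℝ) : ℂ) else 0) := by
      refine Finset.sum_congr rfl fun a _ => ?_
      rw [opM, Matrix.of_apply, if_pos hf]
      rfl
    have e2 : PsiB T σ x b = fun j θ => ∑ g', ((T.al (σ b).1 g' : ℝ) : ℂ) *
        Phi (x : ℂ) g' j (circleMap 0 (r (σ b).1) θ) := by
      funext j θ
      rw [PsiB, if_pos hf]
    rw [e1, sum_partners T σ hσ hf (fun c => ((En (P.D0 * s) x i c : ℝ) : ℂ)), e2,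
      colE_total T hr hr1 h0 h1]
  · have e1 : ∑ a, (Mx (P.D0 * s) x σ).map (algebraMap ℝ ℂ) i a * opM T σ a b =
        (Mx (P.D0 * s) x σ).map (algebraMap ℝ ℂ) i b := by
      rw [Finset.sum_eq_single b]
      · rw [opM, Matrix.of_apply, if_neg hf, if_pos rfl, mul_one]
      · intro a _ hab
        rw [opM, Matrix.of_apply, if_neg hf, if_neg hab, mul_zero]
      · intro h; exact absurd (Finset.mem_univ _) h
    have e2 : PsiB T σ x b = fun j θ => Phi (x : ℂ) (σ b).1 j (circleMap 0 (r (σ b).1) θ) := by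
      funext j θ
      rw [PsiB, if_neg hf]
    rw [e1, e2]
    exact En_eq_colE (hr _) (hr1 _) x i (σ b) (h0 _ _) (h1 _ _)

theorem abs_det_eq (hσ : Function.Injective σ) (hr : ∀ g, 0 < r g) (hr1 : ∀ g, r g < 1)
    (h0 : ∀ g j, Sm (r g) (tup0 g j)) (h1 : ∀ g j, Sm (r g) (tup1 g j)) (x : ℝ) :
    |(Mx (P.D0 * s) x σ).det| = ‖(Matrix.of fun i b =>
      colE (P.D0 * s) (σ b).1.cusp (r (σ b).1) (σ b).2 (PsiB T σ x b) i).det‖ := by
  have hdet : ‖((Mx (P.D0 * s) x σ).map (algebraMap ℝ ℂ)).det‖ = |(Mx (P.D0 * s) x σ).det| := by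
    rw [← RingHom.mapMatrix_apply, ← RingHom.map_det]
    simp
  rw [← mul_opM T σ hσ hr hr1 h0 h1 x, Matrix.det_mul, det_opM T σ hσ, mul_one, hdet]

/-- the product of the column bounds -/
theorem prod_cols_le (c0 : ℕ) (hcard : ∑ g : Gp, P.ht g = 8 * P.D0) (hD0 : 0 < P.D0)
    (hr : ∀ g, 0 < r g) (ω ω' : Gp → ℝ) {C1 C2 C3 η Q : ℝ} (hη : 0 ≤ η) (hC30 : 0 ≤ C3)
    (hC3 : ∀ g, |ω' g| + |ω g| ≤ C3)
    (hb1 : ∑ g : Gp, ∑ k ∈ range (P.ht g * s), bet P.D0 s r ω (g, k) ≤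
      Q * (s : ℝ) ^ 2 + C1 * s) (hs : 1 ≤ s)
    (hb2 : ∀ c : Cl, c.2 < P.ht c.1 * s + c0 → |bet P.D0 s r ω c| ≤ C2 * s)
    (hσ : Adm P c0 s σ) (M : Fin (P.D0 * s) × Fin 8 → ℝ) (hM0 : ∀ b, 0 ≤ M b)
    (hM1 : ∀ b, Full T σ b → M b ≤ Real.exp (s * (ω (σ b).1 + η)))
    (hM2 : ∀ b, ¬ Full T σ b → M b ≤ Real.exp (s * ω' (σ b).1)) :
    ∏ b, (M b * wab (P.D0 * s) (σ b).1.cusp (σ b).2 (r (σ b).1)) ≤
      Real.exp (Q * (s : ℝ) ^ 2 + C1 * s + 34 * c0 * (C2 * s) + 8 * P.D0 * s * (s * η)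
        + 289 * c0 * (s * C3)) := by
  classical
  have hsr : (1 : ℝ) ≤ s := by exact_mod_cast hs
  have hD1 : 1 ≤ P.D0 * s := Nat.mul_pos hD0 hs
  have hDs : ((P.D0 * s : ℕ) : ℝ) = P.D0 * s := by push_cast; ring
  have hprod : ∀ b, M b * wab (P.D0 * s) (σ b).1.cusp (σ b).2 (r (σ b).1) ≤
      Real.exp (bet P.D0 s r ω (σ b) + s * η + if Full T σ b then 0 else s * C3) := by
    intro b
    rw [wab_eq_exp hD1 _ _ (hr _), hDs]
    by_cases hf : Full T σ b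
    · refine (mul_le_mul_of_nonneg_right (hM1 b hf) (Real.exp_pos _).le).trans ?_
      rw [if_pos hf, ← Real.exp_add]
      refine Real.exp_le_exp.2 (le_of_eq ?_)
      unfold bet
      ring
    · refine (mul_le_mul_of_nonneg_right (hM2 b hf) (Real.exp_pos _).le).trans ?_
      rw [if_neg hf, ← Real.exp_add]
      refine Real.exp_le_exp.2 ?_
      have h2 : |ω' (σ b).1| + |ω (σ b).1| ≤ C3 := hC3 _
      have h3 := le_abs_self (ω' (σ b).1)
      have h4 := neg_abs_le (ω (σ b).1)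
      have h5 : (s : ℝ) * ω' (σ b).1 ≤ s * (ω (σ b).1 + C3) :=
        mul_le_mul_of_nonneg_left (by linarith) (by linarith)
      have h6 : 0 ≤ (s : ℝ) * η := mul_nonneg (by linarith) hη
      unfold bet
      linarith
  have hsumle : ∑ b, (bet P.D0 s r ω (σ b) + s * η + if Full T σ b then 0 else (s : ℝ) * C3) ≤
      Q * (s : ℝ) ^ 2 + C1 * s + 34 * c0 * (C2 * s) + 8 * P.D0 * s * (s * η)
        + 289 * c0 * (s * C3) := by
    rw [Finset.sum_add_distrib, Finset.sum_add_distrib]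
    have h2 := sum_sel_le (P := P) (c0 := c0) (s := s) (σ := σ) (β := bet P.D0 s r ω)
      (b := C2 * s) hcard hσ (fun c hc => hb2 c hc)
    have h4 : ∑ _b : Fin (P.D0 * s) × Fin 8, (s : ℝ) * η = 8 * P.D0 * s * (s * η) := by
      rw [Finset.sum_const, Finset.card_univ, Fintype.card_prod, Fintype.card_fin,
        Fintype.card_fin, nsmul_eq_mul, Nat.cast_mul, hDs]
      push_cast
      ring
    have h5 : ∑ b, (if Full T σ b then 0 else (s : ℝ) * C3) ≤ 289 * c0 * (s * C3) := by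
      have h6 : ∑ b, (if Full T σ b then 0 else (s : ℝ) * C3) =
          ((Finset.univ.filter fun b => ¬ Full T σ b).card : ℝ) * (s * C3) := by
        have e1 := Finset.sum_const (s := Finset.univ.filter fun b => ¬ Full T σ b) ((s : ℝ) * C3)
        rw [nsmul_eq_mul] at e1
        rw [← e1, Finset.sum_filter]
        refine Finset.sum_congr rfl fun b _ => ?_
        by_cases hf : Full T σ b
        · rw [if_pos hf, if_neg (not_not.2 hf)]
        · rw [if_neg hf, if_pos hf]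
      rw [h6]
      refine mul_le_mul_of_nonneg_right ?_ (mul_nonneg (by linarith) hC30)
      have := card_not_full T σ hcard hσ
      exact_mod_cast this
    linarith
  refine (Finset.prod_le_prod (fun b _ => ?_) fun b _ => hprod b).trans ?_
  · exact mul_nonneg (hM0 b) (wab_pos _ _ _ (hr _)).le
  · rw [← Real.exp_sum]
    exact Real.exp_le_exp.2 hsumle

end

theorem exists_eta (D0 : ℕ) {ε : ℝ} (hε : 0 < ε) :
    ∃ η : ℝ, 0 < η ∧ η * (1 + 8 * (D0 : ℝ)) = ε / 2 := by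
  have h : (0 : ℝ) < 1 + 8 * D0 := by positivity
  refine ⟨ε / 2 / (1 + 8 * D0), by positivity, ?_⟩
  field_simp

/-- the final inequality -/
theorem final_arith {ε η s E Q C1 C2 C3 c0 D0 : ℝ} (hε : 0 < ε) (hs : 1 ≤ s)
    (h8 : η * (1 + 8 * D0) = ε / 2)
    (h : (C1 + 34 * c0 * C2 + 289 * c0 * C3) / (ε / 2) ≤ s) :
    -(E - η) * s ^ 2 + (Q * s ^ 2 + C1 * s + 34 * c0 * (C2 * s) + 8 * D0 * s * (s * η)
        + 289 * c0 * (s * C3)) ≤ -(E - Q - ε) * s ^ 2 := by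
  have h6 : (C1 + 34 * c0 * C2 + 289 * c0 * C3) ≤ (ε / 2) * s := by
    rw [div_le_iff₀ (by positivity)] at h
    linarith
  have h7 : (C1 + 34 * c0 * C2 + 289 * c0 * C3) * s ≤ (ε / 2) * s ^ 2 := by
    nlinarith
  have h9 : η * s ^ 2 + 8 * D0 * s * (s * η) = ε / 2 * s ^ 2 := by
    rw [← h8]; ring
  linarith [h7, h9]

/-- **AR from a bound for determinants of nodes.**  `Nm s z v` is a family of norms on the vectors
of the eight coefficients at the point `z` of the `S`-line; `ω g` is the weight of the total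
functional of the group `g` on the circle of radius `r g` round its cusp. -/
theorem stAR_of_nodes_on (P : Par) (c0 : ℕ) (hcard : ∑ g : Gp, P.ht g = 8 * P.D0) (hD0 : 0 < P.D0)
    (r : Gp → ℝ) (hr : ∀ g, 0 < r g) (hr1 : ∀ g, r g < 1)
    (h0 : ∀ g j, Sm (r g) (tup0 g j)) (h1 : ∀ g j, Sm (r g) (tup1 g j))
    (T : Tot P r) (Nm : ℕ → ℂ → (Fin 8 → ℂ) → ℝ) (hN0 : ∀ s z v, 0 ≤ Nm s z v) (E : ℝ)
    (A : Set ℂ) (hA : ∀ g θ, Sc g.cusp (circleMap 0 (r g) θ) ∈ A)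
    (hnode : ∀ η : ℝ, 0 < η → ∃ s0 : ℕ, ∀ s, s0 ≤ s →
      NormBoundOn A (P.D0 * s) (Nm s) (Real.exp (-(E - η) * (s : ℝ) ^ 2)))
    (ω ω' : Gp → ℝ)
    (hω : ∀ η : ℝ, 0 < η → ∃ s0 : ℕ, ∀ s, s0 ≤ s → ∀ g θ,
      Nm s (Sc g.cusp (circleMap 0 (r g) θ)) (fun j => ∑ g', ((T.al g g' : ℝ) : ℂ) *
        Phi ((Gc / 2 : ℝ) : ℂ) g' j (circleMap 0 (r g) θ)) ≤ Real.exp (s * (ω g + η)))
    (hω' : ∃ s0 : ℕ, ∀ s, s0 ≤ s → ∀ g θ,
      Nm s (Sc g.cusp (circleMap 0 (r g) θ)) (fun j =>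
        Phi ((Gc / 2 : ℝ) : ℂ) g j (circleMap 0 (r g) θ)) ≤ Real.exp (s * ω' g)) :
    StAR P c0 (E - Qm P r ω) := by
  classical
  obtain ⟨C1, hC1, hb1⟩ := sum_bet_le P r ω
  obtain ⟨C2, hC2, hb2⟩ := abs_bet_le P r ω c0
  obtain ⟨C3, hC30, hC3⟩ : ∃ C3 : ℝ, 0 ≤ C3 ∧ ∀ g, |ω' g| + |ω g| ≤ C3 :=
    ⟨∑ g : Gp, (|ω' g| + |ω g|), Finset.sum_nonneg fun g _ => by positivity, fun g =>
      Finset.single_le_sum (f := fun g : Gp => |ω' g| + |ω g|) (fun g _ => by positivity)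
        (Finset.mem_univ g)⟩
  obtain ⟨Q, hQ⟩ : ∃ Q, Q = Qm P r ω := ⟨_, rfl⟩
  rw [← hQ] at hb1 ⊢
  clear hQ
  intro ε hε
  obtain ⟨η, hη0, h8⟩ := exists_eta P.D0 hε
  obtain ⟨s1, hs1⟩ := hnode η hη0
  obtain ⟨s2, hs2⟩ := hω η hη0
  obtain ⟨s3, hs3⟩ := hω'
  obtain ⟨s4, hs4⟩ := exists_nat_gt ((C1 + 34 * c0 * C2 + 289 * c0 * C3) / (ε / 2))
  refine ⟨max (max s1 s2) (max s3 (max s4 1)), fun s hs σ hσ => ?_⟩
  have hss1 : s1 ≤ s := le_trans (le_trans (le_max_left _ _) (le_max_left _ _)) hs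
  have hss2 : s2 ≤ s := le_trans (le_trans (le_max_right _ _) (le_max_left _ _)) hs
  have hss3 : s3 ≤ s := le_trans (le_trans (le_max_left _ _) (le_max_right _ _)) hs
  have hss4 : s4 ≤ s := le_trans (le_trans (le_trans (le_max_left _ _) (le_max_right _ _))
    (le_max_right _ _)) hs
  have hss5 : 1 ≤ s := le_trans (le_trans (le_trans (le_max_right _ _) (le_max_right _ _))
    (le_max_right _ _)) hs
  have hsr : (1 : ℝ) ≤ s := by exact_mod_cast hss5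
  rw [abs_det_eq T σ hσ.1 hr hr1 h0 h1]
  -- the bound
  have hM := det_colE_le_norm_on (D := P.D0 * s) (B := Real.exp (-(E - η) * (s : ℝ) ^ 2))
    (Real.exp_pos _).le (Nm := Nm s) (hN0 s) (hs1 s hss1) (fun b => (σ b).1.cusp)
    (fun b => r (σ b).1) (fun b => hr _) (fun b => hr1 _) (fun b θ => hA _ θ) (fun b => (σ b).2)
    (fun b => if Full T σ b then Real.exp (s * (ω (σ b).1 + η)) else Real.exp (s * ω' (σ b).1))
    (PsiB T σ ((Gc / 2 : ℝ) : ℂ)) (fun b j => integrable_PsiB T σ hr h0 h1 _ b j)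
    (fun b => by
      refine Filter.Eventually.of_forall fun θ => ?_
      by_cases hf : Full T σ b
      · simp only [PsiB, if_pos hf]
        exact hs2 s hss2 (σ b).1 θ
      · simp only [PsiB, if_neg hf]
        exact hs3 s hss3 (σ b).1 θ)
  refine hM.trans ?_
  have hfin := prod_cols_le T σ c0 hcard hD0 hr ω ω' (C1 := C1) hη0.le hC30 hC3 (hb1 s) hss5
    (fun c hc => hb2 s hss5 c hc) hσ
    (fun b => if Full T σ b then Real.exp (s * (ω (σ b).1 + η)) else Real.exp (s * ω' (σ b).1))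
    (fun b => by split_ifs <;> exact (Real.exp_pos _).le)
    (fun b hb => by rw [if_pos hb]) (fun b hb => by rw [if_neg hb])
  refine (mul_le_mul_of_nonneg_left hfin (Real.exp_pos _).le).trans ?_
  rw [← Real.exp_add]
  refine Real.exp_le_exp.2 ?_
  exact final_arith hε hsr h8 (hs4.le.trans (by exact_mod_cast hss4))

/-- **AR from a bound for determinants of nodes at all points** -/
theorem stAR_of_nodes (P : Par) (c0 : ℕ) (hcard : ∑ g : Gp, P.ht g = 8 * P.D0) (hD0 : 0 < P.D0)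
    (r : Gp → ℝ) (hr : ∀ g, 0 < r g) (hr1 : ∀ g, r g < 1)
    (h0 : ∀ g j, Sm (r g) (tup0 g j)) (h1 : ∀ g j, Sm (r g) (tup1 g j))
    (T : Tot P r) (Nm : ℕ → ℂ → (Fin 8 → ℂ) → ℝ) (hN0 : ∀ s z v, 0 ≤ Nm s z v) (E : ℝ)
    (hnode : ∀ η : ℝ, 0 < η → ∃ s0 : ℕ, ∀ s, s0 ≤ s →
      NormBound (P.D0 * s) (Nm s) (Real.exp (-(E - η) * (s : ℝ) ^ 2)))
    (ω ω' : Gp → ℝ)
    (hω : ∀ η : ℝ, 0 < η → ∃ s0 : ℕ, ∀ s, s0 ≤ s → ∀ g θ,
      Nm s (Sc g.cusp (circleMap 0 (r g) θ)) (fun j => ∑ g', ((T.al g g' : ℝ) : ℂ) *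
        Phi ((Gc / 2 : ℝ) : ℂ) g' j (circleMap 0 (r g) θ)) ≤ Real.exp (s * (ω g + η)))
    (hω' : ∃ s0 : ℕ, ∀ s, s0 ≤ s → ∀ g θ,
      Nm s (Sc g.cusp (circleMap 0 (r g) θ)) (fun j =>
        Phi ((Gc / 2 : ℝ) : ℂ) g j (circleMap 0 (r g) θ)) ≤ Real.exp (s * ω' g)) :
    StAR P c0 (E - Qm P r ω) := by
  refine stAR_of_nodes_on P c0 hcard hD0 r hr hr1 h0 h1 T Nm hN0 E Set.univ
    (fun _ _ => Set.mem_univ _) (fun η hη => ?_) ω ω' hω hω'
  obtain ⟨s0, h⟩ := hnode η hη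
  exact ⟨s0, fun s hs a v _ => h s hs a v⟩

end Vale.Agent.P030.H866
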